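import Vale.Agent.P088.R2.H509.Tr

/-!
# P088, Theorem S, boundary step: calculus of functions which vanish to second order
-/

set_option linter.all false

open Bundle Manifold MeasureTheory Set Filter Topology Metric
open scoped ContDiff Matrix

noncomputable section

namespace Vale.Agent.P088.R2.H509

open Vale.Agent.P088 Vale.Agent.P088.EYM

variable {n N : ℕ} [NeZero n] {X : E n → E n} {z : E n} {r r' R : ℝ}

theorem pd_mul' {F G : E n → ℝ} (hF : ContDiffOn ℝ ∞ F (HB z r)) (hG : ContDiffOn ℝ ∞ G (HB z r))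
    {x : E n} (hx : x ∈ HB z r) (i : Fin n) :
    pd i (fun y => F y * G y) x = F x * pd i G x + pd i F x * G x :=
  (HB_rel z r).pd_mul hF hG hx i

theorem pd_add' {F G : E n → ℝ} (hF : ContDiffOn ℝ ∞ F (HB z r)) (hG : ContDiffOn ℝ ∞ G (HB z r))
    {x : E n} (hx : x ∈ HB z r) (i : Fin n) :
    pd i (fun y => F y + G y) x = pd i F x + pd i G x :=
  (HB_rel z r).pd_add hF hG hx i

theorem pd_sm {F : E n → ℝ} (hF : ContDiffOn ℝ ∞ F (HB z r)) (i : Fin n) :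
    ContDiffOn ℝ ∞ (pd i F) (HB z r) := (HB_rel z r).pd_smooth hF i

theorem Van2.mul {F G : E n → ℝ} (hF : Van2 z r F) (hG : ContDiffOn ℝ ∞ G (HB z r)) :
    Van2 z r (fun x => F x * G x) := by
  refine ⟨hF.sm.mul hG, fun x hx hx0 => by rw [hF.v0 x hx hx0, zero_mul], fun x hx hx0 i => ?_,
    fun x hx hx0 i j => ?_⟩
  · rw [pd_mul' hF.sm hG hx, hF.v0 x hx hx0, hF.v1 x hx hx0]
    ring
  · have e : EqOn (pd j fun y => F y * G y) (fun y => F y * pd j G y + pd j F y * G y) (HB z r) :=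
      fun y hy => pd_mul' hF.sm hG hy j
    rw [(HB_rel z r).pd_congr e hx i,
      pd_add' (hF.sm.mul (pd_sm hG j)) ((pd_sm hF.sm j).mul hG) hx,
      pd_mul' hF.sm (pd_sm hG j) hx, pd_mul' (pd_sm hF.sm j) hG hx, hF.v0 x hx hx0,
      hF.v1 x hx hx0, hF.v1 x hx hx0, hF.v2 x hx hx0]
    ring

theorem Van2.add {F G : E n → ℝ} (hF : Van2 z r F) (hG : Van2 z r G) :
    Van2 z r (fun x => F x + G x) := by
  refine ⟨hF.sm.add hG.sm, fun x hx hx0 => by rw [hF.v0 x hx hx0, hG.v0 x hx hx0, add_zero],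
    fun x hx hx0 i => ?_, fun x hx hx0 i j => ?_⟩
  · rw [pd_add' hF.sm hG.sm hx, hF.v1 x hx hx0, hG.v1 x hx hx0, add_zero]
  · have e : EqOn (pd j fun y => F y + G y) (fun y => pd j F y + pd j G y) (HB z r) :=
      fun y hy => pd_add' hF.sm hG.sm hy j
    rw [(HB_rel z r).pd_congr e hx i, pd_add' (pd_sm hF.sm j) (pd_sm hG.sm j) hx,
      hF.v2 x hx hx0, hG.v2 x hx hx0, add_zero]

/-- Derivative of a composition. -/
theorem pd_comp' {F : E n → ℝ} (hF : ContDiffOn ℝ ∞ F (HB z r)) {φ : ℝ → ℝ} {φ' : ℝ} {x : E n}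
    (hx : x ∈ HB z r) (hφ : HasDerivAt φ φ' (F x)) (i : Fin n) :
    pd i (fun y => φ (F y)) x = φ' * pd i F x := by
  have h1 := (HB_rel z r).hasD hx hF (by simp)
  have h2 := hφ.comp_hasFDerivWithinAt x h1
  have h3 : HasFDerivWithinAt (fun y => φ (F y)) _ (Hs n) x := h2
  rw [pd_of_has hx.2 h3 i]
  rfl

theorem Van2.rpow {F : E n → ℝ} (hF : Van2 z r F) (hp : ∀ x ∈ HB z r, 0 < 1 + F x) (κ : ℝ) :
    Van2 z r (fun x => (1 + F x) ^ κ - 1) := by
  have h1 : ContDiffOn ℝ ∞ (fun x => 1 + F x) (HB z r) := contDiffOn_const.add hF.sm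
  have hs : ∀ κ : ℝ, ContDiffOn ℝ ∞ (fun x => (1 + F x) ^ κ) (HB z r) := fun κ =>
    h1.rpow_const_of_ne fun x hx => (hp x hx).ne'
  have hpd : ∀ x ∈ HB z r, ∀ i, pd i (fun x => (1 + F x) ^ κ - 1) x =
      (κ * (1 + F x) ^ (κ - 1)) * pd i F x := by
    intro x hx i
    refine pd_comp' hF.sm (φ := fun t => (1 + t) ^ κ - 1) hx ?_ i
    have h2 : HasDerivAt (fun t : ℝ => 1 + t) 1 (F x) := (hasDerivAt_id _).const_add 1
    have h3 := (h2.rpow_const (p := κ) (Or.inl (hp x hx).ne')).sub_const 1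
    have e : κ * (1 + F x) ^ (κ - 1) = 1 * κ * (1 + F x) ^ (κ - 1) := by ring
    rw [e]
    exact h3
  refine ⟨(hs κ).sub contDiffOn_const, fun x hx hx0 => ?_, fun x hx hx0 i => ?_,
    fun x hx hx0 i j => ?_⟩
  · rw [hF.v0 x hx hx0]
    simp
  · rw [hpd x hx i, hF.v1 x hx hx0, mul_zero]
  · rw [(HB_rel z r).pd_congr (fun y hy => hpd y hy j) hx i,
      pd_mul' (contDiffOn_const.mul (hs (κ - 1))) (pd_sm hF.sm j) hx, hF.v2 x hx hx0,
      hF.v1 x hx hx0]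
    ring

/-! ### Linearity -/

theorem Geo.Dx_add (h : Geo X z r r' R) {F G : E n → ℝ} (hF : ContDiffOn ℝ ∞ F (HB z r))
    (hG : ContDiffOn ℝ ∞ G (HB z r)) {x : E n} (hx : x ∈ HB z r) (j : Fin n) :
    Dx X j (fun y => F y + G y) x = Dx X j F x + Dx X j G x := by
  unfold Dx
  rw [← Finset.sum_add_distrib]
  refine Finset.sum_congr rfl fun k _ => ?_
  rw [pd_add' hF hG hx]
  ring

theorem Dx_congr {F G : E n → ℝ} (h : EqOn F G (HB z r)) {x : E n} (hx : x ∈ HB z r)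
    (j : Fin n) : Dx X j F x = Dx X j G x := by
  unfold Dx
  refine Finset.sum_congr rfl fun k _ => ?_
  rw [(HB_rel z r).pd_congr h hx]

theorem Lx_congr {F G : E n → ℝ} (h : EqOn F G (HB z r)) {x : E n} (hx : x ∈ HB z r) :
    Lx X F x = Lx X G x := by
  unfold Lx
  exact Finset.sum_congr rfl fun j _ => Dx_congr (fun y hy => Dx_congr h hy j) hx j

theorem Geo.Lx_add (h : Geo X z r r' R) {F G : E n → ℝ} (hF : ContDiffOn ℝ ∞ F (HB z r))
    (hG : ContDiffOn ℝ ∞ G (HB z r)) {x : E n} (hx : x ∈ HB z r) :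
    Lx X (fun y => F y + G y) x = Lx X F x + Lx X G x := by
  unfold Lx
  rw [← Finset.sum_add_distrib]
  refine Finset.sum_congr rfl fun j _ => ?_
  rw [Dx_congr (fun y hy => h.Dx_add hF hG hy j) hx j, h.Dx_add (h.Dx_sm hF j) (h.Dx_sm hG j) hx]

theorem Geo.Dx_neg (h : Geo X z r r' R) {F : E n → ℝ} (hF : ContDiffOn ℝ ∞ F (HB z r))
    {x : E n} (hx : x ∈ HB z r) (j : Fin n) : Dx X j (fun y => -F y) x = -Dx X j F x := by
  unfold Dx
  rw [← Finset.sum_neg_distrib]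
  refine Finset.sum_congr rfl fun k _ => ?_
  have h := (HB_rel z r).pd_const_smul (-1 : ℝ) hF hx k
  have e : pd k (fun y => -F y) x = -pd k F x := by simpa using h
  rw [e]
  ring

theorem Geo.Lx_neg (h : Geo X z r r' R) {F : E n → ℝ} (hF : ContDiffOn ℝ ∞ F (HB z r))
    {x : E n} (hx : x ∈ HB z r) : Lx X (fun y => -F y) x = -Lx X F x := by
  unfold Lx
  rw [← Finset.sum_neg_distrib]
  refine Finset.sum_congr rfl fun j _ => ?_
  rw [Dx_congr (fun y hy => h.Dx_neg hF hy j) hx j, h.Dx_neg (h.Dx_sm hF j) hx]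

theorem Geo.Lx_sub (h : Geo X z r r' R) {F G : E n → ℝ} (hF : ContDiffOn ℝ ∞ F (HB z r))
    (hG : ContDiffOn ℝ ∞ G (HB z r)) {x : E n} (hx : x ∈ HB z r) :
    Lx X (fun y => F y - G y) x = Lx X F x - Lx X G x := by
  have e : (fun y => F y - G y) = fun y => F y + (fun y => -G y) y := by
    funext y; ring
  rw [e, h.Lx_add hF hG.neg hx, h.Lx_neg hG hx]
  ring

/-- second derivatives at a point where the first derivatives vanish -/
theorem Geo.Lx_crit (h : Geo X z r r' R) {F : E n → ℝ} (hF : ContDiffOn ℝ ∞ F (HB z r))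
    {x : E n} (hx : x ∈ HB z r) (h1 : ∀ i, pd i F x = 0) :
    Lx X F x = ∑ j, ∑ l, ∑ k, (Jac X x)⁻¹ l j * ((Jac X x)⁻¹ k j * pd l (pd k F) x) := by
  unfold Lx
  refine Finset.sum_congr rfl fun j _ => ?_
  show ∑ l, (Jac X x)⁻¹ l j * pd l (Dx X j F) x = _
  refine Finset.sum_congr rfl fun l _ => ?_
  rw [← Finset.mul_sum]
  congr 1
  have e : pd l (Dx X j F) x = ∑ k, pd l (fun x => (Jac X x)⁻¹ k j * pd k F x) x :=
    (HB_rel z r).pd_sum Finset.univ
      (fun k _ => (h.inv_sm k j).mul ((HB_rel z r).pd_smooth hF k)) hx l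
  rw [e]
  refine Finset.sum_congr rfl fun k _ => ?_
  rw [pd_mul' (h.inv_sm k j) (pd_sm hF k) hx, h1]
  ring

theorem Geo.Lx_van (h : Geo X z r r' R) {F : E n → ℝ} (hF : Van2 z r F)
    {x : E n} (hx : x ∈ HB z r) (hx0 : x 0 = 0) : Lx X F x = 0 := by
  rw [h.Lx_crit hF.sm hx (hF.v1 x hx hx0)]
  simp [hF.v2 x hx hx0]

/-- If `F` vanishes to first order and `Lx F = 0` at the boundary, it vanishes to second order. -/
theorem Geo.van_of_Lx (h : Geo X z r r' R) {F : E n → ℝ} (hF : ContDiffOn ℝ ∞ F (HB z r))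
    (h0 : ∀ x ∈ HB z r, x 0 = 0 → F x = 0) (h1 : ∀ x ∈ HB z r, x 0 = 0 → pd 0 F x = 0)
    (h2 : ∀ x ∈ HB z r, x 0 = 0 → Lx X F x = 0) : Van2 z r F := by
  refine Van2.of_normal hF h0 h1 fun x hx hx0 => ?_
  have v1 : ∀ x ∈ HB z r, x 0 = 0 → ∀ i, pd i F x = 0 := by
    intro x hx hx0 i
    by_cases hi : i = 0
    · subst hi; exact h1 x hx hx0
    · exact pd_tan hF h0 hx hx0 hi
  have h3 := h.Lx_crit hF hx (v1 x hx hx0)
  rw [h2 x hx hx0] at h3
  have h4 : ∀ l k, ¬ (l = 0 ∧ k = 0) → pd l (pd k F) x = 0 := by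
    intro l k hlk
    by_cases hl : l = 0
    · have hk : k ≠ 0 := fun hk => hlk ⟨hl, hk⟩
      rw [(HB_rel z r).pd_comm hF hx l k]
      exact pd_tan (pd_sm hF l) (fun x hx hx0 => v1 x hx hx0 l) hx hx0 hk
    · exact pd_tan (pd_sm hF k) (fun x hx hx0 => v1 x hx hx0 k) hx hx0 hl
  have h5 : ∀ j, ∑ l, ∑ k, (Jac X x)⁻¹ l j * ((Jac X x)⁻¹ k j * pd l (pd k F) x) =
      ((Jac X x)⁻¹ 0 j) ^ 2 * pd 0 (pd 0 F) x := by
    intro j
    rw [Finset.sum_eq_single (0 : Fin n), Finset.sum_eq_single (0 : Fin n)]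
    · ring
    · intro k _ hk
      rw [h4 0 k fun h => hk h.2]
      ring
    · intro h; exact absurd (Finset.mem_univ _) h
    · intro l _ hl
      refine Finset.sum_eq_zero fun k _ => ?_
      rw [h4 l k fun h => hl h.1]
      ring
    · intro h; exact absurd (Finset.mem_univ _) h
  rw [Finset.sum_congr rfl fun j _ => h5 j, ← Finset.sum_mul] at h3
  have h6 : (∑ j, ((Jac X x)⁻¹ 0 j) ^ 2) ≠ 0 := by
    intro h7
    have h8 := (Finset.sum_eq_zero_iff_of_nonneg fun j _ => sq_nonneg _).1 h7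
    have h9 : ∀ j, (Jac X x)⁻¹ 0 j = 0 := fun j => by
      have := h8 j (Finset.mem_univ j)
      exact pow_eq_zero_iff (two_ne_zero) |>.1 this
    have hu : IsUnit (Jac X x).det := isUnit_iff_ne_zero.2 (h.det x (HB_sub_KB hx))
    have h10 := congrFun (congrFun (Matrix.nonsing_inv_mul _ hu) 0) 0
    rw [Matrix.mul_apply, Matrix.one_apply_eq] at h10
    simp [h9] at h10
  exact (mul_eq_zero.1 h3.symm).resolve_left h6

/-- The operator of the metric `θ^{4/(n-2)} Xᵀ X`, up to the boundary. -/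
theorem Geo.tr (h : Geo X z r r' R) (hn : 3 ≤ n) {g : E n → Matrix (Fin n) (Fin n) ℝ}
    (hgg : ∀ j k, ContDiffOn ℝ ∞ (gg g j k) (HB z r))
    {θ F : E n → ℝ} (hθ : ContDiffOn ℝ ∞ θ (HB z r)) (hpos : ∀ x ∈ HB z r, 0 < θ x)
    (hg : ∀ x ∈ HB z r, g x = (θ x) ^ (4 / ((n : ℝ) - 2)) • ((Jac X x).transpose * Jac X x))
    (hF : ContDiffOn ℝ ∞ F (HB z r)) {x : E n} (hx : x ∈ HB z r) :
    Ls g F x = |(Jac X x).det| * (θ x * Lx X (fun x => θ x * F x) x - θ x * F x * Lx X θ x) := by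
  refine eq_of_OB (z := z) (r := r) (F := Ls g F)
    (G := fun x => |(Jac X x).det| * (θ x * Lx X (fun x => θ x * F x) x - θ x * F x * Lx X θ x))
    ?_ ?_ (fun x hx => h.tr_OB hn hθ hpos hg hF hx) x hx
  · unfold Ls
    refine continuousOn_finsetSum _ fun j _ => ?_
    exact (pd_sm (ContDiffOn.sum fun k _ => (hgg j k).mul (pd_sm hF k)) j).continuousOn
  · have h1 : ContinuousOn (fun x => |(Jac X x).det|) (HB z r) :=
      (Jacobi_det_smooth (g := Jac X) h.Jac_sm).continuousOn.abs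
    exact h1.mul ((hθ.continuousOn.mul (h.Lx_sm (hθ.mul hF)).continuousOn).sub
      ((hθ.continuousOn.mul hF.continuousOn).mul (h.Lx_sm hθ).continuousOn))

end Vale.Agent.P088.R2.H509
end
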