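import Vale.Agent.P088.R2.H509.Cov

/-!
# P088, Theorem S, boundary step: the solutions attached to a test function
-/

set_option linter.all false

open Bundle Manifold MeasureTheory Set Filter Topology Metric
open scoped ContDiff Matrix

noncomputable section

namespace Vale.Agent.P088.R2.H509

open Vale.Agent.P088 Vale.Agent.P088.EYM Vale.Agent.P088.EYM.O

universe u

section

variable {n N : ℕ} [NeZero n] {M : Type u} [TopologicalSpace M]
  [ChartedSpace (EuclideanHalfSpace n) M] [IsManifold (𝓡∂ n) ∞ M] [T2Space M] [CompactSpace M]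
  [ConnectedSpace M] [MeasurableSpace M] [BorelSpace M] {P Q : One n N M} {Γ : Set M} {c : M → ℝ}
  {p : M} {X : E n → E n} {om : E n → ℝ} {z : E n} {r r' R : ℝ}

/-- The section `a v`. -/
abbrev sec (v : Fib N) (a : M → ℝ) : M → Fib N := fun x => (a x : ℂ) • v

theorem Su.t_ex (h : Su P Q Γ c p X om z r r' R) {f : E n → ℝ} (hf : ContDiff ℝ ∞ f)
    (hfc : HasCompactSupport f) (hft : tsupport f ⊆ ball 0 R) {v : Fib N} (hv : ‖v‖ = 1) :
    ∃ t : M → ℝ, SmR n t ∧ (∀ y ∈ HB z r, ch (n := n) p t y = f (X y) / om (X y)) ∧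
      tsupport t ⊆ (xc n p).symm '' (KB z r ∩ X ⁻¹' tsupport f) ∧
      closure {x ∈ (𝓡∂ n).boundary M | t x ≠ 0} ⊆ Γ := by
  set K' : Set (E n) := KB z r ∩ X ⁻¹' tsupport f with hK'
  have hK'c : IsCompact K' := by
    have h1 : IsClosed (tsupport f) := isClosed_tsupport f
    obtain ⟨U, hU, hUe⟩ := continuousOn_iff_isClosed.1 h.geo.contX (tsupport f) h1
    have e : K' = U ∩ KB z r := by
      rw [← hUe, inter_comm]
    rw [e]
    exact KB_compact.inter_left hU
  have hK'D : K' ⊆ HB z r := fun x hx => h.geo.SR_HB ⟨hx.1, hft hx.2⟩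
  have hT : ContDiffOn ℝ ∞ (fun y => f (X y) / om (X y)) (HB z r) :=
    (hf.comp_contDiffOn h.geo.smH).div h.w1s fun x hx => (h.pw x (h.HBr hx)).ne'
  have hTv : ContDiffOn ℝ ∞ (fun y => sp v (f (X y) / om (X y))) (HB z r) :=
    (sp v).contDiff.comp_contDiffOn hT
  have h0 : ∀ y ∈ HB z r, y ∉ K' → sp v (f (X y) / om (X y)) = 0 := by
    intro y hy hyK
    have h1 : f (X y) = 0 := image_eq_zero_of_notMem_tsupport fun h' => hyK ⟨HB_sub_KB hy, h'⟩
    rw [h1, zero_div, map_zero]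
  obtain ⟨u, hu, huD, hu0, hus⟩ := TM.fExt n N M p (fun y => sp v (f (X y) / om (X y))) (HB z r) K'
    (HB_rel z r) (h.HBr.trans h.sub) hTv hK'c hK'D h0
  have hval : ∀ y ∈ HB z r, rin v (u ((xc n p).symm y)) = f (X y) / om (X y) := by
    intro y hy
    rw [huD y hy, sp_apply, rin_apply, inner_smul_right, inner_self_eq_norm_sq_to_K, hv]
    simp
  have ht0 : ∀ x, u x = 0 → rin v (u x) = 0 := fun x hx => by rw [hx, map_zero]
  refine ⟨fun x => rin v (u x), smR_clm (rin v) hu, hval, ?_, ?_⟩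
  · refine (closure_mono ?_).trans hus
    intro x hx hx0
    exact hx (ht0 x hx0)
  · have hcl : IsClosed ((xc n p).symm '' K') :=
      (hK'c.image_of_continuousOn ((continuousOn_extChartAt_symm p).mono
        ((hK'D.trans h.HBr).trans h.sub))).isClosed
    obtain ⟨hrel, hOk, hbd, -⟩ := TM.fLoc n N M
    have hbdc : IsClosed ((𝓡∂ n).boundary M) := by
      rw [← ModelWithCorners.compl_interior]
      exact (TM.fConn n M).1.isClosed_compl
    have h1 : closure {x ∈ (𝓡∂ n).boundary M | rin v (u x) ≠ 0} ⊆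
        (xc n p).symm '' K' ∩ (𝓡∂ n).boundary M := by
      refine closure_minimal ?_ (hcl.inter hbdc)
      rintro x ⟨hx, hx'⟩
      exact ⟨by_contra fun h => hx' (ht0 x (hu0 x h)), hx⟩
    refine h1.trans ?_
    rintro x ⟨⟨y, hy, rfl⟩, hx⟩
    have hy' := h.HBr (hK'D hy)
    have hyt := h.sub hy'
    refine h.Γs y hy' ?_
    have h2 := (hbd p _ ((xc n p).map_target hyt)).1 hx
    rwa [(xc n p).right_inv hyt] at h2

/-- A solution with its boundary values. -/
structure Sl (P : One n N M) (v : Fib N) (t a : M → ℝ) : Prop where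
  st : SmR n t
  sa : SmR n a
  eq : ∀ x ∈ (𝓡∂ n).boundary M, a x = t x
  harm : P.Harm (sec v t) (sec v a)

theorem sl_ex {P : One n N M} (hA : ∀ x X, P.A.form x X = 0) (hN : 0 < N) {Γ : Set M}
    (hs : P.HasSol Γ) (v : Fib N) {t : M → ℝ} (ht : SmR n t)
    (hsp : closure {x ∈ (𝓡∂ n).boundary M | t x ≠ 0} ⊆ Γ) : ∃ a, Sl P v t a := by
  obtain ⟨w, hw, hwb⟩ := m0b n N M P Γ t hN hA hs ht hsp
  have h1 := m0a n N M P w v hA hw
  refine ⟨w, ht, hw.sm, hwb, h1.smooth, fun x hx => ?_, h1.weak⟩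
  show ((w x : ℂ) • v) = ((t x : ℂ) • v)
  rw [hwb x hx]

theorem bdry_sp {Γ : Set M} {t : M → ℝ} (ht : SmR n t) (v : Fib N)
    (hsp : closure {x ∈ (𝓡∂ n).boundary M | t x ≠ 0} ⊆ Γ) : IsBdryData (𝓡∂ n) Γ (sec v t) := by
  refine ⟨smS_sp ht v, (closure_mono ?_).trans hsp⟩
  rintro x ⟨hx, hx'⟩
  refine ⟨hx, fun h => hx' ?_⟩
  simp only [sec, h, Complex.ofReal_zero, zero_smul]

theorem pr_of {t a b : M → ℝ} {v : Fib N} (hsp : closure {x ∈ (𝓡∂ n).boundary M | t x ≠ 0} ⊆ Γ)
    (ha : Sl P v t a) (hb : Sl Q v t b) : Pr P Q Γ v a b :=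
  ⟨ha.sa, hb.sa, fun x hx => (ha.eq x hx).trans (hb.eq x hx).symm,
    sec v t, bdry_sp ha.st v hsp, ha.harm, hb.harm⟩

/-! ### Energies -/

theorem sec_sub (v : Fib N) (a t : M → ℝ) :
    sec v (fun x => a x - t x) = sec v a + (-1 : ℂ) • sec v t := by
  funext x
  simp only [sec, Pi.add_apply, Pi.smul_apply, smul_smul, ← add_smul]
  congr 1
  push_cast
  ring

theorem smS_neg (v : Fib N) {t : M → ℝ} (ht : SmR n t) : SmS n ((-1 : ℂ) • sec v t) := by
  have h1 : SmR n (fun x => -t x) := smR_clm (-(ContinuousLinearMap.id ℝ ℝ)) ht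
  have h2 := smS_sp h1 v
  have e : (-1 : ℂ) • sec v t = fun x => ((-t x : ℝ) : ℂ) • v := by
    funext x
    simp only [sec, Pi.smul_apply, smul_smul]
    congr 1
    push_cast
    ring
  rw [e]
  exact h2

variable {v : Fib N} {t a : M → ℝ}

theorem smR_sub' {a t : M → ℝ} (ha : SmR n a) (ht : SmR n t) : SmR n (fun x => a x - t x) :=
  ha.sub ht

/-- `E(D,D) = - E(D,T)` for `D = A - T`. -/
theorem Sl.eDD (h : Sl P v t a) : P.E (sec v fun x => a x - t x) (sec v fun x => a x - t x) =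
    -P.E (sec v fun x => a x - t x) (sec v t) := by
  obtain ⟨f1, f2, f3, f4, f5⟩ := TM.fForm n N M P
  have sD : SmS n (sec v fun x => a x - t x) := smS_sp (smR_sub' h.sa h.st) v
  have sA : SmS n (sec v a) := smS_sp h.sa v
  have sT : SmS n (sec v t) := smS_sp h.st v
  have h0 : P.E (sec v a) (sec v fun x => a x - t x) = 0 := by
    refine h.harm.weak _ sD fun x hx => ?_
    simp only [sec, h.eq x hx, sub_self, Complex.ofReal_zero, zero_smul]
  have h1 : P.E (sec v fun x => a x - t x) (sec v a) = 0 := by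
    rw [f3 _ _ sA sD, h0, map_zero]
  have h2 : P.E (sec v fun x => a x - t x) (sec v fun x => a x - t x) =
      P.E (sec v fun x => a x - t x) (sec v a) +
        P.E (sec v fun x => a x - t x) ((-1 : ℂ) • sec v t) := by
    conv_lhs => rw [show P.E (sec v fun x => a x - t x) (sec v fun x => a x - t x) =
      P.E (sec v fun x => a x - t x) (sec v a + (-1 : ℂ) • sec v t) by rw [← sec_sub]]
    exact f1 _ _ _ sD sA (smS_neg v h.st)
  rw [h2, h1, f2 _ _ _ sD sT]
  ring

/-- `E(T,T) = E(A,A) + E(D,D)`. -/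
theorem Sl.pyth (h : Sl P v t a) : (P.E (sec v t) (sec v t)).re =
    (P.E (sec v a) (sec v a)).re +
      (P.E (sec v fun x => a x - t x) (sec v fun x => a x - t x)).re := by
  obtain ⟨f1, f2, f3, f4, f5⟩ := TM.fForm n N M P
  have sD : SmS n (sec v fun x => a x - t x) := smS_sp (smR_sub' h.sa h.st) v
  have sA : SmS n (sec v a) := smS_sp h.sa v
  have sT : SmS n (sec v t) := smS_sp h.st v
  have h0 : P.E (sec v a) (sec v fun x => a x - t x) = 0 := by
    refine h.harm.weak _ sD fun x hx => ?_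
    simp only [sec, h.eq x hx, sub_self, Complex.ofReal_zero, zero_smul]
  have e1 : P.E (sec v a) (sec v a) - P.E (sec v a) (sec v t) = 0 := by
    have h2 : P.E (sec v a) (sec v fun x => a x - t x) =
        P.E (sec v a) (sec v a) + P.E (sec v a) ((-1 : ℂ) • sec v t) := by
      rw [sec_sub]
      exact f1 _ _ _ sA sA (smS_neg v h.st)
    rw [h0, f2 _ _ _ sA sT] at h2
    rw [h2]
    ring
  have e2 := h.eDD
  have e3 : P.E (sec v t) (sec v fun x => a x - t x) =
      P.E (sec v t) (sec v a) - P.E (sec v t) (sec v t) := by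
    have h2 : P.E (sec v t) (sec v fun x => a x - t x) =
        P.E (sec v t) (sec v a) + P.E (sec v t) ((-1 : ℂ) • sec v t) := by
      rw [sec_sub]
      exact f1 _ _ _ sT sA (smS_neg v h.st)
    rw [h2, f2 _ _ _ sT sT]
    ring
  have e4 : (P.E (sec v fun x => a x - t x) (sec v t)).re =
      (P.E (sec v t) (sec v fun x => a x - t x)).re := by
    rw [f3 _ _ sT sD, Complex.conj_re]
  have e5 : (P.E (sec v t) (sec v a)).re = (P.E (sec v a) (sec v t)).re := by
    rw [f3 _ _ sA sT, Complex.conj_re]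
  rw [e2, Complex.neg_re, e4, e3, Complex.sub_re, e5]
  have e6 := congrArg Complex.re e1
  rw [Complex.sub_re, Complex.zero_re] at e6
  linarith

theorem E_nonneg (P : One n N M) (v : Fib N) {a : M → ℝ} (ha : SmR n a) :
    0 ≤ (P.E (sec v a) (sec v a)).re := (TM.fForm n N M P).2.2.2.1 _ (smS_sp ha v)

/-- The Poincaré inequality for real functions. -/
theorem poinc (P : One n N M) (hb : ((𝓡∂ n).boundary M).Nonempty) {v : Fib N} (hv : ‖v‖ = 1) :
    ∃ C > 0, ∀ D : M → ℝ, SmR n D → (∀ x ∈ (𝓡∂ n).boundary M, D x = 0) →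
      ∫ x, D x ^ 2 ∂P.μ ≤ C * (P.E (sec v D) (sec v D)).re := by
  obtain ⟨C, hC, hCb⟩ := TM.fPoinc n N M P hb
  refine ⟨C, hC, fun D hD h0 => ?_⟩
  have h1 := hCb (sec v D) (smS_sp hD v) fun x hx => by
    simp only [sec, h0 x hx, Complex.ofReal_zero, zero_smul]
  refine le_trans (le_of_eq ?_) h1
  refine integral_congr_ae (Eventually.of_forall fun x => ?_)
  simp only [sec, norm_smul, hv, mul_one, Complex.norm_real, Real.norm_eq_abs, sq_abs]

/-- The norm of the solution. -/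
theorem sol_bound (P : One n N M) (hb : ((𝓡∂ n).boundary M).Nonempty) {v : Fib N} (hv : ‖v‖ = 1) :
    ∃ C > 0, ∀ t a : M → ℝ, Sl P v t a →
      (∫ x, a x ^ 2 ∂P.μ) + (P.E (sec v a) (sec v a)).re ≤
        C * ((∫ x, t x ^ 2 ∂P.μ) + (P.E (sec v t) (sec v t)).re) := by
  obtain ⟨C, hC, hCb⟩ := poinc P hb hv
  refine ⟨2 * C + 2, by positivity, fun t a h => ?_⟩
  have h1 := hCb (fun x => a x - t x) (smR_sub' h.sa h.st) fun x hx => by
    simp only [h.eq x hx, sub_self]
  have h2 := h.pyth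
  have h3 := E_nonneg P v h.sa
  have h4 := E_nonneg P v (smR_sub' h.sa h.st)
  have i1 : Integrable (fun x => (a x - t x) ^ 2) P.μ :=
    int_M P ((h.sa.continuous.sub h.st.continuous).pow 2)
  have i2 : Integrable (fun x => t x ^ 2) P.μ := int_M P (h.st.continuous.pow 2)
  have i3 : Integrable (fun x => a x ^ 2) P.μ := int_M P (h.sa.continuous.pow 2)
  have h5 : ∫ x, a x ^ 2 ∂P.μ ≤ 2 * (∫ x, (a x - t x) ^ 2 ∂P.μ) + 2 * ∫ x, t x ^ 2 ∂P.μ := by
    rw [← integral_const_mul, ← integral_const_mul, ← integral_add (i1.const_mul 2) (i2.const_mul 2)]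
    refine integral_mono i3 ((i1.const_mul 2).add (i2.const_mul 2)) fun x => ?_
    show a x ^ 2 ≤ 2 * (a x - t x) ^ 2 + 2 * t x ^ 2
    nlinarith [sq_nonneg (a x - 2 * t x)]
  have h6 : 0 ≤ ∫ x, t x ^ 2 ∂P.μ := integral_nonneg fun _ => sq_nonneg _
  nlinarith

end

end Vale.Agent.P088.R2.H509
end
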