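import Vale.Agent.P088.R2.H509.Sd

/-!
# P088, Theorem S, boundary step: the distance of the solution to the test function
-/

set_option linter.all false

open Bundle Manifold MeasureTheory Set Filter Topology Metric
open scoped ContDiff Matrix

noncomputable section

namespace Vale.Agent.P088.R2.H509

open Vale.Agent.P088 Vale.Agent.P088.EYM Vale.Agent.P088.EYM.O

universe u

section

variable {n : ℕ} [NeZero n] {X : E n → E n} {z : E n} {r r' R : ℝ}

theorem Geo.det_c (h : Geo X z r r' R) : ContinuousOn (fun x => |(Jac X x).det|) (HB z r') :=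
  (Jacobi_det_smooth (g := Jac X) fun i j =>
    (HB_rel z r').pd_smooth (coord_smooth h.sm i) j).continuousOn.abs

theorem Geo.comp_c (h : Geo X z r r' R) {g : E n → ℝ} (hg : Continuous g) :
    ContinuousOn (fun x => g (X x)) (HB z r') := hg.comp_continuousOn h.sm.continuousOn

theorem sq_int {h : E n → ℝ} (hc : Continuous h) (hs : HasCompactSupport h) :
    Integrable (fun x => h x ^ 2) := by
  refine (hc.pow 2).integrable_of_hasCompactSupport ?_
  refine hs.mono fun x hx h0 => hx ?_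
  show h x ^ 2 = 0
  rw [h0]
  norm_num

theorem amgm {S : Set (E n)} (hS : MeasurableSet S) {K : ℝ} (hK : 0 < K) {d A B : E n → ℝ}
    (hd : ∀ x, 0 ≤ d x) (i1 : IntegrableOn (fun x => d x * A x ^ 2) S)
    (i2 : IntegrableOn (fun x => d x * B x ^ 2) S)
    (i3 : IntegrableOn (fun x => d x * (A x * B x)) S) :
    ∫ x in S, d x * (A x * B x) ≤
      K / 2 * (∫ x in S, d x * A x ^ 2) + (2 * K)⁻¹ * ∫ x in S, d x * B x ^ 2 := by
  rw [← integral_const_mul, ← integral_const_mul, ← integral_add (i1.const_mul _) (i2.const_mul _)]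
  refine setIntegral_mono_on i3 ((i1.const_mul _).add (i2.const_mul _)) hS fun x hx => ?_
  have h1 : A x * B x ≤ K / 2 * A x ^ 2 + (2 * K)⁻¹ * B x ^ 2 := by
    have e : K / 2 * A x ^ 2 + (2 * K)⁻¹ * B x ^ 2 - A x * B x =
        (2 * K)⁻¹ * (K * A x - B x) ^ 2 := by
      field_simp
      ring
    have : 0 ≤ (2 * K)⁻¹ * (K * A x - B x) ^ 2 := by positivity
    linarith
  calc _ ≤ d x * (K / 2 * A x ^ 2 + (2 * K)⁻¹ * B x ^ 2) :=
        mul_le_mul_of_nonneg_left h1 (hd x)
    _ = _ := by ring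

theorem inner_sp {N : ℕ} {v : Fib N} (hv : ‖v‖ = 1) (s t : ℝ) :
    (inner ℂ (sp v s) (sp v t) : ℂ) = ((s * t : ℝ) : ℂ) := by
  rw [sp_apply, sp_apply, inner_smul_left, inner_smul_right, Complex.conj_ofReal,
    inner_self_eq_norm_sq_to_K, hv]
  push_cast
  ring

end

section

variable {n N : ℕ} [NeZero n] {M : Type u} [TopologicalSpace M]
  [ChartedSpace (EuclideanHalfSpace n) M] [IsManifold (𝓡∂ n) ∞ M] [T2Space M] [CompactSpace M]
  [ConnectedSpace M] [MeasurableSpace M] [BorelSpace M] {P Q : One n N M} {Γ : Set M} {c : M → ℝ}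
  {p : M} {X : E n → E n} {om : E n → ℝ} {z : E n} {r r' R : ℝ}

/-- The test function and the function on `M`. -/
structure TT (p : M) (X : E n → E n) (om : E n → ℝ) (z : E n) (r R : ℝ) (f : E n → ℝ)
    (t : M → ℝ) : Prop where
  sm : ContDiff ℝ ∞ f
  cs : HasCompactSupport f
  ts : tsupport f ⊆ ball 0 R
  ct : ∀ y ∈ HB z r, ch (n := n) p t y = f (X y) / om (X y)
  st : tsupport t ⊆ (xc n p).symm '' (KB z r ∩ X ⁻¹' tsupport f)

theorem TT.f0 {f : E n → ℝ} {t : M → ℝ} (ht : TT p X om z r R f t) {y : E n} (hy : y ∉ ball (0 : E n) R) :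
    f y = 0 := image_eq_zero_of_notMem_tsupport fun h => hy (ht.ts h)

/-- The energy of the difference. -/
theorem Su.e_eq (h : Su P Q Γ c p X om z r r' R) {v : Fib N} (hv : ‖v‖ = 1) {f h₁ h₂ : E n → ℝ}
    {t a : M → ℝ} (ht : TT p X om z r R f t) (hs : Sl P v t a) (hh₁ : ∀ x ∈ KB z r, h₁ (X x) = 0)
    (hlap : ∀ x, H31.lap f x = h₁ x + h₂ x) (hh₂ : Continuous h₂) :
    (P.E (sec v fun x => a x - t x) (sec v fun x => a x - t x)).re =
      ∫ x in HB z r, |(Jac X x).det| *
        (h₂ (X x) * (om (X x) * ch (n := n) p (fun x => a x - t x) x)) := by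
  obtain ⟨f1, f2, f3, f4, f5⟩ := TM.fForm n N M P
  have sDr : SmR n (fun x => a x - t x) := smR_sub' hs.sa hs.st
  have sD : SmS n (sec v fun x => a x - t x) := smS_sp sDr v
  have sT : SmS n (sec v t) := smS_sp hs.st v
  have hDt : HB z r ⊆ tg n p := h.HBr.trans h.sub
  obtain ⟨hrel, hOk, hbd, hlu⟩ := TM.fLoc n N M
  have hok : (P.loc p).Ok (HB z r) := cRungeB_ok_mono h.okP h.HBr
  have sct : ContDiffOn ℝ ∞ (ch (n := n) p t) (HB z r) := (ch_smooth hs.st p).mono hDt
  -- the energy is an integral in the chart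
  have hts : tsupport (sec v t) ⊆ (xc n p).symm '' HB z r := by
    refine (closure_mono ?_).trans (ht.st.trans (image_mono fun x hx => h.geo.SR_HB ⟨hx.1, ht.ts hx.2⟩))
    intro x hx hx0
    apply hx
    simp only [sec, hx0, Complex.ofReal_zero, zero_smul]
  have e1 := (TM.fEn n N M P p (HB z r) (HB_rel z r) hDt).1 _ _ sT sD (Or.inl hts)
  have e2 := aGreen n N (P.loc p) z r h.geo.rpos hok (lu (𝓡∂ n) p (sec v t))
    (lu (𝓡∂ n) p (sec v fun x => a x - t x))
    (((hlu _ sT p).mono hDt).of_le (WithTop.coe_le_coe.2 (le_top (a := (2 : ℕ∞)))))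
    (((hlu _ sD p).mono hDt).of_le (WithTop.coe_le_coe.2 (le_top (a := (1 : ℕ∞)))))
    ⟨r / 2, by linarith [h.geo.rpos], fun x hx hxb => by
      rw [lu_sp]
      have h1 : f (X x) = 0 := by
        by_contra h2
        refine hxb (h.geo.far x (HB_sub_KB hx) ?_)
        by_contra h3
        exact h2 (ht.f0 h3)
      simp only [ht.ct x hx, h1, zero_div, map_zero]⟩
    (fun x hx hx0 => by
      rw [lu_sp]
      have hxt := hDt hx
      have h2 : (xc n p).symm x ∈ (𝓡∂ n).boundary M := by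
        rw [hbd p _ ((xc n p).map_target hxt), (xc n p).right_inv hxt]
        exact hx0
      have h3 : ch (n := n) p (fun x => a x - t x) x = 0 := by
        show a ((xc n p).symm x) - t ((xc n p).symm x) = 0
        rw [hs.eq _ h2, sub_self]
      simp only [h3, map_zero])
  rw [← e1] at e2
  -- the operator
  have e3 : ∀ x ∈ HB z r, Ls (P.loc p).g (ch (n := n) p t) x =
      |(Jac X x).det| * (om (X x) * h₂ (X x)) := by
    intro x hx
    rw [h.LP sct hx]
    congr 2
    have h1 : Lx X (fun x => om (X x) * ch (n := n) p t x) x = Lx X (fun x => f (X x)) x := by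
      refine Lx_congr (fun y hy => ?_) hx
      show om (X y) * ch (n := n) p t y = f (X y)
      rw [ht.ct y hy]
      have := (h.pw y (h.HBr hy)).ne'
      field_simp
    rw [h1]
    have h2 : ∀ x ∈ HB z r, Lx X (fun x => f (X x)) x = h₂ (X x) := by
      refine eq_of_OB (h.geo.Lx_sm (ht.sm.comp_contDiffOn h.geo.smH)).continuousOn
        ((h.geo.comp_c hh₂).mono h.HBr) fun x hx => ?_
      rw [h.geo.Lx_comp ht.sm hx, hlap, hh₁ x (OB_sub_KB hx), zero_add]
    exact h2 x hx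
  have e4 : ∫ x in HB z r, inner ℂ (Lop (P.loc p) (lu (𝓡∂ n) p (sec v t)) x)
      ((P.loc p).h x (lu (𝓡∂ n) p (sec v fun x => a x - t x) x)) =
      ((∫ x in HB z r, |(Jac X x).det| *
        (h₂ (X x) * (om (X x) * ch (n := n) p (fun x => a x - t x) x)) : ℝ) : ℂ) := by
    refine Eq.trans ?_ integral_ofReal
    refine setIntegral_congr_fun (HB_meas z r) fun x hx => ?_
    have h1 : (P.loc p).h x (lu (𝓡∂ n) p (sec v fun x => a x - t x) x) =
        sp v (ch (n := n) p (fun x => a x - t x) x) := by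
      rw [lu_sp]
      rfl
    rw [h1, lu_sp, lop_sp (hrel p) ((hrel p).gg_smooth (hOk P p).g_smooth (hOk P p).g_pos)
      (fun x _ j => BP P h.hy.A1 p x j) (ch_smooth hs.st p) v (hDt hx), inner_sp hv, e3 x hx]
    have e5 : |(Jac X x).det| * (om (X x) * h₂ (X x)) * ch (n := n) p (fun x => a x - t x) x =
        |(Jac X x).det| * (h₂ (X x) * (om (X x) * ch (n := n) p (fun x => a x - t x) x)) := by
      ring
    rw [e5]
    rfl
  rw [e4] at e2
  rw [hs.eDD, Complex.neg_re, f3 _ _ sT sD, Complex.conj_re, e2, Complex.neg_re, Complex.ofReal_re,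
    neg_neg]

/-- The distance of the solution to the test function. -/
theorem Su.e_bound (h : Su P Q Γ c p X om z r r' R) {v : Fib N} (hv : ‖v‖ = 1) :
    ∃ C > 0, ∀ (f h₁ h₂ : E n → ℝ) (t a : M → ℝ), TT p X om z r R f t → Sl P v t a →
      (∀ x ∈ KB z r, h₁ (X x) = 0) → (∀ x, H31.lap f x = h₁ x + h₂ x) → Continuous h₂ →
      HasCompactSupport h₂ →
      ∫ x in HB z r, |(Jac X x).det| * (om (X x) * ch (n := n) p (fun x => a x - t x) x) ^ 2 ≤
        C * ∫ x, h₂ x ^ 2 := by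
  have hΓn : ((𝓡∂ n).boundary M).Nonempty := by
    obtain ⟨O, hO, rfl⟩ := h.hy.bd
    exact ⟨_, (h.Γs z ⟨mem_ball_self (h.geo.rpos.trans h.geo.rr), h.geo.z0.ge⟩ h.geo.z0).2⟩
  obtain ⟨C3, hC3, hp⟩ := poinc P hΓn hv
  obtain ⟨C2, hC2, hl2⟩ := chart_L2 P p h.geo.rr h.sub
  obtain ⟨C1, hC1, hb⟩ := bound_pos (KB_compact (z := z) (r := r))
    ((h.geo.det_c.mul (h.smw.continuousOn.pow 2)).mono h.geo.KB_sub)
  set K := C1 * (C2 * C3) with hK
  have hKp : 0 < K := by positivity
  refine ⟨K * K, by positivity, fun f h₁ h₂ t a ht hs hh₁ hlap hh₂ hc₂ => ?_⟩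
  have sDr : SmR n (fun x => a x - t x) := smR_sub' hs.sa hs.st
  set D : M → ℝ := fun x => a x - t x with hD
  have hDc : ContinuousOn (ch (n := n) p D) (HB z r') := ((ch_smooth sDr p).mono h.sub).continuousOn
  have hwc := h.smw.continuousOn
  have hdc := h.geo.det_c
  have hE := h.e_eq hv ht hs hh₁ hlap hh₂
  set En' := (P.E (sec v D) (sec v D)).re with hEn
  -- the weighted norm of `D`
  have i1 : IntegrableOn (fun x => |(Jac X x).det| * (om (X x) * ch (n := n) p D x) ^ 2) (HB z r) :=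
    int_HB h.geo.rr (hdc.mul ((hwc.mul hDc).pow 2))
  have i2 : IntegrableOn (fun x => ch (n := n) p D x ^ 2) (HB z r) :=
    int_HB h.geo.rr (hDc.pow 2)
  have b1 : ∫ x in HB z r, |(Jac X x).det| * (om (X x) * ch (n := n) p D x) ^ 2 ≤ K * En' := by
    have h1 : ∫ x in HB z r, |(Jac X x).det| * (om (X x) * ch (n := n) p D x) ^ 2 ≤
        C1 * ∫ x in HB z r, ch (n := n) p D x ^ 2 := by
      rw [← integral_const_mul]
      refine setIntegral_mono_on i1 (i2.const_mul C1) (HB_meas z r) fun x hx => ?_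
      have h2 := (le_abs_self _).trans (hb x (HB_sub_KB hx))
      have h3 := mul_le_mul_of_nonneg_right h2 (sq_nonneg (ch (n := n) p D x))
      calc _ = |(Jac X x).det| * (om (X x)) ^ 2 * ch (n := n) p D x ^ 2 := by ring
        _ ≤ _ := h3
    have h4 := hl2 D sDr
    have h5 := hp D sDr fun x hx => by
      show a x - t x = 0
      rw [hs.eq x hx, sub_self]
    calc _ ≤ C1 * ∫ x in HB z r, ch (n := n) p D x ^ 2 := h1
      _ ≤ C1 * (C2 * ∫ x, D x ^ 2 ∂P.μ) := mul_le_mul_of_nonneg_left h4 hC1.le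
      _ ≤ C1 * (C2 * (C3 * En')) :=
        mul_le_mul_of_nonneg_left (mul_le_mul_of_nonneg_left h5 hC2.le) hC1.le
      _ = K * En' := by rw [hK]; ring
  -- the norm of `h₂`
  have i3 : IntegrableOn (fun x => |(Jac X x).det| * h₂ (X x) ^ 2) (HB z r) :=
    int_HB h.geo.rr (hdc.mul ((h.geo.comp_c hh₂).pow 2))
  have b2 : ∫ x in HB z r, |(Jac X x).det| * h₂ (X x) ^ 2 ≤ ∫ x, h₂ x ^ 2 := by
    rw [← h.geo.cov HB_sub_KB (HB_meas z r) (fun y => h₂ y ^ 2)]
    exact setIntegral_le_integral (sq_int hh₂ hc₂) (Eventually.of_forall fun x => sq_nonneg _)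
  have i4 : IntegrableOn (fun x => |(Jac X x).det| *
      (h₂ (X x) * (om (X x) * ch (n := n) p D x))) (HB z r) :=
    int_HB h.geo.rr (hdc.mul ((h.geo.comp_c hh₂).mul (hwc.mul hDc)))
  have b3 : En' ≤ K / 2 * (∫ x in HB z r, |(Jac X x).det| * h₂ (X x) ^ 2) +
      (2 * K)⁻¹ * ∫ x in HB z r, |(Jac X x).det| * (om (X x) * ch (n := n) p D x) ^ 2 := by
    rw [hE]
    exact amgm (HB_meas z r) hKp (fun x => abs_nonneg _) i3 i1 i4
  have b4 : (2 * K)⁻¹ * ∫ x in HB z r, |(Jac X x).det| * (om (X x) * ch (n := n) p D x) ^ 2 ≤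
      En' / 2 := by
    calc _ ≤ (2 * K)⁻¹ * (K * En') := mul_le_mul_of_nonneg_left b1 (by positivity)
      _ = En' / 2 := by field_simp
  have b5 : K / 2 * (∫ x in HB z r, |(Jac X x).det| * h₂ (X x) ^ 2) ≤ K / 2 * ∫ x, h₂ x ^ 2 :=
    mul_le_mul_of_nonneg_left b2 (by positivity)
  have b6 : En' ≤ K * ∫ x, h₂ x ^ 2 := by linarith
  calc _ ≤ K * En' := b1
    _ ≤ K * (K * ∫ x, h₂ x ^ 2) := mul_le_mul_of_nonneg_left b6 hKp.le
    _ = _ := by ring

end

end Vale.Agent.P088.R2.H509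
end
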