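import Vale.Agent.P088.H5.Spec2
import Vale.Agent.P088.R2.H31.Spec

/-!
# P088, THEOREM S, boundary step (S-BD): flat coordinates at a point of `M` (boundary points
included) and the statement of the boundary step
-/

open Bundle Manifold MeasureTheory Set Filter Topology
open scoped ContDiff Matrix

noncomputable section

namespace Vale.Agent.P088.R2.H509

open Vale.Agent.P088 Vale.Agent.P088.EYM Vale.Agent.P088.EYM.O

universe u

/-- Near `p`, in the chart at `p`, `P.g = X^*(om^{4/(n-2)} |dy|²)` for a map `X` into `ℝⁿ` which is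
smooth up to the boundary, where `om` is positive and harmonic. (`X` is then a local
diffeomorphism; the image of the boundary need not be flat.) -/
structure CF {n N : ℕ} [NeZero n] {M : Type u} [TopologicalSpace M]
    [ChartedSpace (EuclideanHalfSpace n) M] [IsManifold (𝓡∂ n) ∞ M] [MeasurableSpace M]
    (P : One n N M) (p : M) (D : Set (E n)) (X : E n → E n) (om : E n → ℝ) : Prop where
  rel : RelOpen D
  sub : D ⊆ tg n p
  mem : xc n p p ∈ D
  smX : ContDiffOn ℝ ∞ X D
  smom : ContDiffOn ℝ ∞ (fun x => om (X x)) D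
  pos : ∀ x ∈ D, 0 < om (X x)
  harm : ∀ x ∈ D, 0 < x 0 → H31.lap om (X x) = 0
  met : ∀ x ∈ D, (P.loc p).g x =
    (om (X x)) ^ (4 / ((n : ℝ) - 2)) • ((Jac X x).transpose * Jac X x)

/-- (BDM) the boundary step: `c = 1` near every point of `Γ` with flat coordinates. -/
def BDM_statement : Prop :=
  ∀ (n N : ℕ) [NeZero n] (M : Type u) [TopologicalSpace M] [ChartedSpace (EuclideanHalfSpace n) M]
    [IsManifold (𝓡∂ n) ∞ M] [T2Space M] [CompactSpace M] [ConnectedSpace M] [MeasurableSpace M]
    [BorelSpace M] (P Q : One n N M) (Γ : Set M) (c : M → ℝ), 3 ≤ n → 0 < N →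
    (∀ x X, P.A.form x X = 0) → (∀ x X, Q.A.form x X = 0) → RelBd n Γ → SameD P Q Γ → SmR n c →
    (∀ x, 0 < c x) →
    (∀ (x : M) (v w : TangentSpace (𝓡∂ n) x), Q.g.inner x v w = c x * P.g.inner x v w) →
    ∀ (p : M) (D : Set (E n)) (X : E n → E n) (om : E n → ℝ), p ∈ Γ → CF P p D X om →
    ∀ᶠ x in 𝓝 p, c x = 1

end Vale.Agent.P088.R2.H509
end
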