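import Vale.Agent.P088.R2.H509.Glue
import Vale.Agent.P088.R2.H850.Iso
import Vale.Agent.P088.Bdl.B11

/-!
# P088, Theorem S, boundary step: existence of the geometric data near a boundary point
-/

set_option linter.all false

open MeasureTheory Set Filter Topology Metric
open scoped ContDiff Matrix

noncomputable section

namespace Vale.Agent.P088.R2.H509

open Vale.Agent.P088 Vale.Agent.P088.EYM

variable {n : ℕ} [NeZero n]

/-- An invertible derivative: lower bound on a half ball. -/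
theorem lower_bound {X : E n → E n} {z : E n} {r0 : ℝ} (hr0 : 0 < r0) (hz0 : z 0 = 0)
    (hX : ContDiffOn ℝ ∞ X (HB z r0)) {L : E n ≃L[ℝ] E n}
    (hL : (L : E n →L[ℝ] E n) = fderivWithin ℝ X (Hs n) z) :
    ∃ ε > 0, ∃ r1 > 0, r1 ≤ r0 ∧ ∀ x ∈ HB z r1, ∀ y ∈ HB z r1, ε * ‖x - y‖ ≤ ‖X x - X y‖ := by
  have hzH : z ∈ HB z r0 := ⟨mem_ball_self hr0, hz0.ge⟩
  obtain ⟨c, hc, hcL⟩ : ∃ c > 0, ∀ v, c * ‖v‖ ≤ ‖L v‖ := by
    have h1 := L.antilipschitz
    refine ⟨(‖(L.symm : E n →L[ℝ] E n)‖ + 1)⁻¹, by positivity, fun v => ?_⟩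
    have h2 : ‖v‖ ≤ ‖(L.symm : E n →L[ℝ] E n)‖ * ‖L v‖ := by
      have := (L.symm : E n →L[ℝ] E n).le_opNorm (L v)
      simpa using this
    rw [inv_mul_le_iff₀ (by positivity)]
    nlinarith [norm_nonneg (L v)]
  have hcont : ContinuousOn (fun x => fderivWithin ℝ X (Hs n) x) (HB z r0) :=
    ((HB_rel z r0).fderiv_smooth hX).continuousOn
  have h1 : {x | ‖fderivWithin ℝ X (Hs n) x - fderivWithin ℝ X (Hs n) z‖ < c / 2} ∈ 𝓝[HB z r0] z := by
    have h2 : ContinuousWithinAt (fun x => ‖fderivWithin ℝ X (Hs n) x -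
        fderivWithin ℝ X (Hs n) z‖) (HB z r0) z := ((hcont z hzH).sub continuousWithinAt_const).norm
    refine h2.preimage_mem_nhdsWithin (t := Iio (c / 2)) ?_
    simp only [sub_self, norm_zero]
    exact Iio_mem_nhds (by positivity)
  obtain ⟨ρ, hρ, hρs⟩ := Metric.mem_nhdsWithin_iff.1 h1
  refine ⟨c / 2, by positivity, min ρ r0, lt_min hρ hr0, min_le_right _ _, fun x hx y hy => ?_⟩
  have hsub : HB z (min ρ r0) ⊆ HB z r0 :=
    inter_subset_inter_left _ (ball_subset_ball (min_le_right _ _))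
  have hconv : Convex ℝ (HB z (min ρ r0)) := (convex_ball _ _).inter convex_Hs
  have hder : ∀ w ∈ HB z (min ρ r0), HasFDerivWithinAt X (fderivWithin ℝ X (Hs n) w)
      (HB z (min ρ r0)) w := fun w hw =>
    ((HB_rel z r0).hasD (hsub hw) hX (by simp)).mono inter_subset_right
  have h3 := hconv.norm_image_sub_le_of_norm_hasFDerivWithin_le'
    (φ := fderivWithin ℝ X (Hs n) z) (C := c / 2) hder
    (fun w hw => (hρs ⟨ball_subset_ball (min_le_left _ _) hw.1, hsub hw⟩).le) hy hx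
  have h4 := hcL (x - y)
  rw [show L (x - y) = (L : E n →L[ℝ] E n) (x - y) from rfl, hL] at h4
  have h5 : ‖(fderivWithin ℝ X (Hs n) z) (x - y)‖ ≤
      ‖X x - X y‖ + ‖X x - X y - (fderivWithin ℝ X (Hs n) z) (x - y)‖ := by
    have := norm_sub_le (X x - X y) (X x - X y - (fderivWithin ℝ X (Hs n) z) (x - y))
    rwa [sub_sub_cancel] at this
  linarith

/-- Second order Taylor estimate at a boundary point. -/
theorem taylor {X : E n → E n} {z : E n} {r0 : ℝ} (hr0 : 0 < r0) (hz0 : z 0 = 0)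
    (hX : ContDiffOn ℝ ∞ X (HB z r0)) :
    ∃ C ≥ 0, ∃ r1 > 0, r1 ≤ r0 ∧ ∀ x ∈ HB z r1,
      ‖X x - X z - fderivWithin ℝ X (Hs n) z (x - z)‖ ≤ C * ‖x - z‖ ^ 2 := by
  have hzH : z ∈ HB z r0 := ⟨mem_ball_self hr0, hz0.ge⟩
  have hD := (HB_rel z r0).hasD hzH ((HB_rel z r0).fderiv_smooth hX) (by simp)
  obtain ⟨C, hC⟩ := hD.isBigO_sub.bound
  obtain ⟨ρ, hρ, hρs⟩ := Metric.mem_nhdsWithin_iff.1 hC
  refine ⟨|C|, abs_nonneg _, min ρ r0, lt_min hρ hr0, min_le_right _ _, fun x hx => ?_⟩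
  -- the closed half ball of radius `‖x - z‖`
  set s : Set (E n) := closedBall z ‖x - z‖ ∩ Hs n with hs
  have hxn : ‖x - z‖ < min ρ r0 := by
    have := hx.1
    rwa [mem_ball_iff_norm] at this
  have hsub : s ⊆ HB z r0 := fun y hy => ⟨closedBall_subset_ball (hxn.trans_le (min_le_right _ _)) hy.1,
    hy.2⟩
  have hconv : Convex ℝ s := (convex_closedBall _ _).inter convex_Hs
  have hder : ∀ w ∈ s, HasFDerivWithinAt X (fderivWithin ℝ X (Hs n) w) s w := fun w hw =>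
    ((HB_rel z r0).hasD (hsub hw) hX (by simp)).mono inter_subset_right
  have hbd : ∀ w ∈ s, ‖fderivWithin ℝ X (Hs n) w - fderivWithin ℝ X (Hs n) z‖ ≤ |C| * ‖x - z‖ := by
    intro w hw
    have h1 : w ∈ ball z ρ ∩ Hs n :=
      ⟨closedBall_subset_ball (hxn.trans_le (min_le_left _ _)) hw.1, hw.2⟩
    have h2 : ‖fderivWithin ℝ X (Hs n) w - fderivWithin ℝ X (Hs n) z‖ ≤ C * ‖w - z‖ := hρs h1
    have h3 : ‖w - z‖ ≤ ‖x - z‖ := by
      have := hw.1
      rwa [mem_closedBall_iff_norm] at this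
    calc _ ≤ C * ‖w - z‖ := h2
      _ ≤ |C| * ‖w - z‖ := mul_le_mul_of_nonneg_right (le_abs_self C) (norm_nonneg _)
      _ ≤ |C| * ‖x - z‖ := mul_le_mul_of_nonneg_left h3 (abs_nonneg _)
  have h3 := hconv.norm_image_sub_le_of_norm_hasFDerivWithin_le'
    (φ := fderivWithin ℝ X (Hs n) z) hder hbd
    (x := z) (y := x) ⟨mem_closedBall_self (norm_nonneg _), hz0.ge⟩
    ⟨by rw [mem_closedBall_iff_norm], hx.2⟩
  calc _ ≤ |C| * ‖x - z‖ * ‖x - z‖ := h3
    _ = |C| * ‖x - z‖ ^ 2 := by ring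

/-- An equivalence from the determinant. -/
theorem equiv_of_det {A : E n →L[ℝ] E n} (h : A.det ≠ 0) :
    ∃ L : E n ≃L[ℝ] E n, (L : E n →L[ℝ] E n) = A :=
  ⟨A.toContinuousLinearEquivOfDetNeZero h, A.coe_toContinuousLinearEquivOfDetNeZero h⟩

/-- Existence of the geometric data. -/
theorem geo_ex {X : E n → E n} {z : E n} {r0 : ℝ} (hr0 : 0 < r0) (hz0 : z 0 = 0)
    (hX : ContDiffOn ℝ ∞ X (HB z r0)) (hdet : (Jac X z).det ≠ 0) (e : E n) (he : ‖e‖ = 1) :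
    ∃ (T : E n ≃ₗᵢ[ℝ] E n) (r r' R ρ : ℝ), r' ≤ r0 ∧
      Geo (fun x => T (X x - X z)) z r r' R ∧ 0 < ρ ∧
      ball (ρ • e) ρ ⊆ ((fun x => T (X x - X z)) '' KB z r)ᶜ := by
  have hzH : z ∈ HB z r0 := ⟨mem_ball_self hr0, hz0.ge⟩
  have hdet' : (fderivWithin ℝ X (Hs n) z).det ≠ 0 := by
    rwa [energy_det (HB_rel z r0) hX hzH]
  obtain ⟨L, hL⟩ := equiv_of_det hdet'
  obtain ⟨ε, hε, r1, hr1, hr10, hlow⟩ := lower_bound hr0 hz0 hX hL
  obtain ⟨C, hC, r2, hr2, hr20, hTay⟩ := taylor hr0 hz0 hX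
  -- the determinant near `z`
  have hJs : ContinuousOn (fun x => (Jac X x).det) (HB z r0) :=
    (Jacobi_det_smooth (g := Jac X)
      fun i j => (HB_rel z r0).pd_smooth (coord_smooth hX i) j).continuousOn
  obtain ⟨r3, hr3, hr3s⟩ : ∃ r3 > 0, ∀ x ∈ HB z r3, x ∈ HB z r0 → (Jac X x).det ≠ 0 := by
    have h1 : {x | (Jac X x).det ≠ 0} ∈ 𝓝[HB z r0] z :=
      (hJs z hzH).preimage_mem_nhdsWithin (isOpen_ne.mem_nhds hdet)
    obtain ⟨ρ, hρ, hρs⟩ := Metric.mem_nhdsWithin_iff.1 h1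
    exact ⟨ρ, hρ, fun x hx hx' => hρs ⟨hx.1, hx'⟩⟩
  -- the inner conormal `N`: `⟨N, y⟩ = (L⁻¹ y)_0`
  set ℓ : E n →L[ℝ] ℝ := (EuclideanSpace.proj (𝕜 := ℝ) (0 : Fin n)).comp
    (L.symm : E n →L[ℝ] E n) with hℓ
  set Nv : E n := (InnerProductSpace.toDual ℝ (E n)).symm ℓ with hNv
  have hNi : ∀ y, inner ℝ Nv y = ℓ y := fun y => InnerProductSpace.toDual_symm_apply
  have hℓL : ∀ v : E n, ℓ (L v) = v 0 := fun v => by simp [hℓ]
  have hN0 : Nv ≠ 0 := by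
    intro h0
    have h1 := hNi (L (ev 0))
    rw [h0, inner_zero_left, hℓL] at h1
    simp [ev_apply] at h1
  have hNn : 0 < ‖Nv‖ := norm_pos_iff.2 hN0
  obtain ⟨T, hT⟩ := H850.exists_rot (-Nv) e he
  rw [norm_neg] at hT
  set X' : E n → E n := fun x => T (X x - X z) with hX'
  set r' : ℝ := min (min r1 r2) (min r3 r0) with hr'
  have hr'0 : 0 < r' := lt_min (lt_min hr1 hr2) (lt_min hr3 hr0)
  have hle1 : r' ≤ r1 := (min_le_left _ _).trans (min_le_left _ _)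
  have hle2 : r' ≤ r2 := (min_le_left _ _).trans (min_le_right _ _)
  have hle3 : r' ≤ r3 := (min_le_right _ _).trans (min_le_left _ _)
  have hle0 : r' ≤ r0 := (min_le_right _ _).trans (min_le_right _ _)
  set r : ℝ := r' / 2 with hr
  have hr00 : 0 < r := by positivity
  have hrr' : r < r' := by rw [hr]; linarith
  have hKH : ∀ {s : ℝ}, r' ≤ s → KB z r ⊆ HB z s := fun {s} hs =>
    inter_subset_inter_left _ (closedBall_subset_ball (hrr'.trans_le hs))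
  have hHH : ∀ {s : ℝ}, r' ≤ s → HB z r' ⊆ HB z s := fun {s} hs =>
    inter_subset_inter_left _ (ball_subset_ball hs)
  have hX'n : ∀ x y, ‖X' x - X' y‖ = ‖X x - X y‖ := by
    intro x y
    simp only [hX']
    rw [← map_sub, T.norm_map]
    congr 1
    abel
  have hX'z : X' z = 0 := by simp [hX']
  have hX's : ContDiffOn ℝ ∞ X' (HB z r') :=
    T.toContinuousLinearEquiv.contDiff.comp_contDiffOn ((hX.mono (hHH hle0)).sub contDiffOn_const)
  have hX'0 : ∀ x, ‖X' x‖ = ‖X x - X z‖ := fun x => by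
    have := hX'n x z
    rwa [hX'z, sub_zero] at this
  -- the exterior ball
  have hext : ∀ x ∈ KB z r, inner ℝ e (X' x) ≤ (‖Nv‖ * C / ε ^ 2 / ‖Nv‖) * ‖X' x‖ ^ 2 := by
    intro x hx
    have h1 : ‖Nv‖ * inner ℝ e (X' x) = -ℓ (X x - X z) := by
      have h2 : inner ℝ (‖Nv‖ • e) (X' x) = ‖Nv‖ * inner ℝ e (X' x) := by
        rw [inner_smul_left]; simp
      rw [← h2, ← hT, LinearIsometryEquiv.inner_map_map, inner_neg_left, hNi]
    have h3 : x 0 ≤ ℓ (X x - X z) + ‖Nv‖ * (C * ‖x - z‖ ^ 2) := by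
      have h4 := hTay x (hKH hle2 hx)
      set w := X x - X z - fderivWithin ℝ X (Hs n) z (x - z) with hw
      have h5 : ℓ (X x - X z) = (x - z) 0 + ℓ w := by
        have h6 : X x - X z = L (x - z) + w := by
          rw [hw, show L (x - z) = (L : E n →L[ℝ] E n) (x - z) from rfl, hL]
          abel
        rw [h6, map_add, hℓL]
      have h7 : |ℓ w| ≤ ‖Nv‖ * (C * ‖x - z‖ ^ 2) := by
        rw [← hNi]
        exact (abs_real_inner_le_norm _ _).trans (mul_le_mul_of_nonneg_left h4 (norm_nonneg _))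
      have h8 : (x - z) 0 = x 0 := by rw [PiLp.sub_apply, hz0, sub_zero]
      rw [h5, h8]
      linarith [neg_abs_le (ℓ w)]
    have h9 : 0 ≤ x 0 := hx.2
    have h10 : ε * ‖x - z‖ ≤ ‖X' x‖ := by
      rw [hX'0]
      exact hlow x (hKH hle1 hx) z ⟨mem_ball_self hr1, hz0.ge⟩
    have h11 : ‖x - z‖ ^ 2 ≤ ‖X' x‖ ^ 2 / ε ^ 2 := by
      rw [le_div_iff₀ (by positivity), ← mul_pow, mul_comm]
      exact pow_le_pow_left₀ (by positivity) h10 2
    have h12 : ‖Nv‖ * inner ℝ e (X' x) ≤ ‖Nv‖ * (C * (‖X' x‖ ^ 2 / ε ^ 2)) := by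
      rw [h1]
      have h13 : ‖Nv‖ * (C * ‖x - z‖ ^ 2) ≤ ‖Nv‖ * (C * (‖X' x‖ ^ 2 / ε ^ 2)) :=
        mul_le_mul_of_nonneg_left (mul_le_mul_of_nonneg_left h11 hC) hNn.le
      linarith
    have h14 : inner ℝ e (X' x) ≤ C * (‖X' x‖ ^ 2 / ε ^ 2) := le_of_mul_le_mul_left h12 hNn
    calc inner ℝ e (X' x) ≤ C * (‖X' x‖ ^ 2 / ε ^ 2) := h14
      _ = (‖Nv‖ * C / ε ^ 2 / ‖Nv‖) * ‖X' x‖ ^ 2 := by field_simp
  set C' : ℝ := ‖Nv‖ * C / ε ^ 2 / ‖Nv‖ with hC'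
  have hC'0 : 0 ≤ C' := by positivity
  refine ⟨T, r, r', ε * r / 2, (2 * (C' + 1))⁻¹, hle0, ⟨hz0, hr00, hrr', by positivity, hX'z, hX's, ?_,
    ?_, ?_⟩, by positivity, ?_⟩
  · -- injectivity
    intro x hx y hy hxy
    have h1 := hlow x (hKH hle1 hx) y (hKH hle1 hy)
    have h2 := hX'n x y
    rw [show X' x = X' y from hxy, sub_self, norm_zero] at h2
    rw [← h2] at h1
    have h3 : ‖x - y‖ ≤ 0 := by
      by_contra h
      push Not at h
      have := mul_pos hε h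
      linarith
    exact sub_eq_zero.1 (norm_le_zero_iff.1 h3)
  · -- determinant
    intro x hx
    have hxr : x ∈ HB z r' := hKH le_rfl hx
    rw [← energy_det (HB_rel z r') hX's hxr]
    have h1 : HasFDerivWithinAt X' ((T.toContinuousLinearEquiv : E n →L[ℝ] E n).comp
        (fderivWithin ℝ X (Hs n) x)) (Hs n) x := by
      have h2 := (HB_rel z r0).hasD (hHH hle0 hxr) hX (by simp)
      exact T.toContinuousLinearEquiv.hasFDerivAt.comp_hasFDerivWithinAt x (h2.sub_const (X z))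
    rw [h1.fderivWithin (uniqueDiffOn_Hs x hx.2)]
    have h3 : ((T.toContinuousLinearEquiv : E n →L[ℝ] E n).comp (fderivWithin ℝ X (Hs n) x)).det =
        (T.toContinuousLinearEquiv : E n →L[ℝ] E n).det * (fderivWithin ℝ X (Hs n) x).det :=
      LinearMap.det_comp _ _
    rw [h3, energy_det (HB_rel z r0) hX (hHH hle0 hxr)]
    refine mul_ne_zero ?_ (hr3s x (hKH hle3 hx) (hHH hle0 hxr))
    exact (LinearEquiv.isUnit_det' T.toLinearEquiv).ne_zero
  · -- far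
    intro x hx hxR
    have h1 : ε * ‖x - z‖ ≤ ‖X' x‖ := by
      rw [hX'0]
      exact hlow x (hKH hle1 hx) z ⟨mem_ball_self hr1, hz0.ge⟩
    have h2 : ‖X' x‖ < ε * r / 2 := by
      have := hxR
      rwa [mem_ball_zero_iff] at this
    rw [mem_ball_iff_norm]
    have h3 : ε * ‖x - z‖ < ε * (r / 2) := by linarith
    exact lt_of_mul_lt_mul_left h3 hε.le
  · -- exterior ball
    rintro y hy ⟨x, hx, rfl⟩
    have h1 := hext x hx
    set ρ : ℝ := (2 * (C' + 1))⁻¹ with hρ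
    have hρ0 : 0 < ρ := by positivity
    have h2 : ‖X' x - ρ • e‖ < ρ := by
      have := hy
      rwa [mem_ball_iff_norm] at this
    have h3 : ‖X' x - ρ • e‖ ^ 2 = ‖X' x‖ ^ 2 - 2 * (ρ * inner ℝ e (X' x)) + ρ ^ 2 := by
      rw [norm_sub_sq_real, inner_smul_right, real_inner_comm, norm_smul, he, mul_one,
        Real.norm_eq_abs, sq_abs]
    have h4 : ‖X' x - ρ • e‖ ^ 2 < ρ ^ 2 := pow_lt_pow_left₀ h2 (norm_nonneg _) two_ne_zero
    rw [h3] at h4
    have h5 : ρ * inner ℝ e (X' x) ≤ ρ * (C' * ‖X' x‖ ^ 2) := mul_le_mul_of_nonneg_left h1 hρ0.le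
    have h6 : 2 * (ρ * (C' + 1)) = 1 := by
      rw [hρ]
      field_simp
    have h7 : 2 * (ρ * (C' * ‖X' x‖ ^ 2)) ≤ ‖X' x‖ ^ 2 := by
      have h8 : 0 ≤ ρ * ‖X' x‖ ^ 2 := by positivity
      have h9 : 2 * (ρ * (C' * ‖X' x‖ ^ 2)) + 2 * (ρ * ‖X' x‖ ^ 2) =
          (2 * (ρ * (C' + 1))) * ‖X' x‖ ^ 2 := by ring
      rw [h6, one_mul] at h9
      linarith
    linarith

end Vale.Agent.P088.R2.H509
end
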