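import Vale.Agent.P088.R2.H509.StepBd2

/-!
# P088, Theorem S, boundary step: the step from estimates in the chart (abstract form)
-/

set_option linter.all false

open Bundle Manifold MeasureTheory Set Filter Topology Metric
open scoped ContDiff Matrix

noncomputable section

namespace Vale.Agent.P088.R2.H509

open Vale.Agent.P088 Vale.Agent.P088.EYM Vale.Agent.P088.EYM.O

section

variable {n : ℕ} [NeZero n] {X : E n → E n} {z : E n} {r r' R : ℝ}

/-- The norm of the function in the chart in terms of the test function. -/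
theorem Geo.qt_bound' (h : Geo X z r r' R) {w1 : E n → ℝ} (hw : ContDiffOn ℝ ∞ w1 (HB z r'))
    (hp : ∀ x ∈ HB z r', 0 < w1 x) :
    ∃ C > 0, ∀ f T : E n → ℝ, ContDiff ℝ ∞ f → tsupport f ⊆ ball 0 R →
      (∀ y ∈ HB z r, T y = f (X y) / w1 y) →
      IntegrableOn (q1 T) (HB z r) ∧
      ∫ y in HB z r, q1 T y ≤ C * ∫ y in ball 0 R \ (X '' KB z r)ᶜ, qf f y := by
  have hom : ContDiffOn ℝ ∞ (fun x => (w1 x)⁻¹) (HB z r') :=
    hw.inv fun x hx => (hp x hx).ne'
  obtain ⟨C1, hC1, h1⟩ := q1_mul h.rr hom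
  obtain ⟨C2, hC2, h2⟩ := h.comp_bound
  refine ⟨C1 * C2, by positivity, fun f T hf hft hT => ?_⟩
  have hfX : ContDiffOn ℝ ∞ (fun x => f (X x)) (HB z r') := hf.comp_contDiffOn h.sm
  have hTs : ContDiffOn ℝ ∞ (fun x => (w1 x)⁻¹ * f (X x)) (HB z r') := hom.mul hfX
  have i1' := int_HB h.rr (q1_cont hTs)
  have i2 := int_HB h.rr (q1_cont hfX)
  have i3 : IntegrableOn (fun x => |(Jac X x).det| * qf f (X x)) (HB z r) :=
    int_HB h.rr (h.det_c.mul (h.comp_c (qf_cont hf)))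
  have f0 : ∀ y : E n, y ∉ ball (0 : E n) R → f y = 0 := fun y hy =>
    image_eq_zero_of_notMem_tsupport fun h' => hy (hft h')
  have e1 : EqOn T (fun x => (w1 x)⁻¹ * f (X x)) (HB z r) := by
    intro x hx
    show T x = _
    rw [hT x hx]
    ring
  have e2 : EqOn (q1 T) (q1 (fun x => (w1 x)⁻¹ * f (X x))) (HB z r) := by
    intro x hx
    unfold q1
    rw [e1 hx]
    congr 1
    exact Finset.sum_congr rfl fun k _ => by rw [(HB_rel z r).pd_congr e1 hx k]
  have i1 : IntegrableOn (q1 T) (HB z r) := i1'.congr_fun (fun x hx => (e2 hx).symm) (HB_meas z r)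
  have b1 : ∫ y in HB z r, q1 T y ≤ C1 * ∫ y in HB z r, q1 (fun x => f (X x)) y := by
    rw [← integral_const_mul]
    refine setIntegral_mono_on i1 (i2.const_mul C1) (HB_meas z r) fun x hx => ?_
    rw [e2 hx]
    exact h1 _ hfX x hx
  have b2 : ∫ y in HB z r, q1 (fun x => f (X x)) y = ∫ y in SR X z r R, q1 (fun x => f (X x)) y := by
    refine setIntegral_eq_of_subset_of_forall_diff_eq_zero (HB_meas z r) h.SR_HB ?_
    rintro x ⟨hx, hx'⟩
    have h3 : X x ∉ ball (0 : E n) R := fun h' => hx' ⟨HB_sub_KB hx, h'⟩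
    have h4 : X x ∉ tsupport f := fun h' => h3 (hft h')
    have h5 : ∀ i, H31.dj i f (X x) = 0 := by
      intro i
      unfold H31.dj
      rw [show fderiv ℝ f (X x) = 0 from
        image_eq_zero_of_notMem_tsupport fun h' => h4 (tsupport_fderiv_subset ℝ h')]
      rfl
    unfold q1
    have h6 : ∀ k, pd k (fun x => f (X x)) x = 0 := by
      intro k
      rw [h.pd_comp hf hx]
      exact Finset.sum_eq_zero fun i _ => by rw [h5, mul_zero]
    simp only [f0 _ h3, h6]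
    simp
  have b3 : ∫ y in SR X z r R, q1 (fun x => f (X x)) y ≤
      C2 * ∫ y in SR X z r R, |(Jac X y).det| * qf f (X y) := by
    rw [← integral_const_mul]
    exact setIntegral_mono_on (i2.mono_set h.SR_HB) ((i3.mono_set h.SR_HB).const_mul C2)
      h.SR_meas fun x hx => h2 f hf x hx
  have b4 : ∫ y in SR X z r R, |(Jac X y).det| * qf f (X y) =
      ∫ y in ball 0 R \ (X '' KB z r)ᶜ, qf f y := by
    rw [h.ball_eq]
    exact (h.cov (h.SR_HB.trans HB_sub_KB) h.SR_meas (qf f)).symm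
  refine ⟨i1, ?_⟩
  calc _ ≤ C1 * ∫ y in HB z r, q1 (fun x => f (X x)) y := b1
    _ = C1 * ∫ y in SR X z r R, q1 (fun x => f (X x)) y := by rw [b2]
    _ ≤ C1 * (C2 * ∫ y in SR X z r R, |(Jac X y).det| * qf f (X y)) :=
      mul_le_mul_of_nonneg_left b3 hC1.le
    _ = _ := by rw [b4]; ring

/-- The facts about the pair of solutions for one test function. -/
structure PairF (X : E n → E n) (w1 w2 : E n → ℝ) (z : E n) (r r' R C : ℝ) (f h₂ : E n → ℝ)
    (α β : E n → ℝ) : Prop where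
  sα : ContDiffOn ℝ ∞ α (HB z r')
  sβ : ContDiffOn ℝ ∞ β (HB z r')
  van : Van2 z r (fun x => w2 x * β x - w1 x * α x)
  pde : ∀ x ∈ HB z r, Lx X (fun x => w2 x * β x - w1 x * α x) x = β x * Lx X w2 x
  dist : ∫ x in HB z r, |(Jac X x).det| * (w1 x * α x - f (X x)) ^ 2 ≤ C * ∫ x, h₂ x ^ 2
  bα : ∫ x in HB z r, q1 α x ≤ C * ∫ y in ball 0 R \ (X '' KB z r)ᶜ, qf f y
  bβ : ∫ x in HB z r, q1 β x ≤ C * ∫ y in ball 0 R \ (X '' KB z r)ᶜ, qf f y

/-- The norm of `w`. -/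
theorem Geo.w_bound (h : Geo X z r r' R) {w1 w2 : E n → ℝ} (hw1 : ContDiffOn ℝ ∞ w1 (HB z r'))
    (hw2 : ContDiffOn ℝ ∞ w2 (HB z r')) :
    ∃ C5 ≥ 0, ∀ (C : ℝ) (f h₂ α β : E n → ℝ), PairF X w1 w2 z r r' R C f h₂ α β →
      IntegrableOn (qf (ext0 X z r (fun x => w2 x * β x - w1 x * α x))) (ball 0 R) ∧
      ∫ y in ball 0 R, qf (ext0 X z r (fun x => w2 x * β x - w1 x * α x)) y ≤
        C5 * (C * ∫ y in ball 0 R \ (X '' KB z r)ᶜ, qf f y) := by
  obtain ⟨C3, hC3, h3⟩ := q1_mul h.rr hw1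
  obtain ⟨C4, hC4, h4⟩ := q1_mul h.rr hw2
  obtain ⟨C5, hC5, h5⟩ := h.Dx_bound
  refine ⟨C5 * (2 * C4 + 2 * C3), by positivity, fun C f h₂ α β hP => ?_⟩
  have sW' : ContDiffOn ℝ ∞ (fun x => w2 x * β x - w1 x * α x) (HB z r') :=
    (hw2.mul hP.sβ).sub (hw1.mul hP.sα)
  have hsub : HB z r ⊆ HB z r' := HB_sub_KB.trans h.KB_sub
  obtain ⟨g0, g1, g2⟩ := h.glue hP.van
  have hW := hP.van
  set W := (fun x => w2 x * β x - w1 x * α x) with hWd
  set w := ext0 X z r W with hw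
  have z1 : ∀ y ∈ ball (0 : E n) R, y ∉ ball (0 : E n) R \ (X '' KB z r)ᶜ → qf w y = 0 := by
    intro y hy hy'
    have h6 : y ∉ X '' KB z r := fun h' => hy' ⟨hy, fun h'' => h'' h'⟩
    unfold qf
    have h7 : ∀ j, H31.dj j w y = 0 := fun j => by
      rw [g1 y hy j]
      exact ext0_of_not h6
    have h8 : w y = 0 := ext0_of_not h6
    simp only [h7, h8]
    simp
  have e0 : ∀ x ∈ SR X z r R, qf w (X x) = W x ^ 2 + ∑ j, Dx X j W x ^ 2 := by
    intro x hx
    unfold qf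
    rw [show w (X x) = W x from h.ext0_X hx.1]
    congr 1
    refine Finset.sum_congr rfl fun j _ => ?_
    rw [g1 (X x) hx.2 j, h.ext0_X hx.1]
  have c1 : ContinuousOn (fun x => |(Jac X x).det| * (W x ^ 2 + ∑ j, Dx X j W x ^ 2)) (HB z r) :=
    (h.det_c.mono hsub).mul ((hW.sm.continuousOn.pow 2).add
      (continuousOn_finsetSum _ fun j _ => (h.Dx_sm hW.sm j).continuousOn.pow 2))
  have i0 : IntegrableOn (fun x => |(Jac X x).det| * (W x ^ 2 + ∑ j, Dx X j W x ^ 2))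
      (SR X z r R) :=
    ((c1.mono h.half).integrableOn_compact KB_compact).mono_set h.SR_sub
  have hSK : SR X z r R ⊆ KB z r := h.SR_HB.trans HB_sub_KB
  have i1 : IntegrableOn (qf w) (ball 0 R \ (X '' KB z r)ᶜ) := by
    rw [h.ball_eq, h.cov_int hSK h.SR_meas]
    refine i0.congr_fun (fun x hx => ?_) h.SR_meas
    show _ = |(Jac X x).det| * qf w (X x)
    rw [e0 x hx]
  have e1 : ∫ y in ball 0 R, qf w y = ∫ y in ball 0 R \ (X '' KB z r)ᶜ, qf w y :=
    setIntegral_eq_of_subset_of_forall_diff_eq_zero measurableSet_ball diff_subset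
      fun y hy => z1 y hy.1 hy.2
  have e2 : ∫ y in ball 0 R \ (X '' KB z r)ᶜ, qf w y =
      ∫ x in SR X z r R, |(Jac X x).det| * (W x ^ 2 + ∑ j, Dx X j W x ^ 2) := by
    rw [h.ball_eq, h.cov hSK h.SR_meas]
    refine setIntegral_congr_fun h.SR_meas fun x hx => ?_
    show |(Jac X x).det| * qf w (X x) = _
    rw [e0 x hx]
  have i2 := int_HB h.rr (q1_cont sW')
  have i3 := int_HB h.rr (q1_cont hP.sα)
  have i4 := int_HB h.rr (q1_cont hP.sβ)
  have e3 : ∫ x in SR X z r R, |(Jac X x).det| * (W x ^ 2 + ∑ j, Dx X j W x ^ 2) ≤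
      C5 * ∫ x in HB z r, q1 W x := by
    calc _ ≤ ∫ x in SR X z r R, C5 * q1 W x :=
          setIntegral_mono_on i0 ((i2.mono_set h.SR_HB).const_mul C5) h.SR_meas
            fun x hx => h5 W x hx
      _ ≤ ∫ x in HB z r, C5 * q1 W x :=
          setIntegral_mono_set (i2.const_mul C5)
            (Eventually.of_forall fun x => mul_nonneg hC5.le (q1_nonneg _ _))
            (HasSubset.Subset.eventuallyLE h.SR_HB)
      _ = _ := integral_const_mul _ _
  have e4 : ∫ x in HB z r, q1 W x ≤ 2 * C4 * (∫ x in HB z r, q1 β x) +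
      2 * C3 * ∫ x in HB z r, q1 α x := by
    rw [← integral_const_mul, ← integral_const_mul,
      ← integral_add (i4.const_mul _) (i3.const_mul _)]
    refine setIntegral_mono_on i2 ((i4.const_mul _).add (i3.const_mul _)) (HB_meas z r)
      fun x hx => ?_
    have h6 : q1 W x ≤ 2 * q1 (fun x => w2 x * β x) x + 2 * q1 (fun x => w1 x * α x) x :=
      q1_sub ((hw2.mul hP.sβ).mono hsub) ((hw1.mul hP.sα).mono hsub) hx
    have h7 := h4 _ hP.sβ x hx
    have h8 := h3 _ hP.sα x hx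
    show q1 W x ≤ 2 * C4 * q1 β x + 2 * C3 * q1 α x
    linarith
  refine ⟨?_, ?_⟩
  · exact i1.of_forall_diff_eq_zero measurableSet_ball fun y hy => z1 y hy.1 hy.2
  · rw [e1, e2]
    have h6 := hP.bα
    have h7 := hP.bβ
    calc _ ≤ C5 * ∫ x in HB z r, q1 W x := e3
      _ ≤ C5 * (2 * C4 * (∫ x in HB z r, q1 β x) + 2 * C3 * ∫ x in HB z r, q1 α x) :=
        mul_le_mul_of_nonneg_left e4 hC5.le
      _ ≤ C5 * (2 * C4 * (C * ∫ y in ball 0 R \ (X '' KB z r)ᶜ, qf f y) +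
        2 * C3 * (C * ∫ y in ball 0 R \ (X '' KB z r)ᶜ, qf f y)) :=
        mul_le_mul_of_nonneg_left (add_le_add (mul_le_mul_of_nonneg_left h7 (by positivity))
          (mul_le_mul_of_nonneg_left h6 (by positivity))) hC5.le
      _ = _ := by ring

/-- The step from estimates in the chart. -/
theorem step_abs (h : Geo X z r r' R) {w1 w2 : E n → ℝ} (hw1 : ContDiffOn ℝ ∞ w1 (HB z r'))
    (hw2 : ContDiffOn ℝ ∞ w2 (HB z r')) (hp2 : ∀ x ∈ HB z r', 0 < w2 x)
    (hyp : ∃ C ≥ 0, ∀ f h₁ h₂ : E n → ℝ, ContDiff ℝ ∞ f → HasCompactSupport f →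
      tsupport f ⊆ ball 0 R → Continuous h₂ → HasCompactSupport h₂ →
      (∀ x ∈ KB z r, h₁ (X x) = 0) → (∀ x, H31.lap f x = h₁ x + h₂ x) →
      ∃ α β : E n → ℝ, PairF X w1 w2 z r r' R C f h₂ α β) :
    H31.Step n R (X '' KB z r)ᶜ (ext0 X z r (fun x => Lx X w2 x / w2 x)) := by
  obtain ⟨C, hC, hyp⟩ := hyp
  obtain ⟨C5, hC5, hw⟩ := h.w_bound hw1 hw2
  have hsub : HB z r ⊆ HB z r' := HB_sub_KB.trans h.KB_sub
  refine ⟨C + C5 * C, by positivity, ?_⟩
  intro f h₁ h₂ hf hfc hft hh₁ hc₁ ht₁ hh₂ hlap ε hε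
  have hh0 : ∀ x ∈ KB z r, h₁ (X x) = 0 := by
    intro x hx
    refine image_eq_zero_of_notMem_tsupport fun h' => ?_
    exact (ht₁ h').1 ⟨x, hx, rfl⟩
  have hc₂ : HasCompactSupport h₂ := by
    refine HasCompactSupport.intro (hfc.isCompact.union hc₁.isCompact) fun x hx => ?_
    have h3 : x ∉ tsupport f := fun h' => hx (Or.inl h')
    have h4 : x ∉ tsupport h₁ := fun h' => hx (Or.inr h')
    have h5 := hlap x
    rw [lap_supp h3, image_eq_zero_of_notMem_tsupport h4, zero_add] at h5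
    exact h5.symm
  obtain ⟨α, β, hP⟩ := hyp f h₁ h₂ hf hfc hft hh₂ hc₂ hh0 hlap
  obtain ⟨g0, g1, g2⟩ := h.glue hP.van
  obtain ⟨iw, bw⟩ := hw C f h₂ α β hP
  have hF : ContinuousOn (fun x => w1 x * α x) (KB z r) :=
    (hw1.continuousOn.mul hP.sα.continuousOn).mono h.KB_sub
  have hSK : SR X z r R ⊆ KB z r := h.SR_HB.trans HB_sub_KB
  have hh2n : 0 ≤ ∫ x, h₂ x ^ 2 := integral_nonneg fun _ => sq_nonneg _
  have hqfn : 0 ≤ ∫ x in ball 0 R \ (X '' KB z r)ᶜ, qf f x := integral_nonneg fun _ => qf_nonneg _ _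
  have ev : ∀ x ∈ SR X z r R, |(Jac X x).det| *
      (ext0 X z r (fun x => w1 x * α x) (X x) - f (X x)) ^ 2 =
      |(Jac X x).det| * (w1 x * α x - f (X x)) ^ 2 := by
    intro x hx
    rw [h.ext0_X hx.1]
  have i1 : IntegrableOn (fun x => |(Jac X x).det| * (w1 x * α x - f (X x)) ^ 2) (HB z r) :=
    int_HB h.rr (h.det_c.mul (((hw1.continuousOn.mul hP.sα.continuousOn).sub
      (h.comp_c hf.continuous)).pow 2))
  refine ⟨ext0 X z r (fun x => w1 x * α x), ext0 X z r (fun x => w2 x * β x - w1 x * α x),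
    (h.cont_ext1 hF).mono ball_diff_sub, g0, fun x hx => ext0_of_not hx.1, fun y hy => ?_,
    ?_, ?_, iw, ?_⟩
  · -- the equation
    have e1 : H31.lap (ext0 X z r (fun x => w2 x * β x - w1 x * α x)) y =
        ∑ i, ext0 X z r (Dx X i (Dx X i (fun x => w2 x * β x - w1 x * α x))) y :=
      Finset.sum_congr rfl fun i _ => g2 y hy i i
    rw [e1]
    by_cases hyK : y ∈ X '' KB z r
    · obtain ⟨x, hx, rfl⟩ := hyK
      have hxS : x ∈ SR X z r R := ⟨hx, hy⟩
      simp only [h.ext0_X hx]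
      have h3 := hP.pde x (h.SR_HB hxS)
      have h4 : ∑ i, Dx X i (Dx X i (fun x => w2 x * β x - w1 x * α x)) x =
        Lx X (fun x => w2 x * β x - w1 x * α x) x := rfl
      have h5 := (hp2 x (hsub (h.SR_HB hxS))).ne'
      rw [h4, h3]
      field_simp
      ring
    · simp only [ext0_of_not hyK, Finset.sum_const_zero, zero_mul]
  · rw [h.ball_eq, h.cov_int hSK h.SR_meas]
    exact (i1.mono_set h.SR_HB).congr_fun (fun x hx => (ev x hx).symm) h.SR_meas
  · rw [h.ball_eq, h.cov hSK h.SR_meas, setIntegral_congr_fun h.SR_meas ev]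
    have h3 : ∫ x in SR X z r R, |(Jac X x).det| * (w1 x * α x - f (X x)) ^ 2 ≤
        ∫ x in HB z r, |(Jac X x).det| * (w1 x * α x - f (X x)) ^ 2 :=
      setIntegral_mono_set i1 (Eventually.of_forall fun x =>
        mul_nonneg (abs_nonneg _) (sq_nonneg _)) (HasSubset.Subset.eventuallyLE h.SR_HB)
    have h4 : 0 ≤ C5 * C * ∫ x, h₂ x ^ 2 := mul_nonneg (by positivity) hh2n
    have h5 := hP.dist
    linarith
  · have h4 : 0 ≤ C * ∫ x in ball 0 R \ (X '' KB z r)ᶜ, qf f x := mul_nonneg hC hqfn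
    have h5 : 0 ≤ (C + C5 * C) * ∫ x, h₂ x ^ 2 := mul_nonneg (by positivity) hh2n
    calc _ ≤ C5 * (C * ∫ x in ball 0 R \ (X '' KB z r)ᶜ, qf f x) := bw
      _ ≤ (C + C5 * C) * ((∫ x in ball 0 R \ (X '' KB z r)ᶜ, qf f x) + ∫ x, h₂ x ^ 2) + ε := by
        linarith
      _ = _ := rfl

end

end Vale.Agent.P088.R2.H509
end
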