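import Vale.Agent.P088.R2.H509.StepBd2
import Vale.Agent.P088.R2.H338.SuEx
import Vale.Agent.P088.R2.H196.FinBd

/-!
# P088, Theorem S: the boundary step
-/

set_option linter.all false

open Bundle Manifold MeasureTheory Set Filter Topology Metric
open scoped ContDiff Matrix

noncomputable section

namespace Vale.Agent.P088.R2.H509

open Vale.Agent.P088 Vale.Agent.P088.EYM Vale.Agent.P088.EYM.O

universe u

/-- The boundary step. -/
theorem bdm (hCore : H31.Core_statement) : BDM_statement.{u} := by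
  intro n N _ M _ _ _ _ _ _ _ _ P Q Γ c hn hN hA1 hA2 hΓ hS hc hpos hconf p D X om hp hcf
  have hy : Hy P Q Γ c := ⟨hn, hN, hA1, hA2, hΓ, hS, hc, hpos, hconf⟩
  obtain ⟨k, rfl⟩ : ∃ k, n = k + 3 := ⟨n - 3, by omega⟩
  obtain ⟨X', om', r, r', R, ρ, hρ, hsu, hb⟩ := su_ex hy hp hcf 1
  obtain ⟨δ, hδ, hq⟩ := hCore k R ρ (X' '' KB (xc (k + 3) p p) r)ᶜ (qq c p X' om' (xc (k + 3) p p) r)
    hsu.geo.Rpos hρ hsu.geo.compX.isClosed.isOpen_compl hsu.q_cont
    (fun x hx => ext0_of_not hx.1) (fun x hx => hb hx.1) hsu.step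
  exact fin_bd hsu rfl ⟨δ, hδ, hq⟩

end Vale.Agent.P088.R2.H509
end
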