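import Vale.Agent.P088.R2.H509.Glue

/-!
# P088, Theorem S, boundary step: functions which vanish to second order at the boundary
-/

set_option linter.all false

open MeasureTheory Set Filter Topology Metric
open scoped ContDiff Matrix

noncomputable section

namespace Vale.Agent.P088.R2.H509

open Vale.Agent.P088 Vale.Agent.P088.EYM

variable {n : ℕ} [NeZero n] {X : E n → E n} {z : E n} {r r' R : ℝ}

/-- Boundary derivatives in tangential directions vanish if the function vanishes. -/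
theorem pd_tan {F : E n → ℝ} (hF : ContDiffOn ℝ ∞ F (HB z r))
    (h0 : ∀ x ∈ HB z r, x 0 = 0 → F x = 0) {x : E n} (hx : x ∈ HB z r) (hx0 : x 0 = 0) {i : Fin n}
    (hi : i ≠ 0) : pd i F x = 0 := by
  have h1 := (HB_rel z r).hasD hx hF (by simp)
  have h2 : HasDerivAt (fun t : ℝ => x + t • ev i) (ev i) 0 := by
    have := ((hasDerivAt_id (0 : ℝ)).smul_const (ev i)).const_add x
    simpa using this
  have hmem : ∀ t : ℝ, (x + t • ev i) 0 = 0 := by
    intro t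
    simp [hx0, ev_apply, hi.symm]
  have h1' : HasFDerivWithinAt F (fderivWithin ℝ F (Hs n) x) (Hs n) (x + (0 : ℝ) • ev i) := by
    simpa using h1
  have h3 := h1'.comp_hasDerivAt (f := fun t : ℝ => x + t • ev i) 0 h2
    (Eventually.of_forall fun t => (hmem t).ge)
  have h4 : (F ∘ fun t : ℝ => x + t • ev i) =ᶠ[𝓝 0] fun _ => 0 := by
    have h5 : Tendsto (fun t : ℝ => x + t • ev i) (𝓝 0) (𝓝 x) := by
      have : Continuous fun t : ℝ => x + t • ev i := by fun_prop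
      have h6 := this.tendsto 0
      simpa using h6
    filter_upwards [h5.eventually (isOpen_ball.mem_nhds hx.1)] with t ht
    exact h0 _ ⟨ht, (hmem t).ge⟩ (hmem t)
  have h5 := (h3.congr_of_eventuallyEq h4.symm).unique (hasDerivAt_const (0 : ℝ) (0 : ℝ))
  exact h5

/-- `F` vanishes to second order on the flat boundary. -/
structure Van2 (z : E n) (r : ℝ) (F : E n → ℝ) : Prop where
  sm : ContDiffOn ℝ ∞ F (HB z r)
  v0 : ∀ x ∈ HB z r, x 0 = 0 → F x = 0
  v1 : ∀ x ∈ HB z r, x 0 = 0 → ∀ i, pd i F x = 0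
  v2 : ∀ x ∈ HB z r, x 0 = 0 → ∀ i j, pd i (pd j F) x = 0

/-- It is enough to check the normal derivatives. -/
theorem Van2.of_normal {F : E n → ℝ} (hF : ContDiffOn ℝ ∞ F (HB z r))
    (h0 : ∀ x ∈ HB z r, x 0 = 0 → F x = 0) (h1 : ∀ x ∈ HB z r, x 0 = 0 → pd 0 F x = 0)
    (h2 : ∀ x ∈ HB z r, x 0 = 0 → pd 0 (pd 0 F) x = 0) : Van2 z r F := by
  have v1 : ∀ x ∈ HB z r, x 0 = 0 → ∀ i, pd i F x = 0 := by
    intro x hx hx0 i
    by_cases hi : i = 0
    · subst hi; exact h1 x hx hx0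
    · exact pd_tan hF h0 hx hx0 hi
  refine ⟨hF, h0, v1, fun x hx hx0 i j => ?_⟩
  by_cases hi : i = 0
  · by_cases hj : j = 0
    · subst hi; subst hj; exact h2 x hx hx0
    · rw [(HB_rel z r).pd_comm hF hx i j]
      exact pd_tan ((HB_rel z r).pd_smooth hF i) (fun x hx hx0 => v1 x hx hx0 i) hx hx0 hj
  · exact pd_tan ((HB_rel z r).pd_smooth hF j) (fun x hx hx0 => v1 x hx hx0 j) hx hx0 hi

theorem Geo.smH (h : Geo X z r r' R) : ContDiffOn ℝ ∞ X (HB z r) :=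
  h.sm.mono (HB_sub_KB.trans h.KB_sub)

theorem Geo.Jac_sm (h : Geo X z r r' R) (i j : Fin n) :
    ContDiffOn ℝ ∞ (fun x => Jac X x i j) (HB z r) :=
  (HB_rel z r).pd_smooth (coord_smooth h.smH i) j

theorem Geo.inv_sm (h : Geo X z r r' R) (i j : Fin n) :
    ContDiffOn ℝ ∞ (fun x => (Jac X x)⁻¹ i j) (HB z r) := by
  simp only [Jacobi_inv_apply]
  exact ((Jacobi_det_smooth (g := Jac X) h.Jac_sm).inv fun x hx => h.det x (HB_sub_KB hx)).mul
    (Jacobi_adj_smooth (g := Jac X) h.Jac_sm i j)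

theorem Geo.Dx_sm (h : Geo X z r r' R) {F : E n → ℝ} (hF : ContDiffOn ℝ ∞ F (HB z r))
    (j : Fin n) : ContDiffOn ℝ ∞ (Dx X j F) (HB z r) :=
  ContDiffOn.sum fun k _ => (h.inv_sm k j).mul ((HB_rel z r).pd_smooth hF k)

theorem Dx_zero {F : E n → ℝ} {x : E n} (h : ∀ i, pd i F x = 0) (j : Fin n) : Dx X j F x = 0 := by
  unfold Dx
  exact Finset.sum_eq_zero fun k _ => by rw [h k, mul_zero]

theorem Geo.pd_Dx_zero (h : Geo X z r r' R) {F : E n → ℝ} (hF : ContDiffOn ℝ ∞ F (HB z r))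
    {x : E n} (hx : x ∈ HB z r) (h1 : ∀ i, pd i F x = 0) (h2 : ∀ i j, pd i (pd j F) x = 0)
    (i j : Fin n) : pd i (Dx X j F) x = 0 := by
  have e : pd i (Dx X j F) x = ∑ k, pd i (fun x => (Jac X x)⁻¹ k j * pd k F x) x :=
    (HB_rel z r).pd_sum Finset.univ
      (fun k _ => (h.inv_sm k j).mul ((HB_rel z r).pd_smooth hF k)) hx i
  rw [e]
  refine Finset.sum_eq_zero fun k _ => ?_
  rw [(HB_rel z r).pd_mul (h.inv_sm k j) ((HB_rel z r).pd_smooth hF k) hx, h2, h1]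
  simp

theorem Geo.hasF1 (h : Geo X z r r' R) {F : E n → ℝ} (hF : ContDiffOn ℝ ∞ F (HB z r))
    (h0 : ∀ x ∈ HB z r, x 0 = 0 → F x = 0) (h1 : ∀ x ∈ HB z r, x 0 = 0 → ∀ i, pd i F x = 0) :
    ContinuousOn (fun y => ∑ j, ext0 X z r (Dx X j F) y •
        (EuclideanSpace.proj (𝕜 := ℝ) j : E n →L[ℝ] ℝ)) (ball 0 R) ∧
      ∀ y ∈ ball (0 : E n) R, HasFDerivAt (ext0 X z r F)
        (∑ j, ext0 X z r (Dx X j F) y • (EuclideanSpace.proj (𝕜 := ℝ) j : E n →L[ℝ] ℝ)) y := by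
  have hc : ContinuousOn (fun y => ∑ j, ext0 X z r (Dx X j F) y •
        (EuclideanSpace.proj (𝕜 := ℝ) j : E n →L[ℝ] ℝ)) (ball 0 R) := by
    refine continuousOn_finsetSum _ fun j _ => ?_
    exact (h.cont_ext0 (h.Dx_sm hF j).continuousOn
      fun x hx hx0 => Dx_zero (h1 x hx hx0) j).smul continuousOn_const
  refine ⟨hc, ?_⟩
  refine hasF_ext (I := X '' OB z r) isOpen_ball ?_ (h.cont_ext0 hF.continuousOn h0) hc ?_ ?_
  · rw [isOpen_iff_mem_nhds]
    rintro _ ⟨x, hx, rfl⟩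
    exact h.image_mem_nhds hx (OB_open.mem_nhds hx)
  · intro y hy hyI
    by_cases hyK : y ∈ X '' KB z r
    · obtain ⟨x, hx, rfl⟩ := hyK
      have hxb : x ∈ ball z r := ball_subset_ball (by linarith [h.rpos]) (h.far x hx hy)
      have hx0 : x 0 = 0 := by
        rcases (show 0 ≤ x 0 from hx.2).eq_or_lt with h2 | h2
        · exact h2.symm
        · exact absurd ⟨x, ⟨hxb, h2⟩, rfl⟩ hyI
      have hxH : x ∈ HB z r := ⟨hxb, hx.2⟩
      refine ⟨by rw [h.ext0_X hx]; exact h0 x hxH hx0, ?_⟩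
      refine Finset.sum_eq_zero fun j _ => ?_
      rw [h.ext0_X hx, Dx_zero (h1 x hxH hx0), zero_smul]
    · exact ⟨ext0_of_not hyK, Finset.sum_eq_zero fun j _ => by rw [ext0_of_not hyK, zero_smul]⟩
  · rintro _ hy ⟨x, hx, rfl⟩
    have hFd : DifferentiableAt ℝ F x :=
      (hF.contDiffAt (OB_mem_nhds hx)).differentiableAt (by simp)
    have h2 := h.hasF_ext0 hx hFd
    simpa only [h.ext0_X (OB_sub_KB hx)] using h2

/-- The extension by zero of a function which vanishes to second order is `C²`. -/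
theorem Geo.glue (h : Geo X z r r' R) {F : E n → ℝ} (hF : Van2 z r F) :
    ContDiffOn ℝ 2 (ext0 X z r F) (ball 0 R) ∧
      (∀ y ∈ ball (0 : E n) R, ∀ j, H31.dj j (ext0 X z r F) y = ext0 X z r (Dx X j F) y) ∧
      ∀ y ∈ ball (0 : E n) R, ∀ i j,
        H31.dj i (H31.dj j (ext0 X z r F)) y = ext0 X z r (Dx X i (Dx X j F)) y := by
  obtain ⟨c1, d1⟩ := h.hasF1 hF.sm hF.v0 hF.v1
  have hW : ∀ j, ContDiffOn ℝ ∞ (Dx X j F) (HB z r) := fun j => h.Dx_sm hF.sm j
  have hW0 : ∀ j, ∀ x ∈ HB z r, x 0 = 0 → Dx X j F x = 0 := fun j x hx hx0 =>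
    Dx_zero (hF.v1 x hx hx0) j
  have hW1 : ∀ j, ∀ x ∈ HB z r, x 0 = 0 → ∀ i, pd i (Dx X j F) x = 0 := fun j x hx hx0 i =>
    h.pd_Dx_zero hF.sm hx (hF.v1 x hx hx0) (hF.v2 x hx hx0) i j
  have h2 := fun j => h.hasF1 (hW j) (hW0 j) (hW1 j)
  have hdj : ∀ y ∈ ball (0 : E n) R, ∀ j,
      H31.dj j (ext0 X z r F) y = ext0 X z r (Dx X j F) y := by
    intro y hy j
    unfold H31.dj
    rw [(d1 y hy).fderiv]
    simp only [sum_apply, smul_apply, PiLp.proj_apply, ev_apply, smul_eq_mul, mul_ite,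
      mul_one, mul_zero, Finset.sum_ite_eq', Finset.sum_ite_eq, Finset.mem_univ, if_true]
  refine ⟨?_, hdj, fun y hy i j => ?_⟩
  · have c2 : ∀ j, ContDiffOn ℝ 1 (ext0 X z r (Dx X j F)) (ball 0 R) := by
      intro j
      rw [show (1 : WithTop ℕ∞) = 0 + 1 by norm_num,
        contDiffOn_succ_iff_fderiv_of_isOpen isOpen_ball]
      refine ⟨fun y hy => ((h2 j).2 y hy).differentiableAt.differentiableWithinAt, by simp, ?_⟩
      rw [contDiffOn_zero]
      exact (h2 j).1.congr fun y hy => ((h2 j).2 y hy).fderiv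
    rw [show (2 : WithTop ℕ∞) = 1 + 1 by norm_num,
      contDiffOn_succ_iff_fderiv_of_isOpen isOpen_ball]
    refine ⟨fun y hy => (d1 y hy).differentiableAt.differentiableWithinAt, by simp, ?_⟩
    refine ContDiffOn.congr ?_ fun y hy => (d1 y hy).fderiv
    exact ContDiffOn.sum fun j _ => (c2 j).smul contDiffOn_const
  · have e : H31.dj j (ext0 X z r F) =ᶠ[𝓝 y] ext0 X z r (Dx X j F) := by
      filter_upwards [isOpen_ball.mem_nhds hy] with y' hy'
      exact hdj y' hy' j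
    rw [H31.dj_congr e i]
    unfold H31.dj
    rw [((h2 j).2 y hy).fderiv]
    simp only [sum_apply, smul_apply, PiLp.proj_apply, ev_apply, smul_eq_mul, mul_ite,
      mul_one, mul_zero, Finset.sum_ite_eq', Finset.sum_ite_eq, Finset.mem_univ, if_true]

end Vale.Agent.P088.R2.H509
end
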