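import Vale.Agent.P088.H5.ClosL332
import Vale.Agent.P088.R2.H509.Glue2

/-!
# P088, Theorem S, boundary step: boundary determination for conformal pairs, from Theorem L
-/

set_option linter.all false

open Bundle Manifold MeasureTheory Set Filter Topology Metric
open scoped ContDiff Matrix

noncomputable section

namespace Vale.Agent.P088.R2.H509

open Vale.Agent.P088 Vale.Agent.P088.EYM Vale.Agent.P088.EYM.O

universe u

section

variable {n N : ℕ} [NeZero n] {M : Type u} [TopologicalSpace M]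
  [ChartedSpace (EuclideanHalfSpace n) M] [IsManifold (𝓡∂ n) ∞ M] [MeasurableSpace M]

/-- The matrices of conformal metrics. -/
theorem gram_conf {g g' : Metric (𝓡∂ n) M} {t : ℝ} {x : M}
    (h : ∀ v w : TangentSpace (𝓡∂ n) x, g'.inner x v w = t * g.inner x v w) (p : M) :
    gram g' p x = t • gram g p x := by
  ext i j
  simp only [gram, Matrix.of_apply, Matrix.smul_apply, smul_eq_mul]
  exact h _ _

theorem sig_conf {g g' : Metric (𝓡∂ n) M} {t : ℝ} (ht : 0 < t) {x : M}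
    (h : ∀ v w : TangentSpace (𝓡∂ n) x, g'.inner x v w = t * g.inner x v w) :
    sig g' x = (√(t ^ n) * t⁻¹) • sig g x := by
  unfold sig
  rw [gram_conf h x, Matrix.det_smul, Fintype.card_fin, Real.sqrt_mul (by positivity)]
  have hd : IsUnit (gram g x x).det :=
    isUnit_iff_ne_zero.2 (gram_posDef g (mem_extChartAt_source x)).det_pos.ne'
  have h1 : (t • gram g x x)⁻¹ = t⁻¹ • (gram g x x)⁻¹ := by
    have h2 : (t • gram g x x)⁻¹ = (Units.mk0 t ht.ne' • gram g x x)⁻¹ := rfl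
    rw [h2, Matrix.inv_smul' _ _ hd]
    rfl
  rw [h1, smul_smul, smul_smul]
  congr 1
  ring

theorem sig_psd (g : Metric (𝓡∂ n) M) (x : M) : (sig g x).PosSemidef :=
  ((gram_posDef g (mem_extChartAt_source x)).inv.posSemidef).smul (Real.sqrt_nonneg _)

theorem fac_ge {t : ℝ} (hn : 3 ≤ n) (ht : 1 ≤ t) : 1 ≤ √(t ^ n) * t⁻¹ := by
  have h0 : 0 < t := by linarith
  have h1 : t ≤ √(t ^ n) := by
    apply Real.le_sqrt_of_sq_le
    exact pow_le_pow_right₀ ht (by omega)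
  rw [← div_eq_mul_inv, one_le_div h0]
  exact h1

theorem fac_le {t : ℝ} (hn : 3 ≤ n) (h0 : 0 < t) (ht : t ≤ 1) : √(t ^ n) * t⁻¹ ≤ 1 := by
  have h1 : √(t ^ n) ≤ t := by
    rw [Real.sqrt_le_left h0.le]
    exact pow_le_pow_of_le_one h0.le ht (by omega)
  rw [← div_eq_mul_inv, div_le_one h0]
  exact h1

end

section

variable {n N : ℕ} [NeZero n] {M : Type u} [TopologicalSpace M]
  [ChartedSpace (EuclideanHalfSpace n) M] [IsManifold (𝓡∂ n) ∞ M] [T2Space M] [CompactSpace M]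
  [ConnectedSpace M] [MeasurableSpace M] [BorelSpace M] {P Q : One n N M} {Γ : Set M} {c : M → ℝ}

/-- If `c - 1` has a sign on a connected open set which meets `Γ`, then `c = 1` there. -/
theorem eq_one_of_sign (hn : 3 ≤ n) (hN : 0 < N) (hA1 : ∀ x X, P.A.form x X = 0)
    (hA2 : ∀ x X, Q.A.form x X = 0) (hΓ : RelBd n Γ) (hS : SameD P Q Γ) (hpos : ∀ x, 0 < c x)
    (hconf : ∀ (x : M) (v w : TangentSpace (𝓡∂ n) x), Q.g.inner x v w = c x * P.g.inner x v w)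
    {O : Set M} (hO : IsOpen O) (hOp : IsPreconnected O) (hOΓ : (O ∩ Γ).Nonempty)
    (h : (∀ x ∈ O, 1 ≤ c x) ∨ ∀ x ∈ O, c x ≤ 1) : ∀ x ∈ O, c x = 1 := by
  have hAA : ∀ x ∈ O, ∀ X : TangentSpace (𝓡∂ n) x, P.A.form x X = Q.A.form x X :=
    fun x _ X => by rw [hA1, hA2]
  have key : ∀ x ∈ O, ∀ v w : TangentSpace (𝓡∂ n) x, Q.g.inner x v w = P.g.inner x v w := by
    rcases h with h | h
    · refine lL_closed n N M P Q Γ O hn hN hΓ hO hOp hOΓ hS hAA fun x hx => ?_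
      have e : sig Q.g x - sig P.g x = (√(c x ^ n) * (c x)⁻¹ - 1) • sig P.g x := by
        rw [sig_conf (hpos x) (hconf x), sub_smul, one_smul]
      rw [e]
      exact (sig_psd P.g x).smul (sub_nonneg.2 (fac_ge hn (h x hx)))
    · have hS' : SameD Q P Γ := (cData TM.fUniq TM.fForm n N M P Q Γ hΓ
        (hOΓ.mono inter_subset_right) hS).1.2.2
      intro x hx v w
      symm
      refine lL_closed n N M Q P Γ O hn hN hΓ hO hOp hOΓ hS' (fun x hx X => (hAA x hx X).symm)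
        (fun x hx => ?_) x hx v w
      have e : sig P.g x - sig Q.g x = (1 - √(c x ^ n) * (c x)⁻¹) • sig P.g x := by
        rw [sig_conf (hpos x) (hconf x), sub_smul, one_smul]
      rw [e]
      exact (sig_psd P.g x).smul (sub_nonneg.2 (fac_le hn (hpos x) (h x hx)))
  intro x hx
  have hv : (EuclideanSpace.single (0 : Fin n) (1 : ℝ) : TangentSpace (𝓡∂ n) x) ≠ 0 := by
    intro h0
    have h1 := congrArg (fun v : E n => v 0) h0
    simp at h1
  have h1 := key x hx _ _ ▸ hconf x (EuclideanSpace.single (0 : Fin n) (1 : ℝ))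
    (EuclideanSpace.single (0 : Fin n) (1 : ℝ))
  have h2 := P.g.pos x _ hv
  have h3 : (c x - 1) * P.g.inner x (EuclideanSpace.single (0 : Fin n) (1 : ℝ))
      (EuclideanSpace.single (0 : Fin n) (1 : ℝ)) = 0 := by
    rw [sub_mul, one_mul, ← h1, sub_self]
  rcases mul_eq_zero.1 h3 with h4 | h4
  · linarith
  · exact absurd h4 h2.ne'

/-- The function `c - 1` in a chart at the boundary. -/
def cm (c : M → ℝ) (p : M) (y : E n) : ℝ := c ((xc n p).symm y) - 1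

theorem cm_smooth (hc : SmR n c) (p : M) : ContDiffOn ℝ ∞ (cm c p) (tg n p) := by
  have h1 := contMDiffOn_extChartAt_symm (I := 𝓡∂ n) (n := ∞) p
  have h2 := hc.comp_contMDiffOn h1
  exact (contMDiffOn_iff_contDiffOn.1 h2).sub contDiffOn_const

/-- The sign lemma in a half ball. -/
theorem cm_zero_of_sign (hn : 3 ≤ n) (hN : 0 < N) (hA1 : ∀ x X, P.A.form x X = 0)
    (hA2 : ∀ x X, Q.A.form x X = 0) (hΓ : RelBd n Γ) (hS : SameD P Q Γ) (hpos : ∀ x, 0 < c x)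
    (hconf : ∀ (x : M) (v w : TangentSpace (𝓡∂ n) x), Q.g.inner x v w = c x * P.g.inner x v w)
    {p : M} {z : E n} {r : ℝ} (hr : 0 < r) (hz : z 0 = 0) (hsub : HB z r ⊆ tg n p)
    (hzΓ : (xc n p).symm z ∈ Γ)
    (h : (∀ y ∈ HB z r, 0 ≤ cm c p y) ∨ ∀ y ∈ HB z r, cm c p y ≤ 0) :
    ∀ y ∈ HB z r, cm c p y = 0 := by
  have hzH : z ∈ HB z r := ⟨mem_ball_self hr, hz.ge⟩
  have h1 : IsOpen ((xc n p).symm '' HB z r) := TM.xc_image_open p (HB_rel z r) hsub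
  have hconv : Convex ℝ (HB z r) := (convex_ball z r).inter convex_Hs
  have h2 : IsPreconnected ((xc n p).symm '' HB z r) :=
    hconv.isPreconnected.image _ ((continuousOn_extChartAt_symm p).mono hsub)
  have h3 : ((xc n p).symm '' HB z r ∩ Γ).Nonempty := ⟨_, ⟨z, hzH, rfl⟩, hzΓ⟩
  have h4 := eq_one_of_sign hn hN hA1 hA2 hΓ hS hpos hconf h1 h2 h3 (by
    rcases h with h | h
    · left
      rintro _ ⟨y, hy, rfl⟩
      have := h y hy
      unfold cm at this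
      linarith
    · right
      rintro _ ⟨y, hy, rfl⟩
      have := h y hy
      unfold cm at this
      linarith)
  intro y hy
  unfold cm
  rw [h4 _ ⟨y, hy, rfl⟩, sub_self]

end

section

variable {n : ℕ} [NeZero n]

/-- A function on a half ball which vanishes on the flat boundary and has nonnegative normal
derivative is nonnegative. -/
theorem nonneg_of_pd {z : E n} {r : ℝ} (hz : z 0 = 0) {F : E n → ℝ}
    (hF : ContDiffOn ℝ ∞ F (HB z r)) (h0 : ∀ x ∈ HB z r, x 0 = 0 → F x = 0)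
    (h1 : ∀ x ∈ HB z r, 0 ≤ pd 0 F x) : ∀ x ∈ HB z r, 0 ≤ F x := by
  intro x hx
  have hx0 : 0 ≤ x 0 := hx.2
  set γ : ℝ → E n := fun t => x + (t - x 0) • ev 0 with hγ
  have hγ0 : ∀ t, γ t 0 = t := by
    intro t
    simp [hγ, ev_apply]
  have hγc : Continuous γ := by fun_prop
  have hγd : ∀ t, HasDerivAt γ (ev 0) t := by
    intro t
    have := (((hasDerivAt_id t).sub_const (x 0)).smul_const (ev 0)).const_add x
    simpa [hγ] using this
  have hmem : ∀ t ∈ Icc 0 (x 0), γ t ∈ HB z r := by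
    intro t ht
    refine ⟨?_, (by rw [hγ0]; exact ht.1 : (0 : ℝ) ≤ γ t 0)⟩
    have hxb := hx.1
    rw [mem_ball_iff_norm, EuclideanSpace.norm_eq] at hxb ⊢
    refine lt_of_le_of_lt (Real.sqrt_le_sqrt (Finset.sum_le_sum fun i _ => ?_)) hxb
    by_cases hi : i = 0
    · subst hi
      have e1 : (γ t - z) 0 = t := by rw [PiLp.sub_apply, hγ0, hz, sub_zero]
      have e2 : (x - z) 0 = x 0 := by rw [PiLp.sub_apply, hz, sub_zero]
      rw [e1, e2, Real.norm_eq_abs, Real.norm_eq_abs, abs_of_nonneg ht.1, abs_of_nonneg hx0]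
      exact pow_le_pow_left₀ ht.1 ht.2 2
    · have e1 : (γ t - z) i = (x - z) i := by
        simp [hγ, ev_apply, hi]
      rw [e1]
  have hmono : MonotoneOn (fun t => F (γ t)) (Icc 0 (x 0)) := by
    refine monotoneOn_of_deriv_nonneg (convex_Icc _ _) ?_ ?_ ?_
    · exact hF.continuousOn.comp hγc.continuousOn hmem
    · rw [interior_Icc]
      intro t ht
      have hm := hmem t ⟨ht.1.le, ht.2.le⟩
      have h2 : HasFDerivAt F (fderiv ℝ F (γ t)) (γ t) :=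
        ((hF.contDiffAt (OB_mem_nhds ⟨hm.1, by show 0 < γ t 0; rw [hγ0]; exact ht.1⟩)).differentiableAt
          (by simp)).hasFDerivAt
      exact (h2.comp_hasDerivAt t (hγd t)).differentiableAt.differentiableWithinAt
    · rw [interior_Icc]
      intro t ht
      have hm := hmem t ⟨ht.1.le, ht.2.le⟩
      have hp : 0 < γ t 0 := by rw [hγ0]; exact ht.1
      have h2 : HasFDerivAt F (fderiv ℝ F (γ t)) (γ t) :=
        ((hF.contDiffAt (OB_mem_nhds ⟨hm.1, hp⟩)).differentiableAt (by simp)).hasFDerivAt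
      have h3 := h2.comp_hasDerivAt t (hγd t)
      have h4 : deriv (fun t => F (γ t)) t = fderiv ℝ F (γ t) (ev 0) := h3.deriv
      rw [h4, ← pd_interior hp]
      exact h1 _ hm
  have h2 := hmono ⟨le_rfl, hx0⟩ ⟨hx0, le_rfl⟩ hx0
  have h3 : F (γ 0) = 0 := h0 _ (hmem 0 ⟨le_rfl, hx0⟩) (hγ0 0)
  have h4 : γ (x 0) = x := by simp [hγ]
  simp only [h3, h4] at h2
  exact h2

theorem pd_neg' {z : E n} {r : ℝ} {F : E n → ℝ} (hF : ContDiffOn ℝ ∞ F (HB z r)) {x : E n}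
    (hx : x ∈ HB z r) (i : Fin n) : pd i (fun y => -F y) x = -pd i F x := by
  have h := (HB_rel z r).pd_const_smul (-1 : ℝ) hF hx i
  simpa using h

theorem nonpos_of_pd {z : E n} {r : ℝ} (hz : z 0 = 0) {F : E n → ℝ}
    (hF : ContDiffOn ℝ ∞ F (HB z r)) (h0 : ∀ x ∈ HB z r, x 0 = 0 → F x = 0)
    (h1 : ∀ x ∈ HB z r, pd 0 F x ≤ 0) : ∀ x ∈ HB z r, F x ≤ 0 := by
  intro x hx
  have h2 := nonneg_of_pd hz (F := fun y => -F y) hF.neg (fun x hx hx0 => by rw [h0 x hx hx0, neg_zero])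
    (fun x hx => by rw [pd_neg' hF hx]; linarith [h1 x hx]) x hx
  linarith

/-- half balls about boundary points -/
theorem HB_shrink {z : E n} {r : ℝ} {y : E n} (hy : y ∈ HB z r) :
    ∃ ρ > 0, HB y ρ ⊆ HB z r := by
  obtain ⟨ρ, hρ, hb⟩ := Metric.isOpen_iff.1 isOpen_ball y hy.1
  exact ⟨ρ, hρ, inter_subset_inter_left _ hb⟩

theorem HB_small {F : E n → ℝ} {z : E n} {r : ℝ} (hF : ContinuousOn F (HB z r)) {y : E n}
    (hy : y ∈ HB z r) {U : Set ℝ} (hU : IsOpen U) (hyU : F y ∈ U) :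
    ∃ ρ > 0, HB y ρ ⊆ HB z r ∧ ∀ x ∈ HB y ρ, F x ∈ U := by
  obtain ⟨ρ₁, hρ₁, hb₁⟩ := HB_shrink hy
  have h1 : F ⁻¹' U ∈ 𝓝[HB z r] y := (hF y hy).preimage_mem_nhdsWithin (hU.mem_nhds hyU)
  obtain ⟨ρ₂, hρ₂, hb₂⟩ := Metric.mem_nhdsWithin_iff.1 h1
  refine ⟨min ρ₁ ρ₂, lt_min hρ₁ hρ₂, ?_, ?_⟩
  · exact (inter_subset_inter_left _ (ball_subset_ball (min_le_left _ _))).trans hb₁
  · intro x hx
    have hx1 : x ∈ HB z r :=
      hb₁ ⟨ball_subset_ball (min_le_left _ _) hx.1, hx.2⟩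
    exact hb₂ ⟨ball_subset_ball (min_le_right _ _) hx.1, hx1⟩

end

section

variable {n N : ℕ} [NeZero n] {M : Type u} [TopologicalSpace M]
  [ChartedSpace (EuclideanHalfSpace n) M] [IsManifold (𝓡∂ n) ∞ M] [T2Space M] [CompactSpace M]
  [ConnectedSpace M] [MeasurableSpace M] [BorelSpace M] {P Q : One n N M} {Γ : Set M} {c : M → ℝ}

/-- Boundary determination: `c - 1` vanishes to second order on `Γ`. -/
theorem bdDet (hn : 3 ≤ n) (hN : 0 < N) (hA1 : ∀ x X, P.A.form x X = 0)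
    (hA2 : ∀ x X, Q.A.form x X = 0) (hΓ : RelBd n Γ) (hS : SameD P Q Γ) (hc : SmR n c)
    (hpos : ∀ x, 0 < c x)
    (hconf : ∀ (x : M) (v w : TangentSpace (𝓡∂ n) x), Q.g.inner x v w = c x * P.g.inner x v w)
    {p : M} {z : E n} {r : ℝ} (hsub : HB z r ⊆ tg n p)
    (hbd : ∀ y ∈ HB z r, y 0 = 0 → (xc n p).symm y ∈ Γ) : Van2 z r (cm c p) := by
  have hF : ContDiffOn ℝ ∞ (cm c p) (HB z r) := (cm_smooth hc p).mono hsub
  have sgn : ∀ y ∈ HB z r, y 0 = 0 → ∀ ρ > 0, HB y ρ ⊆ HB z r →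
      ((∀ x ∈ HB y ρ, 0 ≤ cm c p x) ∨ ∀ x ∈ HB y ρ, cm c p x ≤ 0) →
      ∀ x ∈ HB y ρ, cm c p x = 0 := fun y hy hy0 ρ hρ hs h =>
    cm_zero_of_sign hn hN hA1 hA2 hΓ hS hpos hconf hρ hy0 (hs.trans hsub) (hbd y hy hy0) h
  have self : ∀ y ∈ HB z r, ∀ ρ > 0, y ∈ HB y ρ := fun y hy ρ hρ => ⟨mem_ball_self hρ, hy.2⟩
  -- zeroth order
  have h0 : ∀ y ∈ HB z r, y 0 = 0 → cm c p y = 0 := by
    intro y hy hy0
    by_contra hne
    rcases lt_or_gt_of_ne hne with h | h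
    · obtain ⟨ρ, hρ, hs, hU⟩ := HB_small hF.continuousOn hy isOpen_Iio h
      exact hne (sgn y hy hy0 ρ hρ hs (Or.inr fun x hx => (hU x hx).le) y (self y hy ρ hρ))
    · obtain ⟨ρ, hρ, hs, hU⟩ := HB_small hF.continuousOn hy isOpen_Ioi h
      exact hne (sgn y hy hy0 ρ hρ hs (Or.inl fun x hx => (hU x hx).le) y (self y hy ρ hρ))
  have hF1 : ContDiffOn ℝ ∞ (pd 0 (cm c p)) (HB z r) := (HB_rel z r).pd_smooth hF 0
  have h00 : ∀ y ρ, HB y ρ ⊆ HB z r → ∀ x ∈ HB y ρ, x 0 = 0 → cm c p x = 0 :=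
    fun y ρ hs x hx hx0 => h0 x (hs hx) hx0
  have pz : ∀ y ∈ HB z r, ∀ ρ > 0, HB y ρ ⊆ HB z r → (∀ x ∈ HB y ρ, cm c p x = 0) →
      ∀ i, ∀ x ∈ HB y ρ, pd i (cm c p) x = 0 := by
    intro y hy ρ hρ hs h i x hx
    rw [(HB_rel y ρ).pd_congr (g := fun _ => (0 : ℝ)) (fun x hx => h x hx) hx i, pd_const]
  -- first order
  have h1 : ∀ y ∈ HB z r, y 0 = 0 → pd 0 (cm c p) y = 0 := by
    intro y hy hy0
    by_contra hne
    rcases lt_or_gt_of_ne hne with h | h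
    · obtain ⟨ρ, hρ, hs, hU⟩ := HB_small hF1.continuousOn hy isOpen_Iio h
      have h2 := nonpos_of_pd hy0 (hF.mono hs) (h00 y ρ hs) fun x hx => (hU x hx).le
      exact hne (pz y hy ρ hρ hs (sgn y hy hy0 ρ hρ hs (Or.inr h2)) 0 y (self y hy ρ hρ))
    · obtain ⟨ρ, hρ, hs, hU⟩ := HB_small hF1.continuousOn hy isOpen_Ioi h
      have h2 := nonneg_of_pd hy0 (hF.mono hs) (h00 y ρ hs) fun x hx => (hU x hx).le
      exact hne (pz y hy ρ hρ hs (sgn y hy hy0 ρ hρ hs (Or.inl h2)) 0 y (self y hy ρ hρ))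
  have hF2 : ContDiffOn ℝ ∞ (pd 0 (pd 0 (cm c p))) (HB z r) := (HB_rel z r).pd_smooth hF1 0
  have h11 : ∀ y ρ, HB y ρ ⊆ HB z r → ∀ x ∈ HB y ρ, x 0 = 0 → pd 0 (cm c p) x = 0 :=
    fun y ρ hs x hx hx0 => h1 x (hs hx) hx0
  have pz2 : ∀ y ∈ HB z r, ∀ ρ > 0, HB y ρ ⊆ HB z r → (∀ x ∈ HB y ρ, cm c p x = 0) →
      ∀ x ∈ HB y ρ, pd 0 (pd 0 (cm c p)) x = 0 := by
    intro y hy ρ hρ hs h x hx
    rw [(HB_rel y ρ).pd_congr (g := fun _ => (0 : ℝ))
      (fun x hx => pz y hy ρ hρ hs h 0 x hx) hx 0, pd_const]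
  -- second order
  have h2 : ∀ y ∈ HB z r, y 0 = 0 → pd 0 (pd 0 (cm c p)) y = 0 := by
    intro y hy hy0
    by_contra hne
    rcases lt_or_gt_of_ne hne with h | h
    · obtain ⟨ρ, hρ, hs, hU⟩ := HB_small hF2.continuousOn hy isOpen_Iio h
      have h3 := nonpos_of_pd hy0 (hF1.mono hs) (h11 y ρ hs) fun x hx => (hU x hx).le
      have h4 := nonpos_of_pd hy0 (hF.mono hs) (h00 y ρ hs) h3
      exact hne (pz2 y hy ρ hρ hs (sgn y hy hy0 ρ hρ hs (Or.inr h4)) y (self y hy ρ hρ))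
    · obtain ⟨ρ, hρ, hs, hU⟩ := HB_small hF2.continuousOn hy isOpen_Ioi h
      have h3 := nonneg_of_pd hy0 (hF1.mono hs) (h11 y ρ hs) fun x hx => (hU x hx).le
      have h4 := nonneg_of_pd hy0 (hF.mono hs) (h00 y ρ hs) h3
      exact hne (pz2 y hy ρ hρ hs (sgn y hy hy0 ρ hρ hs (Or.inl h4)) y (self y hy ρ hρ))
  exact Van2.of_normal hF h0 h1 h2

end

end Vale.Agent.P088.R2.H509
end
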