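import Vale.Agent.P088.R2.H509.BdDet
import Vale.Agent.P088.R2.H509.Van

/-!
# P088, Theorem S, boundary step: the two problems in the coordinates at the boundary
-/

set_option linter.all false

open Bundle Manifold MeasureTheory Set Filter Topology Metric
open scoped ContDiff Matrix

noncomputable section

namespace Vale.Agent.P088.R2.H509

open Vale.Agent.P088 Vale.Agent.P088.EYM Vale.Agent.P088.EYM.O

universe u

/-- Hypotheses on the pair. -/
structure Hy {n N : ℕ} [NeZero n] {M : Type u} [TopologicalSpace M]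
    [ChartedSpace (EuclideanHalfSpace n) M] [IsManifold (𝓡∂ n) ∞ M] [MeasurableSpace M]
    (P Q : One n N M) (Γ : Set M) (c : M → ℝ) : Prop where
  hn : 3 ≤ n
  hN : 0 < N
  A1 : ∀ x X, P.A.form x X = 0
  A2 : ∀ x X, Q.A.form x X = 0
  bd : RelBd n Γ
  data : SameD P Q Γ
  sm : SmR n c
  pos : ∀ x, 0 < c x
  conf : ∀ (x : M) (v w : TangentSpace (𝓡∂ n) x), Q.g.inner x v w = c x * P.g.inner x v w

/-- The coordinates at the boundary point. -/
structure Su {n N : ℕ} [NeZero n] {M : Type u} [TopologicalSpace M]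
    [ChartedSpace (EuclideanHalfSpace n) M] [IsManifold (𝓡∂ n) ∞ M] [MeasurableSpace M]
    (P Q : One n N M) (Γ : Set M) (c : M → ℝ) (p : M) (X : E n → E n) (om : E n → ℝ) (z : E n)
    (r r' R : ℝ) : Prop where
  hy : Hy P Q Γ c
  geo : Geo X z r r' R
  sub : HB z r' ⊆ tg n p
  Γs : ∀ y ∈ HB z r', y 0 = 0 → (xc n p).symm y ∈ Γ
  smw : ContDiffOn ℝ ∞ (fun x => om (X x)) (HB z r')
  pw : ∀ x ∈ HB z r', 0 < om (X x)
  harm : ∀ x ∈ HB z r', 0 < x 0 → H31.lap om (X x) = 0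
  met : ∀ x ∈ HB z r', (P.loc p).g x =
    (om (X x)) ^ (4 / ((n : ℝ) - 2)) • ((Jac X x).transpose * Jac X x)

section

variable {n N : ℕ} [NeZero n] {M : Type u} [TopologicalSpace M]
  [ChartedSpace (EuclideanHalfSpace n) M] [IsManifold (𝓡∂ n) ∞ M]

/-- `ω₂ = c^{(n-2)/4} ω` in the coordinates `x`. -/
def w2 (c : M → ℝ) (p : M) (X : E n → E n) (om : E n → ℝ) (x : E n) : ℝ :=
  (c ((xc n p).symm x)) ^ (((n : ℝ) - 2) / 4) * om (X x)

end

section

variable {n N : ℕ} [NeZero n] {M : Type u} [TopologicalSpace M]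
  [ChartedSpace (EuclideanHalfSpace n) M] [IsManifold (𝓡∂ n) ∞ M] [T2Space M] [CompactSpace M]
  [ConnectedSpace M] [MeasurableSpace M] [BorelSpace M] {P Q : One n N M} {Γ : Set M} {c : M → ℝ}
  {p : M} {X : E n → E n} {om : E n → ℝ} {z : E n} {r r' R : ℝ}

theorem Su.HBr (h : Su P Q Γ c p X om z r r' R) : HB z r ⊆ HB z r' :=
  HB_sub_KB.trans h.geo.KB_sub

theorem Su.n2 (h : Su P Q Γ c p X om z r r' R) : (0 : ℝ) < (n : ℝ) - 2 := by
  have : (3 : ℝ) ≤ n := by exact_mod_cast h.hy.hn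
  linarith

theorem Su.cm_van' (h : Su P Q Γ c p X om z r r' R) : Van2 z r' (cm c p) :=
  bdDet h.hy.hn h.hy.hN h.hy.A1 h.hy.A2 h.hy.bd h.hy.data h.hy.sm h.hy.pos h.hy.conf h.sub h.Γs

theorem Van2.mono {F : E n → ℝ} {s : ℝ} (hF : Van2 z s F) (hs : r ≤ s) : Van2 z r F := by
  have h1 : HB z r ⊆ HB z s := inter_subset_inter_left _ (ball_subset_ball hs)
  exact ⟨hF.sm.mono h1, fun x hx => hF.v0 x (h1 hx), fun x hx => hF.v1 x (h1 hx),
    fun x hx => hF.v2 x (h1 hx)⟩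

theorem Su.w1s (h : Su P Q Γ c p X om z r r' R) : ContDiffOn ℝ ∞ (fun x => om (X x)) (HB z r) :=
  h.smw.mono h.HBr

theorem Su.Tvan (h : Su P Q Γ c p X om z r r' R) :
    Van2 z r' (fun x => (c ((xc n p).symm x)) ^ (((n : ℝ) - 2) / 4) - 1) := by
  have h1 := h.cm_van'.rpow (fun x hx => by
    have := h.hy.pos ((xc n p).symm x)
    unfold cm
    linarith) (((n : ℝ) - 2) / 4)
  refine ⟨h1.sm.congr ?_, ?_, ?_, ?_⟩
  · intro x _
    simp [cm]
  all_goals
    intro x hx hx0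
  · have := h1.v0 x hx hx0
    simpa [cm] using this
  · intro i
    have := h1.v1 x hx hx0 i
    simpa [cm] using this
  · intro i j
    have := h1.v2 x hx hx0 i j
    simpa [cm] using this

theorem Su.w2s' (h : Su P Q Γ c p X om z r r' R) : ContDiffOn ℝ ∞ (w2 c p X om) (HB z r') := by
  have h1 : ContDiffOn ℝ ∞ (fun x => ((c ((xc n p).symm x)) ^ (((n : ℝ) - 2) / 4) - 1) + 1)
      (HB z r') := h.Tvan.sm.add contDiffOn_const
  simp only [sub_add_cancel] at h1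
  exact h1.mul h.smw

theorem Su.w2s (h : Su P Q Γ c p X om z r r' R) : ContDiffOn ℝ ∞ (w2 c p X om) (HB z r) :=
  h.w2s'.mono h.HBr

theorem Su.w2p (h : Su P Q Γ c p X om z r r' R) : ∀ x ∈ HB z r', 0 < w2 c p X om x := fun x hx =>
  mul_pos (Real.rpow_pos_of_pos (h.hy.pos _) _) (h.pw x hx)

/-- `ω₂ - ω₁` vanishes to second order. -/
theorem Su.dvan (h : Su P Q Γ c p X om z r r' R) :
    Van2 z r (fun x => w2 c p X om x - om (X x)) := by
  have h1 := (h.Tvan.mul h.smw).mono h.geo.rr.le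
  have e : (fun x => w2 c p X om x - om (X x)) =
      fun x => ((c ((xc n p).symm x)) ^ (((n : ℝ) - 2) / 4) - 1) * om (X x) := by
    funext x
    unfold w2
    ring
  rw [e]
  exact h1

/-- `ω₁` is harmonic. -/
theorem Su.Lw1 (h : Su P Q Γ c p X om z r r' R) : ∀ x ∈ HB z r, Lx X (fun x => om (X x)) x = 0 := by
  refine eq_of_OB (h.geo.Lx_sm h.w1s).continuousOn continuousOn_const fun x hx => ?_
  rw [← h.geo.lap_ext0 h.w1s hx, ← h.harm x (h.HBr (OB_sub_HB hx)) hx.2]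
  refine H31.lap_congr ?_
  filter_upwards [h.geo.ev_near hx] with y hy
  obtain ⟨x', hx', rfl⟩ := hy
  exact h.geo.ext0_X (OB_sub_KB hx')

theorem Su.Lw2 (h : Su P Q Γ c p X om z r r' R) : ∀ x ∈ HB z r, x 0 = 0 →
    Lx X (w2 c p X om) x = 0 := by
  intro x hx hx0
  have h1 := h.geo.Lx_van h.dvan hx hx0
  rw [h.geo.Lx_sub h.w2s h.w1s hx, h.Lw1 x hx, sub_zero] at h1
  exact h1

/-- The metric of `Q`. -/
theorem Su.met2 (h : Su P Q Γ c p X om z r r' R) : ∀ x ∈ HB z r', (Q.loc p).g x =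
    (w2 c p X om x) ^ (4 / ((n : ℝ) - 2)) • ((Jac X x).transpose * Jac X x) := by
  intro x hx
  have h1 : (Q.loc p).g x = c ((xc n p).symm x) • (P.loc p).g x :=
    gram_conf (h.hy.conf ((xc n p).symm x)) p
  rw [h1, h.met x hx, smul_smul]
  congr 1
  unfold w2
  have hc := h.hy.pos ((xc n p).symm x)
  rw [Real.mul_rpow (Real.rpow_nonneg hc.le _) (h.pw x hx).le, ← Real.rpow_mul hc.le]
  have e : ((n : ℝ) - 2) / 4 * (4 / ((n : ℝ) - 2)) = 1 := by
    have := h.n2.ne'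
    field_simp
  rw [e, Real.rpow_one]

theorem Su.okP (h : Su P Q Γ c p X om z r r' R) : (P.loc p).Ok (HB z r') :=
  cRungeB_ok_mono ((TM.fLoc n N M).2.1 P p) h.sub

theorem Su.okQ (h : Su P Q Γ c p X om z r r' R) : (Q.loc p).Ok (HB z r') :=
  cRungeB_ok_mono ((TM.fLoc n N M).2.1 Q p) h.sub

theorem Su.ggP (h : Su P Q Γ c p X om z r r' R) (j k : Fin n) :
    ContDiffOn ℝ ∞ (gg (P.loc p).g j k) (HB z r) :=
  (HB_rel z r).gg_smooth (fun i j => (h.okP.g_smooth i j).mono h.HBr)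
    (fun x hx => h.okP.g_pos x (h.HBr hx)) j k

theorem Su.ggQ (h : Su P Q Γ c p X om z r r' R) (j k : Fin n) :
    ContDiffOn ℝ ∞ (gg (Q.loc p).g j k) (HB z r) :=
  (HB_rel z r).gg_smooth (fun i j => (h.okQ.g_smooth i j).mono h.HBr)
    (fun x hx => h.okQ.g_pos x (h.HBr hx)) j k

/-- The operator of `P`. -/
theorem Su.LP (h : Su P Q Γ c p X om z r r' R) {F : E n → ℝ} (hF : ContDiffOn ℝ ∞ F (HB z r))
    {x : E n} (hx : x ∈ HB z r) :
    Ls (P.loc p).g F x = |(Jac X x).det| * (om (X x) * Lx X (fun x => om (X x) * F x) x) := by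
  rw [h.geo.tr h.hy.hn h.ggP h.w1s (fun x hx => h.pw x (h.HBr hx))
    (fun x hx => h.met x (h.HBr hx)) hF hx, h.Lw1 x hx]
  ring

/-- The operator of `Q`. -/
theorem Su.LQ (h : Su P Q Γ c p X om z r r' R) {F : E n → ℝ} (hF : ContDiffOn ℝ ∞ F (HB z r))
    {x : E n} (hx : x ∈ HB z r) :
    Ls (Q.loc p).g F x = |(Jac X x).det| * (w2 c p X om x * Lx X (fun x => w2 c p X om x * F x) x -
      w2 c p X om x * F x * Lx X (w2 c p X om) x) :=
  h.geo.tr h.hy.hn h.ggQ h.w2s (fun x hx => h.w2p x (h.HBr hx))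
    (fun x hx => h.met2 x (h.HBr hx)) hF hx

theorem BP (P : One n N M) (hA : ∀ x X, P.A.form x X = 0) (p : M) (x : E n) (j : Fin n) :
    (P.loc p).B j x = 0 := hA _ _

/-- A corresponding pair of real solutions. -/
structure Pr (P Q : One n N M) (Γ : Set M) (v : Fib N) (a b : M → ℝ) : Prop where
  sa : SmR n a
  sb : SmR n b
  eq : ∀ x ∈ (𝓡∂ n).boundary M, a x = b x
  mem : ((fun x => (a x : ℂ) • v), (fun x => (b x : ℂ) • v)) ∈ PP P Q Γ

/-- A real function in the chart. -/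
abbrev ch (p : M) (a : M → ℝ) : E n → ℝ := lu (𝓡∂ n) p a

theorem ch_smooth {a : M → ℝ} (ha : SmR n a) (p : M) : ContDiffOn ℝ ∞ (ch (n := n) p a) (tg n p) := by
  have h1 := contMDiffOn_extChartAt_symm (I := 𝓡∂ n) (n := ∞) p
  have h2 := ha.comp_contMDiffOn h1
  exact contMDiffOn_iff_contDiffOn.1 h2

theorem lu_sp {a : M → ℝ} (p : M) (v : Fib N) :
    lu (𝓡∂ n) p (fun x => (a x : ℂ) • v) = fun y => sp v (ch (n := n) p a y) := by
  funext y
  rw [sp_apply]
  rfl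

theorem sp_inj {v : Fib N} (hv : v ≠ 0) {s t : ℝ} (h : sp v s = sp v t) : s = t := by
  rw [sp_apply, sp_apply, ← sub_eq_zero, ← sub_smul] at h
  rcases smul_eq_zero.1 h with h1 | h1
  · exact_mod_cast sub_eq_zero.1 h1
  · exact absurd h1 hv

/-- The scalar equation in the chart. -/
theorem Ls_zero {P : One n N M} (hA : ∀ x X, P.A.form x X = 0) {a : M → ℝ} (ha : SmR n a)
    {v : Fib N} (hv : v ≠ 0) {f : M → Fib N} (hH : P.Harm f (fun x => (a x : ℂ) • v)) (p : M)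
    {x : E n} (hx : x ∈ tg n p) : Ls (P.loc p).g (ch (n := n) p a) x = 0 := by
  obtain ⟨hrel, hOk, hbd, -⟩ := TM.fLoc n N M
  have hS := (TM.fHarm n N M P _ _ hH p).2 x hx
  rw [lu_sp] at hS
  have hg := (hrel p).gg_smooth (hOk P p).g_smooth (hOk P p).g_pos
  rw [lop_sp (hrel p) hg (fun x _ j => BP P hA p x j) (ch_smooth ha p) v hx] at hS
  exact sp_inj hv (by rw [hS, map_zero])

/-- Equality of the energies with all test sections near the boundary point. -/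
theorem Su.en_eq (h : Su P Q Γ c p X om z r r' R) {u : (M → Fib N) × (M → Fib N)}
    (hu : u ∈ PP P Q Γ) (φ : E n → Fib N) (hφ : Tst0 (ball z r') φ) :
    En (P.loc p) (HB z r') φ (lu (𝓡∂ n) p u.1) = En (Q.loc p) (HB z r') φ (lu (𝓡∂ n) p u.2) := by
  obtain ⟨hφs, hφc, hφt⟩ := hφ
  set K' : Set (E n) := tsupport φ ∩ Hs n with hK'
  have hK'c : IsCompact K' := hφc.isCompact.inter_right isClosed_Hs
  have hK'D : K' ⊆ HB z r' := inter_subset_inter_left _ hφt
  have h0 : ∀ y ∈ HB z r', y ∉ K' → φ y = 0 := fun y hy hyK =>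
    image_eq_zero_of_notMem_tsupport fun hy' => hyK ⟨hy', hy.2⟩
  obtain ⟨ψ, hψ, hψD, hψ0, hψs⟩ := TM.fExt n N M p φ (HB z r') K' (HB_rel z r') h.sub
    hφs.contDiffOn hK'c hK'D h0
  have hcl : IsClosed ((xc n p).symm '' K') :=
    (hK'c.image_of_continuousOn ((continuousOn_extChartAt_symm p).mono
      (hK'D.trans h.sub))).isClosed
  obtain ⟨hrel, hOk, hbd, -⟩ := TM.fLoc n N M
  have hbdc : IsClosed ((𝓡∂ n).boundary M) := by
    rw [← ModelWithCorners.compl_interior]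
    exact (TM.fConn n M).1.isClosed_compl
  have hsupp : closure {x ∈ (𝓡∂ n).boundary M | ψ x ≠ 0} ⊆ Γ := by
    have h1 : closure {x ∈ (𝓡∂ n).boundary M | ψ x ≠ 0} ⊆
        (xc n p).symm '' K' ∩ (𝓡∂ n).boundary M := by
      refine closure_minimal ?_ (hcl.inter hbdc)
      rintro x ⟨hx, hx'⟩
      exact ⟨by_contra fun h => hx' (hψ0 x h), hx⟩
    refine h1.trans ?_
    rintro x ⟨⟨y, hy, rfl⟩, hx⟩
    have hyt := h.sub (hK'D hy)
    refine h.Γs y (hK'D hy) ?_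
    have h2 := (hbd p _ ((xc n p).map_target hyt)).1 hx
    rwa [(xc n p).right_inv hyt] at h2
  have hΓn : Γ.Nonempty := by
    refine ⟨_, h.Γs z ⟨mem_ball_self (h.geo.rpos.trans h.geo.rr), h.geo.z0.ge⟩ h.geo.z0⟩
  have h3 := (cData TM.fUniq TM.fForm n N M P Q Γ h.hy.bd hΓn h.hy.data).2 u hu ψ ψ hψ hψ
    (fun _ _ => rfl) hsupp
  obtain ⟨f, hf, hu1, hu2⟩ := hu
  have hsub : tsupport ψ ⊆ (xc n p).symm '' HB z r' := hψs.trans (image_mono hK'D)
  rw [(TM.fEn n N M P p _ (HB_rel z r') h.sub).1 ψ u.1 hψ hu1.smooth (Or.inl hsub),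
    (TM.fEn n N M Q p _ (HB_rel z r') h.sub).1 ψ u.2 hψ hu2.smooth (Or.inl hsub)] at h3
  have e1 : ∀ (L : LD n N) (d : E n → Fib N),
      En L (HB z r') (lu (𝓡∂ n) p ψ) d = En L (HB z r') φ d := by
    intro L d
    unfold En
    refine setIntegral_congr_fun (CRungeC_meas (HB_rel z r')) fun y hy => ?_
    exact CRungeC_ed_congr (HB_rel z r') (fun y hy => hψD y hy) (fun _ _ => rfl) hy
  rwa [e1, e1] at h3

/-- The normal derivatives agree. -/
theorem Su.pd0 (h : Su P Q Γ c p X om z r r' R) {v : Fib N} (hv : v ≠ 0) {a b : M → ℝ}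
    (hp : Pr P Q Γ v a b) {x : E n} (hx : x ∈ HB z r') (hx0 : x 0 = 0) (i : Fin n) :
    pd i (fun y => ch (n := n) p b y - ch (n := n) p a y) x = 0 := by
  obtain ⟨hrel, hOk, hbd, -⟩ := TM.fLoc n N M
  have sa : ContDiffOn ℝ ∞ (ch (n := n) p a) (HB z r') := (ch_smooth hp.sa p).mono h.sub
  have sb : ContDiffOn ℝ ∞ (ch (n := n) p b) (HB z r') := (ch_smooth hp.sb p).mono h.sub
  have sd : ContDiffOn ℝ ∞ (fun y => ch (n := n) p b y - ch (n := n) p a y) (HB z r') := sb.sub sa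
  have d0 : ∀ y ∈ HB z r', y 0 = 0 → ch (n := n) p b y - ch (n := n) p a y = 0 := by
    intro y hy hy0
    have hyt := h.sub hy
    have h1 : (xc n p).symm y ∈ (𝓡∂ n).boundary M := by
      rw [hbd p _ ((xc n p).map_target hyt), (xc n p).right_inv hyt]
      exact hy0
    have h2 : ch (n := n) p b y = ch (n := n) p a y := (hp.eq _ h1).symm
    rw [h2, sub_self]
  by_cases hi : i ≠ 0
  · exact pd_tan sd d0 hx hx0 hi
  push Not at hi
  subst hi
  obtain ⟨f, hf, hu1, hu2⟩ := hp.mem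
  have hS1 := TM.fHarm n N M P _ _ hu1 p
  have hS2 := TM.fHarm n N M Q _ _ hu2 p
  have hfl := aFlux n N (P.loc p) (Q.loc p) z r' (h.geo.rpos.trans h.geo.rr) h.geo.z0 h.okP h.okQ
    (fun _ _ _ => rfl) _ _ ⟨hS1.1.mono h.sub, fun x hx => hS1.2 x (h.sub hx)⟩
    ⟨hS2.1.mono h.sub, fun x hx => hS2.2 x (h.sub hx)⟩ (fun φ hφ => h.en_eq hp.mem φ hφ) x hx hx0
  simp only at hfl
  rw [lu_sp, lu_sp, flux_sp (HB_rel z r') (fun x _ j => BP P h.hy.A1 p x j) sa v hx,
    flux_sp (HB_rel z r') (fun x _ j => BP Q h.hy.A2 p x j) sb v hx] at hfl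
  have h1 := sp_inj hv hfl
  -- `c = 1` at `x`
  have hc1 : c ((xc n p).symm x) = 1 := by
    have := h.cm_van'.v0 x hx hx0
    unfold cm at this
    linarith
  have hgq : (Q.loc p).g x = (P.loc p).g x := by
    have h2 : (Q.loc p).g x = c ((xc n p).symm x) • (P.loc p).g x :=
      gram_conf (h.hy.conf ((xc n p).symm x)) p
    rw [h2, hc1, one_smul]
  have hgg : ∀ k, gg (Q.loc p).g 0 k x = gg (P.loc p).g 0 k x := fun k => by
    unfold gg
    rw [hgq]
  simp only [hgg] at h1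
  have h3 : ∀ k, pd k (fun y => ch (n := n) p b y - ch (n := n) p a y) x =
      pd k (ch (n := n) p b) x - pd k (ch (n := n) p a) x := fun k =>
    (HB_rel z r').pd_sub sb sa hx k
  have h4 : ∑ k, gg (P.loc p).g 0 k x * pd k (fun y => ch (n := n) p b y - ch (n := n) p a y) x = 0 := by
    simp only [h3, mul_sub, Finset.sum_sub_distrib]
    rw [h1, sub_self]
  rw [Finset.sum_eq_single (0 : Fin n)] at h4
  · have h5 : 0 < gg (P.loc p).g 0 0 x := by
      have hpd := h.okP.g_pos x hx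
      unfold gg
      refine mul_pos (Real.sqrt_pos.2 hpd.det_pos) ?_
      exact hpd.inv.diag_pos
    exact (mul_eq_zero.1 h4).resolve_left h5.ne'
  · intro k _ hk
    rw [pd_tan sd d0 hx hx0 hk, mul_zero]
  · intro h; exact absurd (Finset.mem_univ _) h

/-- `w = ω₂ u₂ - ω₁ u₁` in the coordinates `x`. -/
def WW (c : M → ℝ) (p : M) (X : E n → E n) (om : E n → ℝ) (a b : M → ℝ) (x : E n) : ℝ :=
  w2 c p X om x * ch (n := n) p b x - om (X x) * ch (n := n) p a x

theorem Su.W_main (h : Su P Q Γ c p X om z r r' R) {v : Fib N} (hv : v ≠ 0) {a b : M → ℝ}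
    (hp : Pr P Q Γ v a b) : Van2 z r (WW c p X om a b) ∧ ∀ x ∈ HB z r,
      Lx X (WW c p X om a b) x = ch (n := n) p b x * Lx X (w2 c p X om) x := by
  obtain ⟨hrel, hOk, hbd, -⟩ := TM.fLoc n N M
  have sa' : ContDiffOn ℝ ∞ (ch (n := n) p a) (HB z r') := (ch_smooth hp.sa p).mono h.sub
  have sb' : ContDiffOn ℝ ∞ (ch (n := n) p b) (HB z r') := (ch_smooth hp.sb p).mono h.sub
  have sa : ContDiffOn ℝ ∞ (ch (n := n) p a) (HB z r) := sa'.mono h.HBr
  have sb : ContDiffOn ℝ ∞ (ch (n := n) p b) (HB z r) := sb'.mono h.HBr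
  have sW : ContDiffOn ℝ ∞ (WW c p X om a b) (HB z r) := (h.w2s.mul sb).sub (h.w1s.mul sa)
  obtain ⟨f, hf, hu1, hu2⟩ := hp.mem
  have hdet : ∀ x ∈ HB z r, |(Jac X x).det| ≠ 0 := fun x hx =>
    abs_ne_zero.2 (h.geo.det x (HB_sub_KB hx))
  have l1 : ∀ x ∈ HB z r, Lx X (fun x => om (X x) * ch (n := n) p a x) x = 0 := by
    intro x hx
    have h1 := h.LP sa hx
    rw [Ls_zero h.hy.A1 hp.sa hv hu1 p (h.sub (h.HBr hx))] at h1
    have h2 := (mul_eq_zero.1 h1.symm).resolve_left (hdet x hx)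
    exact (mul_eq_zero.1 h2).resolve_left (h.pw x (h.HBr hx)).ne'
  have l2 : ∀ x ∈ HB z r, Lx X (fun x => w2 c p X om x * ch (n := n) p b x) x =
      ch (n := n) p b x * Lx X (w2 c p X om) x := by
    intro x hx
    have h1 := h.LQ sb hx
    rw [Ls_zero h.hy.A2 hp.sb hv hu2 p (h.sub (h.HBr hx))] at h1
    have h2 := (mul_eq_zero.1 h1.symm).resolve_left (hdet x hx)
    have h3 : w2 c p X om x * (Lx X (fun x => w2 c p X om x * ch (n := n) p b x) x -
        ch (n := n) p b x * Lx X (w2 c p X om) x) = 0 := by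
      rw [← h2]; ring
    exact sub_eq_zero.1 ((mul_eq_zero.1 h3).resolve_left (h.w2p x (h.HBr hx)).ne')
  have l3 : ∀ x ∈ HB z r,
      Lx X (WW c p X om a b) x = ch (n := n) p b x * Lx X (w2 c p X om) x := by
    intro x hx
    have e := h.geo.Lx_sub (h.w2s.mul sb) (h.w1s.mul sa) hx
    rw [l1 x hx, l2 x hx, sub_zero] at e
    exact e
  refine ⟨h.geo.van_of_Lx sW ?_ ?_ ?_, l3⟩
  · -- boundary values
    intro x hx hx0
    have h1 := h.dvan.v0 x hx hx0
    have hxt := h.sub (h.HBr hx)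
    have h2 : (xc n p).symm x ∈ (𝓡∂ n).boundary M := by
      rw [hbd p _ ((xc n p).map_target hxt), (xc n p).right_inv hxt]
      exact hx0
    have h3 : ch (n := n) p b x = ch (n := n) p a x := (hp.eq _ h2).symm
    unfold WW
    rw [h3, ← sub_mul, h1, zero_mul]
  · intro x hx hx0
    have e : EqOn (WW c p X om a b) (fun x => (w2 c p X om x - om (X x)) * ch (n := n) p b x +
        om (X x) * (ch (n := n) p b x - ch (n := n) p a x)) (HB z r) := by
      intro y _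
      unfold WW
      ring
    have hd : pd 0 (fun y => ch (n := n) p b y - ch (n := n) p a y) x = 0 :=
      h.pd0 hv hp (h.HBr hx) hx0 0
    have hxt := h.sub (h.HBr hx)
    have h2 : (xc n p).symm x ∈ (𝓡∂ n).boundary M := by
      rw [hbd p _ ((xc n p).map_target hxt), (xc n p).right_inv hxt]
      exact hx0
    have h3 : ch (n := n) p b x = ch (n := n) p a x := (hp.eq _ h2).symm
    rw [(HB_rel z r).pd_congr e hx 0, pd_add' (h.dvan.sm.mul sb) (h.w1s.mul (sb.sub sa)) hx,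
      pd_mul' h.dvan.sm sb hx, pd_mul' h.w1s (sb.sub sa) hx, hd, h.dvan.v0 x hx hx0,
      h.dvan.v1 x hx hx0, h3]
    ring
  · intro x hx hx0
    rw [l3 x hx, h.Lw2 x hx hx0, mul_zero]

end

end Vale.Agent.P088.R2.H509
end
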