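import Vale.Agent.P088.R2.H509.Est
import Vale.Agent.P088.Bdl.B11

/-!
# P088, Theorem S, boundary step: change of variables and pointwise bounds
-/

set_option linter.all false

open Bundle Manifold MeasureTheory Set Filter Topology Metric
open scoped ContDiff Matrix

noncomputable section

namespace Vale.Agent.P088.R2.H509

open Vale.Agent.P088 Vale.Agent.P088.EYM Vale.Agent.P088.EYM.O

section

variable {n : ℕ} [NeZero n] {X : E n → E n} {z : E n} {r r' R : ℝ}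

/-- The part of the half ball which is mapped into the ball. -/
def SR (X : E n → E n) (z : E n) (r R : ℝ) : Set (E n) := KB z r ∩ X ⁻¹' ball 0 R

theorem Geo.SR_sub (h : Geo X z r r' R) : SR X z r R ⊆ KB z (r / 2) := fun x hx =>
  ⟨ball_subset_closedBall (h.far x hx.1 hx.2), hx.1.2⟩

theorem Geo.SR_HB (h : Geo X z r r' R) : SR X z r R ⊆ HB z r := fun x hx =>
  ⟨ball_subset_ball (by linarith [h.rpos]) (h.far x hx.1 hx.2), hx.1.2⟩

theorem Geo.half (h : Geo X z r r' R) : KB z (r / 2) ⊆ HB z r := KB_sub' (by linarith [h.rpos])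

theorem KB_meas (z : E n) (r : ℝ) : MeasurableSet (KB z r) := KB_compact.isClosed.measurableSet

theorem Geo.SR_meas (h : Geo X z r r' R) : MeasurableSet (SR X z r R) := by
  obtain ⟨U, hU, hUe⟩ := continuousOn_iff'.1 h.contX (ball 0 R) isOpen_ball
  have e : SR X z r R = U ∩ KB z r := by
    rw [← hUe, inter_comm]
    rfl
  rw [e]
  exact hU.measurableSet.inter (KB_meas z r)

theorem Geo.ball_eq (h : Geo X z r r' R) : ball 0 R \ (X '' KB z r)ᶜ = X '' SR X z r R := by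
  ext y
  constructor
  · rintro ⟨hy, hyG⟩
    rw [mem_compl_iff, not_not] at hyG
    obtain ⟨x, hx, rfl⟩ := hyG
    exact ⟨x, ⟨hx, hy⟩, rfl⟩
  · rintro ⟨x, hx, rfl⟩
    exact ⟨hx.2, fun h => h ⟨x, hx.1, rfl⟩⟩

theorem Geo.hasD (h : Geo X z r r' R) {s : Set (E n)} (hs : s ⊆ KB z r) :
    ∀ x ∈ s, HasFDerivWithinAt X (fderivWithin ℝ X (Hs n) x) s x := fun x hx =>
  ((HB_rel z r').hasD (h.KB_sub (hs hx)) h.sm (by simp)).mono fun y hy => (hs hy).2

theorem Geo.detJ (h : Geo X z r r' R) {x : E n} (hx : x ∈ KB z r) :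
    (fderivWithin ℝ X (Hs n) x).det = (Jac X x).det :=
  energy_det (HB_rel z r') h.sm (h.KB_sub hx)

/-- Change of variables. -/
theorem Geo.cov (h : Geo X z r r' R) {s : Set (E n)} (hs : s ⊆ KB z r) (hm : MeasurableSet s)
    (g : E n → ℝ) : ∫ y in X '' s, g y = ∫ x in s, |(Jac X x).det| * g (X x) := by
  rw [integral_image_eq_integral_abs_det_fderiv_smul volume hm (h.hasD hs) (h.inj.mono hs)]
  refine setIntegral_congr_fun hm fun x hx => ?_
  simp only [h.detJ (hs hx), smul_eq_mul]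

theorem Geo.cov_int (h : Geo X z r r' R) {s : Set (E n)} (hs : s ⊆ KB z r) (hm : MeasurableSet s)
    (g : E n → ℝ) : IntegrableOn g (X '' s) ↔
      IntegrableOn (fun x => |(Jac X x).det| * g (X x)) s := by
  rw [integrableOn_image_iff_integrableOn_abs_det_fderiv_smul volume hm (h.hasD hs) (h.inj.mono hs)]
  refine integrableOn_congr_fun (fun x hx => ?_) hm
  simp only [h.detJ (hs hx), smul_eq_mul]

/-! ### Pointwise bounds -/

/-- a bound on a compact set, positive -/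
theorem bound_pos {K : Set (E n)} (hK : IsCompact K) {F : E n → ℝ} (hF : ContinuousOn F K) :
    ∃ B > 0, ∀ x ∈ K, |F x| ≤ B := by
  obtain ⟨C, hC⟩ := hK.exists_bound_of_continuousOn hF
  exact ⟨|C| + 1, by positivity, fun x hx => by
    have := hC x hx
    rw [Real.norm_eq_abs] at this
    linarith [le_abs_self C]⟩

theorem bound_fam {ι : Type*} [Fintype ι] {K : Set (E n)} (hK : IsCompact K) {F : ι → E n → ℝ}
    (hF : ∀ i, ContinuousOn (F i) K) : ∃ B > 0, ∀ i, ∀ x ∈ K, |F i x| ≤ B := by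
  have h1 : ContinuousOn (fun x => ∑ i, |F i x|) K :=
    continuousOn_finsetSum _ fun i _ => (hF i).abs
  obtain ⟨B, hB, hBb⟩ := bound_pos hK h1
  refine ⟨B, hB, fun i x hx => ?_⟩
  have h2 := Finset.single_le_sum (f := fun i => |F i x|) (fun _ _ => abs_nonneg _)
    (Finset.mem_univ i)
  exact h2.trans ((le_abs_self _).trans (hBb x hx))

/-- multiplication by a fixed smooth function -/
theorem q1_mul (hrr : r < r') {G : E n → ℝ} (hG : ContDiffOn ℝ ∞ G (HB z r')) :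
    ∃ C > 0, ∀ F : E n → ℝ, ContDiffOn ℝ ∞ F (HB z r') → ∀ x ∈ HB z r,
      q1 (fun x => G x * F x) x ≤ C * q1 F x := by
  obtain ⟨B1, hB1, hb1⟩ := bound_pos (KB_compact (z := z) (r := r))
    (hG.continuousOn.mono (KB_sub' hrr))
  obtain ⟨B2, hB2, hb2⟩ := bound_fam (KB_compact (z := z) (r := r))
    (F := fun k => pd k G) (fun k => (pd_sm hG k).continuousOn.mono (KB_sub' hrr))
  refine ⟨B1 ^ 2 + 2 * n * B2 ^ 2 + 2 * B1 ^ 2, by positivity, fun F hF x hx => ?_⟩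
  have hxK := HB_sub_KB hx
  have hx' := KB_sub' hrr hxK
  have h1 : G x ^ 2 ≤ B1 ^ 2 := by
    rw [← sq_abs]
    exact pow_le_pow_left₀ (abs_nonneg _) (hb1 x hxK) 2
  have h2 : ∀ k, pd k G x ^ 2 ≤ B2 ^ 2 := fun k => by
    rw [← sq_abs]
    exact pow_le_pow_left₀ (abs_nonneg _) (hb2 k x hxK) 2
  have h3 : ∀ k, pd k (fun x => G x * F x) x ^ 2 ≤ 2 * B2 ^ 2 * F x ^ 2 + 2 * B1 ^ 2 * pd k F x ^ 2 := by
    intro k
    rw [pd_mul' hG hF hx']
    have h4 : (G x * pd k F x + pd k G x * F x) ^ 2 ≤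
        2 * (pd k G x ^ 2 * F x ^ 2) + 2 * (G x ^ 2 * pd k F x ^ 2) := by
      nlinarith [sq_nonneg (G x * pd k F x - pd k G x * F x)]
    have h5 := mul_le_mul_of_nonneg_right (h2 k) (sq_nonneg (F x))
    have h6 := mul_le_mul_of_nonneg_right h1 (sq_nonneg (pd k F x))
    linarith
  have h7 : ∑ k, pd k (fun x => G x * F x) x ^ 2 ≤
      n * (2 * B2 ^ 2 * F x ^ 2) + 2 * B1 ^ 2 * ∑ k, pd k F x ^ 2 := by
    refine (Finset.sum_le_sum fun k _ => h3 k).trans ?_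
    rw [Finset.sum_add_distrib, Finset.sum_const, Finset.card_univ, Fintype.card_fin,
      nsmul_eq_mul, Finset.mul_sum]
  have h8 : (G x * F x) ^ 2 ≤ B1 ^ 2 * F x ^ 2 := by
    rw [mul_pow]
    exact mul_le_mul_of_nonneg_right h1 (sq_nonneg _)
  have h9 : 0 ≤ ∑ k, pd k F x ^ 2 := Finset.sum_nonneg fun _ _ => sq_nonneg _
  have h10 : 0 ≤ F x ^ 2 := sq_nonneg _
  unfold q1
  have h11 : 0 ≤ 2 * B1 ^ 2 * F x ^ 2 := by positivity
  have h12 : 0 ≤ (B1 ^ 2 + 2 * n * B2 ^ 2) * ∑ k, pd k F x ^ 2 := by positivity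
  nlinarith

theorem q1_sub {F G : E n → ℝ} (hF : ContDiffOn ℝ ∞ F (HB z r)) (hG : ContDiffOn ℝ ∞ G (HB z r))
    {x : E n} (hx : x ∈ HB z r) : q1 (fun x => F x - G x) x ≤ 2 * q1 F x + 2 * q1 G x := by
  have h1 : ∀ k, pd k (fun x => F x - G x) x = pd k F x - pd k G x := fun k =>
    (HB_rel z r).pd_sub hF hG hx k
  have h2 : ∑ k, pd k (fun x => F x - G x) x ^ 2 ≤
      2 * ∑ k, pd k F x ^ 2 + 2 * ∑ k, pd k G x ^ 2 := by
    rw [Finset.mul_sum, Finset.mul_sum, ← Finset.sum_add_distrib]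
    refine Finset.sum_le_sum fun k _ => ?_
    rw [h1]
    nlinarith [sq_nonneg (pd k F x + pd k G x)]
  unfold q1
  nlinarith [sq_nonneg (F x + G x)]

/-- Cauchy-Schwarz for a row with bounded entries -/
theorem row_sq {B : ℝ} (hB : 0 ≤ B) {a d : Fin n → ℝ} (ha : ∀ k, |a k| ≤ B) :
    (∑ k, a k * d k) ^ 2 ≤ (n * B ^ 2) * ∑ k, d k ^ 2 := by
  refine (Finset.sum_mul_sq_le_sq_mul_sq _ _ _).trans ?_
  refine mul_le_mul_of_nonneg_right ?_ (Finset.sum_nonneg fun _ _ => sq_nonneg _)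
  calc ∑ k, a k ^ 2 ≤ ∑ _k : Fin n, B ^ 2 := Finset.sum_le_sum fun k _ => by
        rw [← sq_abs]
        exact pow_le_pow_left₀ (abs_nonneg _) (ha k) 2
    _ = n * B ^ 2 := by
        rw [Finset.sum_const, Finset.card_univ, Fintype.card_fin, nsmul_eq_mul]

/-- `F² + ∑ (∂F/∂y_j)²` in terms of `q1`. -/
theorem Geo.Dx_bound (h : Geo X z r r' R) : ∃ C > 0, ∀ F : E n → ℝ, ∀ x ∈ SR X z r R,
    |(Jac X x).det| * (F x ^ 2 + ∑ j, Dx X j F x ^ 2) ≤ C * q1 F x := by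
  obtain ⟨B, hB, hb⟩ := bound_fam (KB_compact (z := z) (r := r / 2))
    (F := fun (q : Fin n × Fin n) x => (Jac X x)⁻¹ q.1 q.2)
    (fun q => (h.inv_sm q.1 q.2).continuousOn.mono h.half)
  obtain ⟨B', hB', hb'⟩ := bound_pos (KB_compact (z := z) (r := r / 2))
    ((Jacobi_det_smooth (g := Jac X) h.Jac_sm).continuousOn.mono h.half)
  refine ⟨B' * (1 + n * (n * B ^ 2)), by positivity, fun F x hx => ?_⟩
  have hxK := h.SR_sub hx
  have h1 : ∀ j, Dx X j F x ^ 2 ≤ (n * B ^ 2) * ∑ k, pd k F x ^ 2 := fun j =>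
    row_sq hB.le (fun k => hb (k, j) x hxK)
  have h2 : ∑ j, Dx X j F x ^ 2 ≤ n * ((n * B ^ 2) * ∑ k, pd k F x ^ 2) := by
    refine (Finset.sum_le_sum fun j _ => h1 j).trans ?_
    rw [Finset.sum_const, Finset.card_univ, Fintype.card_fin, nsmul_eq_mul]
  have h9 : 0 ≤ ∑ k, pd k F x ^ 2 := Finset.sum_nonneg fun _ _ => sq_nonneg _
  have h10 : 0 ≤ F x ^ 2 := sq_nonneg _
  have h3 : F x ^ 2 + ∑ j, Dx X j F x ^ 2 ≤ (1 + n * (n * B ^ 2)) * q1 F x := by
    unfold q1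
    have : 0 ≤ (n * (n * B ^ 2)) * F x ^ 2 := by positivity
    nlinarith
  have h4 : |(Jac X x).det| ≤ B' := hb' x hxK
  calc _ ≤ B' * ((1 + n * (n * B ^ 2)) * q1 F x) :=
        mul_le_mul h4 h3 (add_nonneg (sq_nonneg _) (Finset.sum_nonneg fun _ _ => sq_nonneg _)) hB'.le
    _ = _ := by ring

/-- `q1 (f ∘ X)` in terms of `f² + ∑ (∂_j f)²`. -/
theorem Geo.comp_bound (h : Geo X z r r' R) : ∃ C > 0, ∀ f : E n → ℝ, ContDiff ℝ ∞ f →
    ∀ x ∈ SR X z r R, q1 (fun x => f (X x)) x ≤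
      C * (|(Jac X x).det| * (f (X x) ^ 2 + ∑ j, H31.dj j f (X x) ^ 2)) := by
  obtain ⟨B, hB, hb⟩ := bound_fam (KB_compact (z := z) (r := r / 2))
    (F := fun (q : Fin n × Fin n) x => Jac X x q.1 q.2)
    (fun q => (h.Jac_sm q.1 q.2).continuousOn.mono h.half)
  have hdc : ContinuousOn (fun x => |(Jac X x).det|) (KB z (r / 2)) :=
    ((Jacobi_det_smooth (g := Jac X) h.Jac_sm).continuousOn.mono h.half).abs
  have hdp : ∀ x ∈ KB z (r / 2), |(Jac X x).det| ≠ 0 := fun x hx =>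
    abs_ne_zero.2 (h.det x (HB_sub_KB (h.half hx)))
  obtain ⟨B', hB', hb'⟩ := bound_pos (KB_compact (z := z) (r := r / 2)) (hdc.inv₀ hdp)
  refine ⟨B' * (1 + n * (n * B ^ 2)), by positivity, fun f hf x hx => ?_⟩
  have hxK := h.SR_sub hx
  have hxH := h.SR_HB hx
  have h0 : ∀ k, pd k (fun x => f (X x)) x = ∑ i, Jac X x i k * H31.dj i f (X x) := by
    intro k
    have h1 := (HB_rel z r).hasD hxH h.smH (by simp)
    have h2 : HasFDerivWithinAt (fun x => f (X x)) ((fderiv ℝ f (X x)).comp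
        (fderivWithin ℝ X (Hs n) x)) (Hs n) x :=
      ((hf.differentiable (by simp)) (X x)).hasFDerivAt.comp_hasFDerivWithinAt x h1
    rw [pd_of_has hxH.2 h2 k, ContinuousLinearMap.comp_apply]
    conv_lhs => rw [en_expand ((fderivWithin ℝ X (Hs n) x) (ev k))]
    rw [map_sum]
    refine Finset.sum_congr rfl fun i _ => ?_
    rw [map_smul, smul_eq_mul, ← energy_jac_apply (HB_rel z r) h.smH hxH i k]
    rfl
  have h1 : ∀ k, pd k (fun x => f (X x)) x ^ 2 ≤ (n * B ^ 2) * ∑ i, H31.dj i f (X x) ^ 2 := by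
    intro k
    rw [h0]
    exact row_sq hB.le (fun i => hb (i, k) x hxK)
  have h2 : ∑ k, pd k (fun x => f (X x)) x ^ 2 ≤ n * ((n * B ^ 2) * ∑ i, H31.dj i f (X x) ^ 2) := by
    refine (Finset.sum_le_sum fun j _ => h1 j).trans ?_
    rw [Finset.sum_const, Finset.card_univ, Fintype.card_fin, nsmul_eq_mul]
  have h9 : 0 ≤ ∑ i, H31.dj i f (X x) ^ 2 := Finset.sum_nonneg fun _ _ => sq_nonneg _
  have h10 : 0 ≤ f (X x) ^ 2 := sq_nonneg _
  set A := f (X x) ^ 2 + ∑ j, H31.dj j f (X x) ^ 2 with hA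
  have h3 : q1 (fun x => f (X x)) x ≤ (1 + n * (n * B ^ 2)) * A := by
    unfold q1
    have : 0 ≤ (n * (n * B ^ 2)) * f (X x) ^ 2 := by positivity
    rw [hA]
    nlinarith
  have h4 : 1 ≤ B' * |(Jac X x).det| := by
    have h5 : |(|(Jac X x).det|)⁻¹| ≤ B' := hb' x hxK
    have h6 : 0 < |(Jac X x).det| := lt_of_le_of_ne (abs_nonneg _) (hdp x hxK).symm
    rw [abs_of_pos (inv_pos.2 h6), inv_le_iff_one_le_mul₀ h6] at h5
    exact h5
  have hA0 : 0 ≤ A := add_nonneg h10 h9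
  calc q1 (fun x => f (X x)) x ≤ (1 + n * (n * B ^ 2)) * A := h3
    _ = 1 * ((1 + n * (n * B ^ 2)) * A) := (one_mul _).symm
    _ ≤ (B' * |(Jac X x).det|) * ((1 + n * (n * B ^ 2)) * A) :=
        mul_le_mul_of_nonneg_right h4 (by positivity)
    _ = _ := by ring

end

end Vale.Agent.P088.R2.H509
end
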