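import Vale.Agent.P088.Bdl.B1
import Vale.Agent.P088.R2.H31.Def

/-!
# P088, Theorem S, boundary step: coordinates near a boundary point
-/

open MeasureTheory Set Filter Topology Metric
open scoped ContDiff Matrix

noncomputable section

namespace Vale.Agent.P088.R2.H509

open Vale.Agent.P088 Vale.Agent.P088.EYM

variable {n : ℕ} [NeZero n]

/-- The closed half ball. -/
def KB (z : E n) (r : ℝ) : Set (E n) := closedBall z r ∩ Hs n

/-- The partial derivative `∂/∂y_j` for `y = X x`, as an operator on functions of `x`. -/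
def Dx (X : E n → E n) (j : Fin n) (F : E n → ℝ) (x : E n) : ℝ :=
  ∑ k, (Jac X x)⁻¹ k j * pd k F x

/-- `X` maps a neighbourhood of the closed half ball `KB z r` diffeomorphically; its image near
`0 = X z` is a domain with smooth boundary. -/
structure Geo (X : E n → E n) (z : E n) (r r' R : ℝ) : Prop where
  z0 : z 0 = 0
  rpos : 0 < r
  rr : r < r'
  Rpos : 0 < R
  Xz : X z = 0
  sm : ContDiffOn ℝ ∞ X (HB z r')
  inj : InjOn X (KB z r)
  det : ∀ x ∈ KB z r, (Jac X x).det ≠ 0
  far : ∀ x ∈ KB z r, X x ∈ ball 0 R → x ∈ ball z (r / 2)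

/-- A left inverse of `X` on the closed half ball. -/
def Yi (X : E n → E n) (z : E n) (r : ℝ) : E n → E n := Function.invFunOn X (KB z r)

/-- The extension by zero of a function of `x`, as a function of `y = X x`. -/
def ext0 (X : E n → E n) (z : E n) (r : ℝ) (F : E n → ℝ) (y : E n) : ℝ :=
  haveI := Classical.dec (y ∈ X '' KB z r)
  if y ∈ X '' KB z r then F (Yi X z r y) else 0

end Vale.Agent.P088.R2.H509
end
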