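import Vale.Agent.P088.R2.H509.Ch

/-!
# P088, Theorem S, boundary step: norms on `M` and in the chart
-/

set_option linter.all false

open Bundle Manifold MeasureTheory Set Filter Topology Metric
open scoped ContDiff Matrix

noncomputable section

namespace Vale.Agent.P088.R2.H509

open Vale.Agent.P088 Vale.Agent.P088.EYM Vale.Agent.P088.EYM.O

universe u

section

variable {n N : ℕ} [NeZero n] {M : Type u} [TopologicalSpace M]
  [ChartedSpace (EuclideanHalfSpace n) M] [IsManifold (𝓡∂ n) ∞ M] [T2Space M] [CompactSpace M]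
  [ConnectedSpace M] [MeasurableSpace M] [BorelSpace M]

/-- `F² + ∑ (∂_k F)²`. -/
def q1 (F : E n → ℝ) (x : E n) : ℝ := F x ^ 2 + ∑ k, pd k F x ^ 2

theorem q1_nonneg (F : E n → ℝ) (x : E n) : 0 ≤ q1 F x :=
  add_nonneg (sq_nonneg _) (Finset.sum_nonneg fun _ _ => sq_nonneg _)

theorem HB_meas (z : E n) (r : ℝ) : MeasurableSet (HB z r) := CRungeC_meas (HB_rel z r)

theorem KB_sub' {z : E n} {r r' : ℝ} (hrr : r < r') : KB z r ⊆ HB z r' :=
  inter_subset_inter_left _ (closedBall_subset_ball hrr)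

/-- continuous functions are integrable on the smaller half ball -/
theorem int_HB {z : E n} {r r' : ℝ} (hrr : r < r') {F : E n → ℝ} (hF : ContinuousOn F (HB z r')) :
    IntegrableOn F (HB z r) :=
  ((hF.mono (KB_sub' hrr)).integrableOn_compact KB_compact).mono_set HB_sub_KB

theorem q1_cont {z : E n} {r' : ℝ} {F : E n → ℝ} (hF : ContDiffOn ℝ ∞ F (HB z r')) :
    ContinuousOn (q1 F) (HB z r') :=
  (hF.continuousOn.pow 2).add (continuousOn_finsetSum _ fun k _ => ((pd_sm hF k).continuousOn.pow 2))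

theorem norm_sp {v : Fib N} (hv : ‖v‖ = 1) (s : ℝ) : ‖sp v s‖ ^ 2 = s ^ 2 := by
  rw [sp_apply, norm_smul, hv, mul_one, Complex.norm_real, Real.norm_eq_abs, sq_abs]

/-- integral in the chart -/
theorem int_chart (P : One n N M) (p : M) {z : E n} {r r' : ℝ} (hrr : r < r')
    (hsub : HB z r' ⊆ tg n p) {G : M → ℝ} (hG : Continuous G) :
    ∫ x in (xc n p).symm '' HB z r, G x ∂P.μ =
      ∫ y in HB z r, √((P.loc p).g y).det * G ((xc n p).symm y) := by
  have h1 := ((TM.fInt n N M P).2.2 p (HB z r) (HB_meas z r)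
    ((HB_sub_KB.trans (KB_sub' hrr)).trans hsub)).2 (fun x => (G x : ℂ))
    (Complex.continuous_ofReal.comp hG).aestronglyMeasurable
  have h2 : ∫ x in (xc n p).symm '' HB z r, (G x : ℂ) ∂P.μ =
      ((∫ x in (xc n p).symm '' HB z r, G x ∂P.μ : ℝ) : ℂ) := integral_ofReal
  have h3 : ∫ y in HB z r, (√((P.loc p).g y).det : ℂ) * (G ((xc n p).symm y) : ℂ) =
      ((∫ y in HB z r, √((P.loc p).g y).det * G ((xc n p).symm y) : ℝ) : ℂ) := by
    refine Eq.trans ?_ integral_ofReal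
    refine integral_congr_ae (Eventually.of_forall fun y => ?_)
    exact (Complex.ofReal_mul _ _).symm
  rw [h2, h3] at h1
  exact_mod_cast h1

theorem int_M (P : One n N M) {G : M → ℝ} (hG : Continuous G) : Integrable G P.μ := by
  have := (TM.fInt n N M P).1
  exact integrable_of_continuous hG

theorem det_cont (P : One n N M) (p : M) {D : Set (E n)} (hD : D ⊆ tg n p) :
    ContinuousOn (fun y => √((P.loc p).g y).det) D := by
  have h1 : ContDiffOn ℝ ∞ (fun y => ((P.loc p).g y).det) (tg n p) :=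
    Jacobi_det_smooth (g := (P.loc p).g) ((TM.fLoc n N M).2.1 P p).g_smooth
  exact (h1.continuousOn.mono hD).sqrt

theorem det_bounds (P : One n N M) (p : M) {z : E n} {r r' : ℝ} (hrr : r < r')
    (hsub : HB z r' ⊆ tg n p) : ∃ C > 0, ∀ y ∈ KB z r, 1 ≤ C * √((P.loc p).g y).det ∧
      √((P.loc p).g y).det ≤ C := by
  have hK : KB z r ⊆ tg n p := (KB_sub' hrr).trans hsub
  have h1 := det_cont P p hK
  have hpos : ∀ y ∈ KB z r, 0 < √((P.loc p).g y).det := fun y hy =>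
    Real.sqrt_pos.2 (((TM.fLoc n N M).2.1 P p).g_pos y (hK hy)).det_pos
  obtain ⟨C1, hC1⟩ := KB_compact.exists_bound_of_continuousOn h1
  obtain ⟨C2, hC2⟩ := KB_compact.exists_bound_of_continuousOn (h1.inv₀ fun y hy => (hpos y hy).ne')
  refine ⟨|C1| + |C2| + 1, by positivity, fun y hy => ⟨?_, ?_⟩⟩
  · have h2 : ‖(√((P.loc p).g y).det)⁻¹‖ ≤ C2 := hC2 y hy
    have hp := hpos y hy
    rw [Real.norm_eq_abs, abs_of_pos (inv_pos.2 hp)] at h2
    have h3 : (√((P.loc p).g y).det)⁻¹ ≤ |C1| + |C2| + 1 := by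
      linarith [le_abs_self C2, abs_nonneg C1]
    rw [inv_le_iff_one_le_mul₀ hp] at h3
    linarith
  · have h2 := hC1 y hy
    rw [Real.norm_eq_abs, abs_of_pos (hpos y hy)] at h2
    linarith [le_abs_self C1, abs_nonneg C2]

/-- `L²` norms: from the chart to `M`. -/
theorem chart_L2 (P : One n N M) (p : M) {z : E n} {r r' : ℝ} (hrr : r < r')
    (hsub : HB z r' ⊆ tg n p) : ∃ C > 0, ∀ F : M → ℝ, SmR n F →
      ∫ y in HB z r, ch (n := n) p F y ^ 2 ≤ C * ∫ x, F x ^ 2 ∂P.μ := by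
  obtain ⟨C, hC, hCb⟩ := det_bounds P p hrr hsub
  refine ⟨C, hC, fun F hF => ?_⟩
  have hFc : Continuous fun x => F x ^ 2 := hF.continuous.pow 2
  have hch : ContinuousOn (fun y => ch (n := n) p F y ^ 2) (HB z r') :=
    ((ch_smooth hF p).continuousOn.mono hsub).pow 2
  have i1 := int_HB hrr hch
  have i2 := int_HB hrr ((det_cont P p hsub).mul hch)
  have h1 : ∫ y in HB z r, ch (n := n) p F y ^ 2 ≤
      C * ∫ y in HB z r, √((P.loc p).g y).det * ch (n := n) p F y ^ 2 := by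
    rw [← integral_const_mul]
    refine setIntegral_mono_on i1 (i2.const_mul C) (HB_meas z r) fun y hy => ?_
    have h2 := (hCb y (HB_sub_KB hy)).1
    have h3 := mul_le_mul_of_nonneg_right h2 (sq_nonneg (ch (n := n) p F y))
    rw [one_mul] at h3
    rw [← mul_assoc]
    exact h3
  refine h1.trans (mul_le_mul_of_nonneg_left ?_ hC.le)
  have h4 := int_chart P p hrr hsub hFc
  have h5 : ∫ y in HB z r, √((P.loc p).g y).det * ch (n := n) p F y ^ 2 =
      ∫ x in (xc n p).symm '' HB z r, F x ^ 2 ∂P.μ := h4.symm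
  rw [h5]
  exact setIntegral_le_integral (int_M P hFc) (Eventually.of_forall fun x => sq_nonneg _)

/-- `H¹` norms: from the chart to `M`. -/
theorem chart_low (P : One n N M) (p : M) {z : E n} {r r' : ℝ} (hrr : r < r')
    (hsub : HB z r' ⊆ tg n p) {v : Fib N} (hv : ‖v‖ = 1) : ∃ C > 0, ∀ F : M → ℝ, SmR n F →
      ∫ y in HB z r, q1 (ch (n := n) p F) y ≤ C * ((∫ x, F x ^ 2 ∂P.μ) +
        (P.E (fun x => (F x : ℂ) • v) (fun x => (F x : ℂ) • v)).re) := by
  obtain ⟨C, hC, hCb⟩ := chart_L2 P p hrr hsub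
  have hKs : KB z r ⊆ tg n p := (KB_sub' hrr).trans hsub
  obtain ⟨hrel, hOk, -, -⟩ := TM.fLoc n N M
  obtain ⟨b, hb, hpt⟩ := cRungeB_pt (hrel p) (hOk P p) (fun _ => rfl) (KB_compact (z := z) (r := r)) hKs
  refine ⟨b * (C + 1), by positivity, fun F hF => ?_⟩
  have hFs : SmS n (fun x => (F x : ℂ) • v) := smS_sp hF v
  have hchs : ContDiffOn ℝ ∞ (ch (n := n) p F) (HB z r') := (ch_smooth hF p).mono hsub
  have hen := (TM.fEn n N M P p (HB z r) (HB_rel z r) (HB_sub_KB.trans hKs)).2 _ hFs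
  have iq := int_HB hrr (q1_cont hchs)
  have i1 : IntegrableOn (fun y => ch (n := n) p F y ^ 2) (HB z r) :=
    int_HB hrr (hchs.continuousOn.pow 2)
  have ie : IntegrableOn (fun y => (ed (P.loc p) (lu (𝓡∂ n) p fun x => (F x : ℂ) • v)
      (lu (𝓡∂ n) p fun x => (F x : ℂ) • v) y).re) (HB z r) := hen.2.re
  have h1 : ∫ y in HB z r, q1 (ch (n := n) p F) y ≤
      ∫ y in HB z r, b * (ch (n := n) p F y ^ 2 + (ed (P.loc p) (lu (𝓡∂ n) p fun x => (F x : ℂ) • v)
        (lu (𝓡∂ n) p fun x => (F x : ℂ) • v) y).re) := by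
    refine setIntegral_mono_on iq ((i1.add ie).const_mul b) (HB_meas z r) fun y hy => ?_
    have h2 := hpt y (HB_sub_KB hy) (lu (𝓡∂ n) p fun x => (F x : ℂ) • v)
    have hyt : y ∈ tg n p := hKs (HB_sub_KB hy)
    have h3 : ∀ j, pd j (lu (𝓡∂ n) p fun x => (F x : ℂ) • v) y = sp v (pd j (ch (n := n) p F) y) := by
      intro j
      rw [lu_sp]
      exact (hrel p).pd_clm (sp v) (ch_smooth hF p) hyt j
    simp only [h3, norm_sp hv] at h2
    have h4 : ‖lu (𝓡∂ n) p (fun x => (F x : ℂ) • v) y‖ ^ 2 = ch (n := n) p F y ^ 2 := by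
      rw [lu_sp, norm_sp hv]
    rw [h4] at h2
    exact h2
  have h5 : ∫ y in HB z r, b * (ch (n := n) p F y ^ 2 +
      (ed (P.loc p) (lu (𝓡∂ n) p fun x => (F x : ℂ) • v)
        (lu (𝓡∂ n) p fun x => (F x : ℂ) • v) y).re) =
      b * ((∫ y in HB z r, ch (n := n) p F y ^ 2) + (En (P.loc p) (HB z r)
        (lu (𝓡∂ n) p fun x => (F x : ℂ) • v) (lu (𝓡∂ n) p fun x => (F x : ℂ) • v)).re) := by
    rw [integral_const_mul, integral_add i1 ie]
    congr 2
    exact integral_re (𝕜 := ℂ) hen.2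
  rw [h5] at h1
  have h6 := hCb F hF
  have h7 := hen.1
  have h8 : 0 ≤ ∫ x, F x ^ 2 ∂P.μ := integral_nonneg fun _ => sq_nonneg _
  have h9 : 0 ≤ (P.E (fun x => (F x : ℂ) • v) (fun x => (F x : ℂ) • v)).re :=
    (TM.fForm n N M P).2.2.2.1 _ hFs
  calc _ ≤ b * ((∫ y in HB z r, ch (n := n) p F y ^ 2) + (En (P.loc p) (HB z r)
        (lu (𝓡∂ n) p fun x => (F x : ℂ) • v) (lu (𝓡∂ n) p fun x => (F x : ℂ) • v)).re) := h1
    _ ≤ b * (C * (∫ x, F x ^ 2 ∂P.μ) +
        (P.E (fun x => (F x : ℂ) • v) (fun x => (F x : ℂ) • v)).re) :=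
        mul_le_mul_of_nonneg_left (add_le_add h6 h7) hb.le
    _ ≤ b * ((C + 1) * ((∫ x, F x ^ 2 ∂P.μ) +
        (P.E (fun x => (F x : ℂ) • v) (fun x => (F x : ℂ) • v)).re)) := by
        refine mul_le_mul_of_nonneg_left ?_ hb.le
        nlinarith
    _ = _ := by ring

/-- `H¹` norms: from `M` to the chart, for functions supported in the chart. -/
theorem chart_up (P : One n N M) (hA : ∀ x X, P.A.form x X = 0) (p : M) {z : E n} {r r' : ℝ}
    (hrr : r < r') (hsub : HB z r' ⊆ tg n p) {v : Fib N} (hv : ‖v‖ = 1) :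
    ∃ C > 0, ∀ F : M → ℝ, SmR n F → tsupport F ⊆ (xc n p).symm '' HB z r →
      (∫ x, F x ^ 2 ∂P.μ) + (P.E (fun x => (F x : ℂ) • v) (fun x => (F x : ℂ) • v)).re ≤
        C * ∫ y in HB z r, q1 (ch (n := n) p F) y := by
  obtain ⟨C, hC, hCb⟩ := det_bounds P p hrr hsub
  have hKs : KB z r ⊆ tg n p := (KB_sub' hrr).trans hsub
  obtain ⟨hrel, hOk, -, -⟩ := TM.fLoc n N M
  have hgs := (hrel p).gg_smooth (hOk P p).g_smooth (hOk P p).g_pos
  obtain ⟨C₀, hC₀, hed⟩ := CRungeC_ed_bound (hOk P p) hgs (fun _ _ => rfl)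
    (KB_compact (z := z) (r := r)) hKs
  refine ⟨C + C₀, by positivity, fun F hF hFt => ?_⟩
  have hFs : SmS n (fun x => (F x : ℂ) • v) := smS_sp hF v
  have hFc : Continuous fun x => F x ^ 2 := hF.continuous.pow 2
  have hchs : ContDiffOn ℝ ∞ (ch (n := n) p F) (HB z r') := (ch_smooth hF p).mono hsub
  have iq := int_HB hrr (q1_cont hchs)
  have hch : ContinuousOn (fun y => ch (n := n) p F y ^ 2) (HB z r') := hchs.continuousOn.pow 2
  -- `L²`
  have e1 : ∫ x, F x ^ 2 ∂P.μ = ∫ x in (xc n p).symm '' HB z r, F x ^ 2 ∂P.μ := by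
    symm
    refine setIntegral_eq_integral_of_forall_compl_eq_zero fun x hx => ?_
    rw [image_eq_zero_of_notMem_tsupport fun h => hx (hFt h)]
    simp
  have e2 : ∫ x, F x ^ 2 ∂P.μ ≤ C * ∫ y in HB z r, q1 (ch (n := n) p F) y := by
    rw [e1, int_chart P p hrr hsub hFc, ← integral_const_mul]
    refine setIntegral_mono_on (int_HB hrr ((det_cont P p hsub).mul hch)) (iq.const_mul C)
      (HB_meas z r) fun y hy => ?_
    have h2 := (hCb y (HB_sub_KB hy)).2
    have h3 : ch (n := n) p F y ^ 2 ≤ q1 (ch (n := n) p F) y :=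
      le_add_of_nonneg_right (Finset.sum_nonneg fun _ _ => sq_nonneg _)
    exact mul_le_mul h2 h3 (sq_nonneg _) hC.le
  -- energy
  have hts : tsupport (fun x => (F x : ℂ) • v) ⊆ (xc n p).symm '' HB z r := by
    refine (closure_mono ?_).trans hFt
    intro x hx hFx
    apply hx
    simp only [hFx, Complex.ofReal_zero, zero_smul]
  have e3 := (TM.fEn n N M P p (HB z r) (HB_rel z r) (HB_sub_KB.trans hKs)).1 _ _ hFs hFs (Or.inl hts)
  have hen := (TM.fEn n N M P p (HB z r) (HB_rel z r) (HB_sub_KB.trans hKs)).2 _ hFs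
  have e4 : (P.E (fun x => (F x : ℂ) • v) (fun x => (F x : ℂ) • v)).re ≤
      C₀ * ∫ y in HB z r, q1 (ch (n := n) p F) y := by
    rw [e3]
    have h1 : (En (P.loc p) (HB z r) (lu (𝓡∂ n) p fun x => (F x : ℂ) • v)
        (lu (𝓡∂ n) p fun x => (F x : ℂ) • v)).re = ∫ y in HB z r, (ed (P.loc p)
          (lu (𝓡∂ n) p fun x => (F x : ℂ) • v) (lu (𝓡∂ n) p fun x => (F x : ℂ) • v) y).re :=
      (integral_re (𝕜 := ℂ) hen.2).symm
    rw [h1, ← integral_const_mul]
    refine setIntegral_mono_on hen.2.re (iq.const_mul C₀) (HB_meas z r) fun y hy => ?_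
    have hyt : y ∈ tg n p := hKs (HB_sub_KB hy)
    have h3 : ∀ j, pd j (lu (𝓡∂ n) p fun x => (F x : ℂ) • v) y = sp v (pd j (ch (n := n) p F) y) := by
      intro j
      rw [lu_sp]
      exact (hrel p).pd_clm (sp v) (ch_smooth hF p) hyt j
    have h0 := q1_nonneg (ch (n := n) p F) y
    have h5 := hed (lu (𝓡∂ n) p fun x => (F x : ℂ) • v) y (HB_sub_KB hy)
      (√(q1 (ch (n := n) p F) y)) (Real.sqrt_nonneg _) ?_ ?_
    · rwa [Real.sq_sqrt h0] at h5
    · refine Real.le_sqrt_of_sq_le ?_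
      have h4 : ‖lu (𝓡∂ n) p (fun x => (F x : ℂ) • v) y‖ ^ 2 = ch (n := n) p F y ^ 2 := by
        rw [lu_sp, norm_sp hv]
      rw [h4]
      exact le_add_of_nonneg_right (Finset.sum_nonneg fun _ _ => sq_nonneg _)
    · intro j
      refine Real.le_sqrt_of_sq_le ?_
      rw [h3, norm_sp hv]
      have := Finset.single_le_sum (f := fun k => pd k (ch (n := n) p F) y ^ 2)
        (fun _ _ => sq_nonneg _) (Finset.mem_univ j)
      exact this.trans (le_add_of_nonneg_left (sq_nonneg _))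
  calc _ ≤ C * (∫ y in HB z r, q1 (ch (n := n) p F) y) +
        C₀ * ∫ y in HB z r, q1 (ch (n := n) p F) y := add_le_add e2 e4
    _ = _ := by ring

end

end Vale.Agent.P088.R2.H509
end
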