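import Vale.Agent.P088.R2.H884.Kid

/-!
# P088, THEOREM S, core: block GEO (configurations)
-/

set_option linter.all false

open MeasureTheory Set Filter Topology Metric
open scoped ContDiff

noncomputable section

namespace Vale.Agent.P088.R2.H509G

open Vale.Agent.P088.R2.H31 Vale.Agent.P088.R2.H884

variable {k : ℕ}

theorem ev1_0 : (ev 1 : E (k + 3)) 0 = 0 := by
  have h : (0 : Fin (k + 3)) ≠ 1 := ne01
  simp [h]

theorem ev1_1 : (ev 1 : E (k + 3)) 1 = 1 := by simp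

theorem norm_ev1 : ‖(ev 1 : E (k + 3))‖ = 1 := by simp

theorem coord_le (y : E (k + 3)) : |y 1| ≤ ‖y‖ := abs_coord_le y 1

/-- the half space bound -/
theorem zz_half (u : E (k + 3)) {h : ℝ} (hu : u 1 = -h) (hh : 0 ≤ h) :
    zz u * (2 * h) ≤ 18 / 13 * ‖u‖ ^ 2 := by
  have h1 : u 0 ^ 2 + u 1 ^ 2 + u 2 ^ 2 ≤ ‖u‖ ^ 2 := by
    rw [norm_sq_split, norm_pL_sq]
    have := sq_nonneg ‖pP u‖
    linarith
  rcases (zz_nonneg u).eq_or_lt with h0 | h0
  · rw [← h0]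
    have := sq_nonneg ‖u‖
    linarith
  set Z := zz u with hZ
  set A := 12 / 13 * u 0 + 5 / 13 * u 1 with hA
  have h2 : Z ^ 2 = A ^ 2 + u 2 ^ 2 := zz_sq u
  set c := A / Z with hc
  set s := u 2 / Z with hs
  have hcA : A = c * Z := by rw [hc]; field_simp
  have hsA : u 2 = s * Z := by rw [hs]; field_simp
  have h3 : c ^ 2 + s ^ 2 = 1 := by
    have h4 : Z ^ 2 * (c ^ 2 + s ^ 2) = Z ^ 2 * 1 := by
      rw [mul_add, ← mul_pow, ← mul_pow, mul_comm Z c, mul_comm Z s, ← hcA, ← hsA, ← h2, mul_one]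
    exact mul_left_cancel₀ (by positivity) h4
  have h5 : Z = c * A + s * u 2 := by
    have h6 : Z * 1 = Z * (c ^ 2 + s ^ 2) := by rw [h3]
    calc Z = Z * 1 := (mul_one Z).symm
      _ = Z * (c ^ 2 + s ^ 2) := h6
      _ = c * (c * Z) + s * (s * Z) := by ring
      _ = c * A + s * u 2 := by rw [← hcA, ← hsA]
  have hcl : -1 ≤ c ∧ c ≤ 1 := abs_le.1 (by
    rw [← sq_le_one_iff_abs_le_one]
    nlinarith [sq_nonneg s])
  have h7 : 0 ≤ (1 + c) * (155 + 25 * c) := mul_nonneg (by linarith) (by linarith)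
  have h8 : (c * A + s * u 2) * (2 * h) ≤ 18 / 13 * (u 0 ^ 2 + u 1 ^ 2 + u 2 ^ 2) := by
    rw [hA, hu]
    have e : 18 / 13 * (u 0 ^ 2 + (-h) ^ 2 + u 2 ^ 2) -
        (c * (12 / 13 * u 0 + 5 / 13 * -h) + s * u 2) * (2 * h) =
        18 / 13 * (u 0 - 2 / 3 * c * h) ^ 2 + 18 / 13 * (u 2 - 13 / 18 * s * h) ^ 2 +
          h ^ 2 * ((1 + c) * (155 + 25 * c) / 234) + (1 - c ^ 2 - s ^ 2) * (13 / 18 * h ^ 2) := by
      ring
    have e2 : 1 - c ^ 2 - s ^ 2 = 0 := by linarith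
    rw [e2, zero_mul, add_zero] at e
    have : 0 ≤ 18 / 13 * (u 0 - 2 / 3 * c * h) ^ 2 + 18 / 13 * (u 2 - 13 / 18 * s * h) ^ 2 +
          h ^ 2 * ((1 + c) * (155 + 25 * c) / 234) := by positivity
    linarith
  calc Z * (2 * h) = (c * A + s * u 2) * (2 * h) := by rw [← h5]
    _ ≤ 18 / 13 * (u 0 ^ 2 + u 1 ^ 2 + u 2 ^ 2) := h8
    _ ≤ _ := by linarith

theorem zz_le (u : E (k + 3)) : zz u ≤ ‖u‖ := by
  have h1 := zz_sq u
  have h2 := norm_sq_split' u
  have h3 := zz_nonneg u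
  have h4 := norm_nonneg u
  nlinarith [sq_nonneg (ay u), sq_nonneg ‖pP u‖]

/-- the setting -/
structure GS (k : ℕ) (R r : ℝ) (G : Set (E (k + 3))) (t : ℝ) : Prop where
  R0 : 0 < R
  r0 : 0 < r
  sub : ball (r • ev 1) r ∩ ball 0 R ⊆ G
  t0 : 0 < t
  tr : 100000 * t ≤ r
  tR : 100000 * t ≤ R

/-- outside `G` -/
theorem GS.out {R r : ℝ} {G : Set (E (k + 3))} {t : ℝ} (h : GS k R r G t) {x : E (k + 3)}
    (hx : x ∈ ball 0 R \ G) : 200000 * t * x 1 ≤ ‖x‖ ^ 2 := by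
  have h1 : x ∉ ball (r • ev 1 : E (k + 3)) r := fun h' => hx.2 (h.sub ⟨h', hx.1⟩)
  rw [mem_ball, dist_eq_norm, not_lt] at h1
  have h2 : ‖x - r • ev 1‖ ^ 2 = ‖x‖ ^ 2 - 2 * r * x 1 + r ^ 2 := by
    rw [norm_sub_sq_real, inner_smul_right, EuclideanSpace.inner_single_right, norm_smul, norm_ev1]
    simp
    ring
  have h3 : r ^ 2 ≤ ‖x - r • ev 1‖ ^ 2 := pow_le_pow_left₀ h.r0.le h1 2
  have h4 : 2 * r * x 1 ≤ ‖x‖ ^ 2 := by linarith
  by_cases h5 : 0 ≤ x 1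
  · have h6 := mul_le_mul_of_nonneg_right h.tr h5
    linarith
  · push Not at h5
    have h6 := h.t0
    nlinarith [sq_nonneg ‖x‖]

theorem GS.in_ {R r : ℝ} {G : Set (E (k + 3))} {t : ℝ} (h : GS k R r G t) {y : E (k + 3)}
    (h1 : ‖y‖ ^ 2 < 200000 * t * y 1) : y ∈ ball (r • ev 1 : E (k + 3)) r := by
  have h2 : ‖y - r • ev 1‖ ^ 2 = ‖y‖ ^ 2 - 2 * r * y 1 + r ^ 2 := by
    rw [norm_sub_sq_real, inner_smul_right, EuclideanSpace.inner_single_right, norm_smul, norm_ev1]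
    simp
    ring
  have h3 : 0 < y 1 := by
    by_contra h4
    push Not at h4
    nlinarith [sq_nonneg ‖y‖, h.t0]
  have h4 := mul_le_mul_of_nonneg_right h.tr h3.le
  rw [mem_ball, dist_eq_norm]
  have h5 : ‖y - r • ev 1‖ ^ 2 < r ^ 2 := by rw [h2]; nlinarith
  exact lt_of_pow_lt_pow_left₀ 2 h.r0.le h5

theorem nn1 {t ρ : ℝ} (ht : 0 < t) (h : ρ < t + t / 2000) :
    2 * ρ * (102 / 100) * (361 / 1000 / t) ≤ 3 / 4 := by
  have h1 : ρ / t ≤ 2001 / 2000 := by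
    rw [div_le_iff₀ ht]
    linarith
  have e : 2 * ρ * (102 / 100) * (361 / 1000 / t) = 2 * (102 / 100) * (361 / 1000) * (ρ / t) := by
    ring
  rw [e]
  linarith

theorem nn2 {t ρ R : ℝ} (hR : 0 < R) (hRt : 100000 * t ≤ R) (h : ρ < t + t / 2000) (ht : 0 < t) :
    2 * ρ * 28 * (8 / R) ≤ 3 / 4 := by
  have e : 2 * ρ * 28 * (8 / R) = 448 * (ρ / R) := by ring
  rw [e]
  have h1 : ρ / R ≤ 1 / 10000 := by
    rw [div_le_iff₀ hR]
    linarith
  linarith

theorem nn3 {t ρ R : ℝ} (hR : 0 < R) (hRt : 100000 * t ≤ R) (h : ρ < t + t / 2000) (ht : 0 < t)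
    (hρ : 0 < ρ) : (2 * ρ) ^ 2 * (8 / R) * (361 / 1000 / t) ≤ 3 / 4 := by
  have e : (2 * ρ) ^ 2 * (8 / R) * (361 / 1000 / t) = (32 * (361 / 1000)) * ((ρ / R) * (ρ / t)) := by
    ring
  rw [e]
  have h1 : ρ / R ≤ 1 / 10000 := by
    rw [div_le_iff₀ hR]
    linarith
  have h2 : ρ / t ≤ 2001 / 2000 := by
    rw [div_le_iff₀ ht]
    linarith
  have h3 : (ρ / R) * (ρ / t) ≤ 1 / 10000 * (2001 / 2000) :=
    mul_le_mul h1 h2 (by positivity) (by norm_num)
  linarith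

theorem bGam (y : E (k + 3)) {ρ : ℝ} (hρ : 0 < ρ) :
    2 * ρ * zz y ≤ ‖y + ρ • av k‖ * ‖y - ρ • av k‖ := by
  have h1 := norm_add_av y ρ
  have h2 := norm_sub_av y ρ
  have h3 := norm_sq_split' y
  have h4 : (2 * ρ * zz y) ^ 2 ≤ (‖y + ρ • av k‖ * ‖y - ρ • av k‖) ^ 2 := by
    rw [mul_pow ‖y + ρ • av k‖, h1, h2]
    have e : (‖y‖ ^ 2 + 2 * ρ * ay y + ρ ^ 2) * (‖y‖ ^ 2 - 2 * ρ * ay y + ρ ^ 2) -
        (2 * ρ * zz y) ^ 2 = (‖y‖ ^ 2 - ρ ^ 2) ^ 2 +
          4 * ρ ^ 2 * (‖y‖ ^ 2 - ay y ^ 2 - zz y ^ 2) := by ring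
    have h5 : ‖y‖ ^ 2 - ay y ^ 2 - zz y ^ 2 = ‖pP y‖ ^ 2 := by rw [h3]; ring
    rw [h5] at e
    have : 0 ≤ (‖y‖ ^ 2 - ρ ^ 2) ^ 2 + 4 * ρ ^ 2 * ‖pP y‖ ^ 2 := by positivity
    linarith
  exact le_of_sq_le_sq h4 (by positivity)

/-- the bound for `zz / |.|²` near the pole -/
theorem bSn {u : E (k + 3)} {t h : ℝ} (ht : 0 < t) (hu : u 1 = -h) (hh : 1918 / 1000 * t ≤ h) :
    zz u ≤ 361 / 1000 / t * ‖u‖ ^ 2 := by
  have h0 : 0 < h := by linarith
  have h5 := zz_half u hu h0.le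
  have h7 : zz u * (2 * (1918 / 1000 * t)) ≤ 18 / 13 * ‖u‖ ^ 2 :=
    (mul_le_mul_of_nonneg_left (by linarith) (zz_nonneg _)).trans h5
  have e : 361 / 1000 / t * ‖u‖ ^ 2 = 361 / 1000 * ‖u‖ ^ 2 / t := by ring
  rw [e, le_div_iff₀ ht]
  nlinarith [sq_nonneg ‖u‖]

theorem bSf {u : E (k + 3)} {t : ℝ} (ht : 0 < t) (h1 : t * 1000 / 361 ≤ ‖u‖) :
    zz u ≤ 361 / 1000 / t * ‖u‖ ^ 2 := by
  have h2 : 1 ≤ 361 / 1000 / t * ‖u‖ := by
    have e : 361 / 1000 / t * (t * 1000 / 361) = 1 := by field_simp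
    rw [← e]
    exact mul_le_mul_of_nonneg_left h1 (by positivity)
  have h3 := mul_le_mul_of_nonneg_right h2 (norm_nonneg u)
  calc zz u ≤ ‖u‖ := zz_le _
    _ ≤ 361 / 1000 / t * ‖u‖ * ‖u‖ := by linarith
    _ = _ := by ring

theorem zτ' {R : ℝ} (hR : 0 < R) {u : E (k + 3)} (hxy : R / 8 ≤ ‖u‖) : zz u ≤ 8 / R * ‖u‖ ^ 2 := by
  have h1 := zz_le u
  have h2 : 1 ≤ 8 / R * ‖u‖ := by
    rw [div_mul_eq_mul_div, le_div_iff₀ hR]
    linarith
  have h3 := mul_le_mul_of_nonneg_right h2 (norm_nonneg u)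
  calc zz u ≤ ‖u‖ := h1
    _ ≤ 8 / R * ‖u‖ * ‖u‖ := by linarith
    _ = _ := by ring

theorem GS.cfg {R r : ℝ} {G : Set (E (k + 3))} {t : ℝ} (h : GS k R r G t) {c : E (k + 3)}
    (hc : c ∈ ball (t • ev 1 : E (k + 3)) (t / 2000 / 8)) {ρ : ℝ}
    (hρ : ρ ∈ Ioo (t - t / 2000) (t + t / 2000)) :
    Cfg k G R (t / 20) (361 / 1000 / t) 28 (102 / 100) (8 / R) (3 / 4) (t / 2) (2 * t) ρ
      (c - ρ • av k) (c + ρ • av k) := by
  have ht := h.t0
  have hR := h.R0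
  rw [mem_ball, dist_eq_norm] at hc
  obtain ⟨hρ1, hρ2⟩ := hρ
  have hρ0 : 0 < ρ := by linarith
  -- the height of `c`
  have hc1 : |c 1 - t| < t / 16000 := by
    have h1 := coord_le (c - t • ev 1)
    have h2 : (c - t • ev 1 : E (k + 3)) 1 = c 1 - t := by
      simp
    rw [h2] at h1
    linarith
  have hc1' := abs_lt.1 hc1
  have hcn : ‖c‖ ≤ t + t / 16000 := by
    have h1 : c = (c - t • ev 1) + t • ev 1 := by abel
    rw [h1]
    refine (norm_add_le _ _).trans ?_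
    rw [norm_smul, norm_ev1, Real.norm_eq_abs, abs_of_pos ht]
    linarith
  set p := c - ρ • av k with hp
  set q := c + ρ • av k with hq
  have hρa : ‖ρ • av k‖ = ρ := by
    rw [norm_smul, norm_av, Real.norm_eq_abs, abs_of_pos hρ0, mul_one]
  have hpn : ‖p‖ ≤ 3 * t := by
    have := norm_sub_le c (ρ • av k)
    rw [hρa] at this
    rw [hp]
    linarith
  have hqn : ‖q‖ ≤ 3 * t := by
    have := norm_add_le c (ρ • av k)
    rw [hρa] at this
    rw [hq]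
    linarith
  have hp1 : p 1 = c 1 + 12 / 13 * ρ := by
    rw [hp]
    simp only [PiLp.sub_apply, PiLp.smul_apply, smul_eq_mul, av1]
    ring
  have hq1 : q 1 = c 1 - 12 / 13 * ρ := by
    rw [hq]
    simp only [PiLp.add_apply, PiLp.smul_apply, smul_eq_mul, av1]
    ring
  have hp1' : 1922 / 1000 * t ≤ p 1 := by rw [hp1]; linarith
  have hq1' : 76 / 1000 * t ≤ q 1 := by rw [hq1]; linarith
  have hpq : q - p = (2 * ρ) • av k := by
    rw [hp, hq, two_mul, add_smul]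
    abel
  have hpqn : ‖q - p‖ = 2 * ρ := by
    rw [hpq, norm_smul, norm_av, Real.norm_eq_abs, abs_of_pos (by positivity), mul_one]
  have tri : ∀ x : E (k + 3), ‖x - p‖ ≤ ‖x - q‖ + 2 * ρ := by
    intro x
    have h1 : x - p = (x - q) + (q - p) := by abel
    rw [h1, ← hpqn]
    exact norm_add_le _ _
  have hzq : ∀ x : E (k + 3), zz (x - q) = zz (x - p) := by
    intro x
    rw [hp, hq, sub_p, sub_q, zz_add_av, zz_sub_av]
  -- points near are low
  have low : ∀ x ∈ ball 0 R \ G, ‖x‖ ≤ 6 * t → x 1 ≤ t / 5000 := by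
    intro x hx hxn
    have h1 := h.out hx
    have h2 : ‖x‖ ^ 2 ≤ (6 * t) ^ 2 := pow_le_pow_left₀ (norm_nonneg _) hxn 2
    by_contra h3
    push Not at h3
    have h4 : 200000 * t * (t / 5000) < 200000 * t * x 1 := mul_lt_mul_of_pos_left h3 (by positivity)
    nlinarith
  have farq : ∀ x ∈ ball 0 R \ G, 75 / 1000 * t ≤ ‖x - q‖ := by
    intro x hx
    by_contra h1
    push Not at h1
    have h2 : ‖x‖ ≤ 6 * t := by
      have h3 : x = (x - q) + q := by abel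
      rw [h3]
      refine (norm_add_le _ _).trans ?_
      linarith
    have h4 := low x hx h2
    have h5 := coord_le (x - q)
    have h6 : (x - q : E (k + 3)) 1 = x 1 - q 1 := rfl
    rw [h6] at h5
    have h7 := (abs_le.1 h5).1
    linarith
  have farp : ∀ x ∈ ball 0 R \ G, t ≤ ‖x - p‖ := by
    intro x hx
    by_contra h1
    push Not at h1
    have h2 : ‖x‖ ≤ 6 * t := by
      have h3 : x = (x - p) + p := by abel
      rw [h3]
      refine (norm_add_le _ _).trans ?_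
      linarith
    have h4 := low x hx h2
    have h5 := coord_le (x - p)
    have h6 : (x - p : E (k + 3)) 1 = x 1 - p 1 := rfl
    rw [h6] at h5
    have h7 := (abs_le.1 h5).1
    linarith
  have bigp : ∀ x : E (k + 3), R / 4 ≤ ‖x‖ → R / 8 ≤ ‖x - p‖ := by
    intro x hx
    have h1 := norm_sub_norm_le x p
    have h2 := h.tR
    linarith
  have bigq : ∀ x : E (k + 3), R / 4 ≤ ‖x‖ → R / 8 ≤ ‖x - q‖ ∧ 1000 * t ≤ ‖x - q‖ := by
    intro x hx
    have h1 := norm_sub_norm_le x q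
    have h2 := h.tR
    constructor <;> linarith
  have hts : t / 20 ≤ R / 8 := by have := h.tR; linarith
  refine ⟨by linarith, by linarith, ?_, ?_, ?_, ?_, ?_, ?_, ?_, ?_, ?_, ?_, ?_, ?_, ?_, ?_, ?_⟩
  · -- `p ∈ G`
    refine h.sub ⟨h.in_ ?_, ?_⟩
    · have h1 : ‖p‖ ^ 2 ≤ (3 * t) ^ 2 := pow_le_pow_left₀ (norm_nonneg _) hpn 2
      nlinarith
    · rw [mem_ball, dist_zero_right]
      have := h.tR
      linarith
  · refine h.sub ⟨h.in_ ?_, ?_⟩
    · have h1 : ‖q‖ ^ 2 ≤ (3 * t) ^ 2 := pow_le_pow_left₀ (norm_nonneg _) hqn 2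
      nlinarith
    · rw [mem_ball, dist_zero_right]
      have := h.tR
      linarith
  · have := h.tR; linarith
  · have := h.tR; linarith
  · unfold nsq
    rw [hpqn]
    ring
  · intro x
    rw [hp, hq, sub_p, sub_q, zl_add_av, zl_sub_av]
  · intro x hx
    have h1 := farp x hx
    have h2 := farq x hx
    constructor <;> linarith
  · -- `bS`
    intro x hx
    unfold nsq
    by_cases h1 : t * 1000 / 361 ≤ ‖x - p‖
    · exact bSf ht h1
    · push Not at h1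
      have h2 : ‖x‖ ≤ 6 * t := by
        have h3 : x = (x - p) + p := by abel
        rw [h3]
        refine (norm_add_le _ _).trans ?_
        linarith
      have h4 := low x hx h2
      exact bSn (h := p 1 - x 1) ht (by
        show x 1 - p 1 = _
        ring) (by linarith)
  · intro x hx
    have h1 := tri x
    have h2 := farq x hx
    linarith
  · intro x hx _
    have h1 := tri x
    have h2 := (bigq x hx).2
    linarith
  · intro x hx
    exact ⟨zτ' hR (bigp x hx), zτ' hR (bigq x hx).1, hts.trans (bigp x hx),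
      hts.trans (bigq x hx).1⟩
  · -- `bΓ`
    intro x
    rw [hp, hq, sub_p, sub_q, zz_add_av]
    exact bGam _ hρ0
  · exact nn1 ht hρ2
  · exact nn2 hR h.tR hρ2 ht
  · exact nn3 hR h.tR hρ2 ht hρ0

theorem geo : GEO_statement := by
  intro k R r G hR hr hG
  set t := min r R / 100000 with ht
  have hm : 0 < min r R := lt_min hr hR
  have h : GS k R r G t := ⟨hR, hr, hG, by positivity, by
    rw [ht]; linarith [min_le_left r R], by rw [ht]; linarith [min_le_right r R]⟩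
  have ht0 := h.t0
  refine ⟨t, t / 2000, t / 2000 / 8, t / 20, 361 / 1000 / t, 28, 102 / 100, 8 / R, 3 / 4, t / 2,
    2 * t, by positivity, by linarith, by positivity, by positivity, by positivity, by norm_num,
    by norm_num, by positivity, ?_, by norm_num, by norm_num, by positivity,
    fun c hc ρ hρ => h.cfg hc hρ, ?_⟩
  · rw [div_le_div_iff₀ hR ht0]
    have := h.tR
    linarith
  · intro c hc x hxP hxL
    rw [mem_ball, dist_eq_norm] at hc
    refine h.in_ ?_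
    have h1 : ‖pL (x - t • ev 1)‖ ≤ t - 3 / 8 * (t / 2000) := by
      have e : pL (x - t • ev 1) = pL (x - c) + pL (c - t • ev 1) := by
        ext i
        simp only [pL, PiLp.add_apply, PiLp.sub_apply]
        ring
      have h2 : ‖pL (c - t • ev 1)‖ ≤ ‖c - t • ev 1‖ := by
        have h3 := norm_sq_split (c - t • ev 1)
        refine le_of_sq_le_sq ?_ (norm_nonneg _)
        rw [h3]
        have := sq_nonneg ‖pP (c - t • ev 1)‖
        linarith
      rw [e]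
      refine (norm_add_le _ _).trans ?_
      linarith
    have h2 : ‖pL (x - t • ev 1)‖ ^ 2 = ‖pL x‖ ^ 2 - 2 * t * x 1 + t ^ 2 := by
      rw [norm_pL_sq, norm_pL_sq]
      have e0 : (x - t • ev 1 : E (k + 3)) 0 = x 0 := by
        simp only [PiLp.sub_apply, PiLp.smul_apply, smul_eq_mul, ev1_0]
        ring
      have e1 : (x - t • ev 1 : E (k + 3)) 1 = x 1 - t := by
        simp only [PiLp.sub_apply, PiLp.smul_apply, smul_eq_mul, ev1_1]
        ring
      have e2 : (x - t • ev 1 : E (k + 3)) 2 = x 2 := by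
        have h12 : (2 : Fin (k + 3)) ≠ 1 := ne12.symm
        simp [h12]
      rw [e0, e1, e2]
      ring
    have h3 : ‖pL (x - t • ev 1)‖ ^ 2 ≤ (t - 3 / 8 * (t / 2000)) ^ 2 :=
      pow_le_pow_left₀ (norm_nonneg _) h1 2
    have h4 : ‖pP x‖ ^ 2 ≤ (t / 2000 / 8) ^ 2 := pow_le_pow_left₀ (norm_nonneg _) hxP.le 2
    have h5 := norm_sq_split x
    have h6 : ‖x‖ ^ 2 < 2 * t * x 1 := by
      rw [h5]
      nlinarith
    have h7 : 0 < x 1 := by
      by_contra h8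
      push Not at h8
      nlinarith [sq_nonneg ‖x‖]
    nlinarith

end Vale.Agent.P088.R2.H509G
end
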