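import Vale.Agent.P088.R2.H509.Defs

/-!
# P088, Theorem S, boundary step: `C²` extension by zero
-/

set_option linter.all false

open MeasureTheory Set Filter Topology Metric
open scoped ContDiff Matrix

noncomputable section

namespace Vale.Agent.P088.R2.H509

open Vale.Agent.P088 Vale.Agent.P088.EYM

section gen

variable {V : Type*} [NormedAddCommGroup V] [NormedSpace ℝ V]

/-- A function which vanishes off an open set `I`, is differentiable in `I`, and whose derivative
tends to zero at the boundary of `I`, is differentiable. -/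
theorem hasF_ext {U I : Set V} (hU : IsOpen U) (hI : IsOpen I) {f : V → ℝ} {f' : V → V →L[ℝ] ℝ}
    (hcf : ContinuousOn f U) (hcf' : ContinuousOn f' U)
    (hz : ∀ x ∈ U, x ∉ I → f x = 0 ∧ f' x = 0)
    (hd : ∀ x ∈ U, x ∈ I → HasFDerivAt f (f' x) x) : ∀ x ∈ U, HasFDerivAt f (f' x) x := by
  intro x₀ hx₀
  by_cases hx₀I : x₀ ∈ I
  · exact hd x₀ hx₀ hx₀I
  obtain ⟨hf0, hf'0⟩ := hz x₀ hx₀ hx₀I
  rw [hf'0, hasFDerivAt_iff_isLittleO, Asymptotics.isLittleO_iff]
  intro ε hε
  have h1 : ∀ᶠ x in 𝓝 x₀, ‖f' x‖ < ε := by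
    have h2 : ContinuousAt f' x₀ := hcf'.continuousAt (hU.mem_nhds hx₀)
    have h3 : Tendsto (fun x => ‖f' x‖) (𝓝 x₀) (𝓝 ‖f' x₀‖) := h2.norm
    rw [hf'0, norm_zero] at h3
    exact h3.eventually (gt_mem_nhds hε)
  obtain ⟨δ, hδ, hδb⟩ := Metric.eventually_nhds_iff_ball.1 (h1.and (hU.mem_nhds hx₀))
  filter_upwards [ball_mem_nhds x₀ hδ] with x hx
  rw [hf0, sub_zero, zero_apply, sub_zero]
  by_cases hxI : x ∈ I
  swap
  · rw [(hz x (hδb x hx).2 hxI).1, norm_zero]
    positivity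
  set γ : ℝ → V := fun t => x + t • (x₀ - x) with hγ
  have hγc : Continuous γ := by fun_prop
  have hγb : ∀ t ∈ Icc (0 : ℝ) 1, γ t ∈ ball x₀ δ := by
    intro t ht
    have h2 : γ t - x₀ = (1 - t) • (x - x₀) := by
      simp only [hγ, sub_smul, one_smul, smul_sub]
      abel
    rw [mem_ball_iff_norm, h2, norm_smul, Real.norm_eq_abs, abs_of_nonneg (by linarith [ht.2])]
    rw [mem_ball_iff_norm] at hx
    have h3 : (1 - t) * ‖x - x₀‖ ≤ 1 * ‖x - x₀‖ :=
      mul_le_mul_of_nonneg_right (by linarith [ht.1]) (norm_nonneg _)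
    linarith
  set S : Set ℝ := Icc (0 : ℝ) 1 ∩ γ ⁻¹' Iᶜ with hS
  have hSc : IsClosed S := isClosed_Icc.inter (hI.isClosed_compl.preimage hγc)
  have hS1 : (1 : ℝ) ∈ S := by
    refine ⟨⟨zero_le_one, le_rfl⟩, ?_⟩
    simp only [hγ, mem_preimage, one_smul, add_sub_cancel, mem_compl_iff]
    exact hx₀I
  have hSb : BddBelow S := ⟨0, fun t ht => ht.1.1⟩
  set s := sInf S with hs
  have hsS : s ∈ S := hSc.csInf_mem ⟨1, hS1⟩ hSb
  have hs0 : 0 ≤ s := hsS.1.1
  have hs1 : s ≤ 1 := hsS.1.2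
  have hlt : ∀ t ∈ Ico (0 : ℝ) s, γ t ∈ I := by
    intro t ht
    by_contra h
    have : t ∈ S := ⟨⟨ht.1, by linarith [ht.2]⟩, h⟩
    exact absurd (csInf_le hSb this) (not_le.2 ht.2)
  have hmv := norm_image_sub_le_of_norm_deriv_right_le_segment (f := fun t => f (γ t))
    (f' := fun t => f' (γ t) (x₀ - x)) (C := ε * ‖x - x₀‖) (a := 0) (b := s) ?_ ?_ ?_ s
    ⟨hs0, le_rfl⟩
  · simp only [sub_zero] at hmv
    rw [(hz _ (hδb _ (hγb s hsS.1)).2 hsS.2).1, zero_sub, norm_neg] at hmv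
    have h5 : γ 0 = x := by simp [hγ]
    rw [h5] at hmv
    calc ‖f x‖ ≤ ε * ‖x - x₀‖ * s := hmv
      _ ≤ ε * ‖x - x₀‖ * 1 := by
          refine mul_le_mul_of_nonneg_left hs1 (by positivity)
      _ = ε * ‖x - x₀‖ := mul_one _
  · refine hcf.comp hγc.continuousOn fun t ht => ?_
    exact (hδb _ (hγb t ⟨ht.1, ht.2.trans hs1⟩)).2
  · intro t ht
    have h6 := hd (γ t) (hδb _ (hγb t ⟨ht.1, ht.2.le.trans hs1⟩)).2 (hlt t ht)
    have h7 : HasDerivAt γ (x₀ - x) t := by
      have := ((hasDerivAt_id t).smul_const (x₀ - x)).const_add x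
      simpa [hγ] using this
    exact (h6.comp_hasDerivAt t h7).hasDerivWithinAt
  · intro t ht
    refine (ContinuousLinearMap.le_opNorm _ _).trans ?_
    rw [norm_sub_rev x₀ x]
    exact mul_le_mul_of_nonneg_right
      (hδb _ (hγb t ⟨ht.1, ht.2.le.trans hs1⟩)).1.le (norm_nonneg _)

end gen

variable {n : ℕ} [NeZero n] {X : E n → E n} {z : E n} {r r' R : ℝ}

theorem KB_compact : IsCompact (KB z r) := (isCompact_closedBall z r).inter_right isClosed_Hs

theorem HB_sub_KB : HB z r ⊆ KB z r := inter_subset_inter_left _ ball_subset_closedBall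

theorem Geo.KB_sub (h : Geo X z r r' R) : KB z r ⊆ HB z r' :=
  inter_subset_inter_left _ (closedBall_subset_ball h.rr)

theorem Geo.contX (h : Geo X z r r' R) : ContinuousOn X (KB z r) :=
  h.sm.continuousOn.mono h.KB_sub

theorem Geo.compX (h : Geo X z r r' R) : IsCompact (X '' KB z r) := KB_compact.image_of_continuousOn h.contX

theorem Geo.Y_mem (h : Geo X z r r' R) {y : E n} (hy : y ∈ X '' KB z r) : Yi X z r y ∈ KB z r :=
  Function.invFunOn_mem hy

theorem Geo.X_Y (h : Geo X z r r' R) {y : E n} (hy : y ∈ X '' KB z r) : X (Yi X z r y) = y :=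
  Function.invFunOn_eq hy

theorem Geo.Y_X (h : Geo X z r r' R) {x : E n} (hx : x ∈ KB z r) : Yi X z r (X x) = x :=
  h.inj (h.Y_mem ⟨x, hx, rfl⟩) hx (h.X_Y ⟨x, hx, rfl⟩)

theorem ext0_of_mem {F : E n → ℝ} {y : E n} (hy : y ∈ X '' KB z r) :
    ext0 X z r F y = F (Yi X z r y) := by
  unfold ext0; rw [if_pos hy]

theorem ext0_of_not {F : E n → ℝ} {y : E n} (hy : y ∉ X '' KB z r) : ext0 X z r F y = 0 := by
  unfold ext0; rw [if_neg hy]

theorem Geo.ext0_X (h : Geo X z r r' R) {F : E n → ℝ} {x : E n} (hx : x ∈ KB z r) :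
    ext0 X z r F (X x) = F x := by
  rw [ext0_of_mem ⟨x, hx, rfl⟩, h.Y_X hx]

theorem Geo.contY (h : Geo X z r r' R) : ContinuousOn (Yi X z r) (X '' KB z r) := by
  rw [continuousOn_iff_isClosed]
  intro t ht
  have h1 : IsCompact (KB z r ∩ t) := KB_compact.inter_right ht
  refine ⟨X '' (KB z r ∩ t), (h1.image_of_continuousOn (h.contX.mono inter_subset_left)).isClosed, ?_⟩
  ext y
  constructor
  · rintro ⟨h2, h3⟩
    exact ⟨⟨Yi X z r y, ⟨h.Y_mem h3, h2⟩, h.X_Y h3⟩, h3⟩
  · rintro ⟨⟨x, ⟨h2, h3⟩, rfl⟩, h4⟩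
    refine ⟨?_, h4⟩
    show Yi X z r (X x) ∈ t
    rw [h.Y_X h2]
    exact h3

/-- The open half ball without the flat boundary. -/
def OB (z : E n) (r : ℝ) : Set (E n) := ball z r ∩ {x | 0 < x 0}

theorem OB_open : IsOpen (OB z r) :=
  isOpen_ball.inter (isOpen_lt continuous_const (continuous_coord 0))

theorem OB_sub_HB : OB z r ⊆ HB z r := fun x hx => ⟨hx.1, le_of_lt (show 0 < x 0 from hx.2)⟩

theorem OB_sub_KB : OB z r ⊆ KB z r := OB_sub_HB.trans HB_sub_KB

theorem OB_mem_nhds {x : E n} (hx : x ∈ OB z r) : HB z r ∈ 𝓝 x :=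
  mem_of_superset (OB_open.mem_nhds hx) OB_sub_HB

theorem HB_rel (z : E n) (r : ℝ) : RelOpen (HB z r) := ⟨_, isOpen_ball, rfl⟩

theorem pd_interior {F : Type*} [NormedAddCommGroup F] [NormedSpace ℝ F] {x : E n}
    (hx : 0 < x 0) (f : E n → F) (i : Fin n) : pd i f x = fderiv ℝ f x (ev i) := by
  unfold pd
  rw [fderivWithin_of_mem_nhds]
  exact mem_of_superset ((isOpen_lt continuous_const (continuous_coord 0)).mem_nhds hx)
    fun y hy => le_of_lt (show 0 < y 0 from hy)

theorem Geo.smAt (h : Geo X z r r' R) {x : E n} (hx : x ∈ OB z r) : ContDiffAt ℝ ∞ X x :=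
  h.sm.contDiffAt (mem_of_superset (OB_mem_nhds hx) (HB_sub_KB.trans h.KB_sub))

/-- The Jacobian matrix is the matrix of the derivative. -/
theorem Jac_apply {x : E n} (hx : 0 < x 0) (hX : DifferentiableAt ℝ X x) (i j : Fin n) :
    Jac X x i j = (fderiv ℝ X x (ev j)) i := by
  unfold Jac
  rw [Matrix.of_apply, pd_interior hx]
  have h1 : HasFDerivAt (fun y => X y i) ((EuclideanSpace.proj (𝕜 := ℝ) i).comp (fderiv ℝ X x)) x :=
    (EuclideanSpace.proj (𝕜 := ℝ) i).hasFDerivAt.comp x hX.hasFDerivAt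
  rw [h1.fderiv]
  rfl

/-- The derivative as a linear equivalence. -/
theorem Geo.equiv (h : Geo X z r r' R) {x : E n} (hx : x ∈ OB z r) :
    ∃ L : E n ≃L[ℝ] E n, (L : E n →L[ℝ] E n) = fderiv ℝ X x ∧
      ∀ j, L.symm (ev j) = ∑ k, (Jac X x)⁻¹ k j • ev k := by
  have hdet := h.det x (OB_sub_KB hx)
  have hXd : DifferentiableAt ℝ X x := (h.smAt hx).differentiableAt (by simp)
  set A : E n →L[ℝ] E n := fderiv ℝ X x with hA
  set B : E n →L[ℝ] E n :=
    ∑ j, (EuclideanSpace.proj (𝕜 := ℝ) j).smulRight (∑ k, (Jac X x)⁻¹ k j • (ev k : E n)) with hB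
  have hAe : ∀ j, A (ev j) = ∑ i, Jac X x i j • ev i := by
    intro j
    conv_lhs => rw [en_expand (A (ev j))]
    refine Finset.sum_congr rfl fun i _ => ?_
    rw [Jac_apply hx.2 hXd i j]
  have hBe : ∀ j, B (ev j) = ∑ k, (Jac X x)⁻¹ k j • ev k := by
    intro j
    simp only [hB, sum_apply, ContinuousLinearMap.smulRight_apply, PiLp.proj_apply,
      ev_apply, ite_smul, one_smul, zero_smul, Finset.sum_ite_eq', Finset.mem_univ, if_true]
  have hunit : IsUnit (Jac X x).det := isUnit_iff_ne_zero.2 hdet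
  have hAB : ∀ v, A (B v) = v := by
    intro v
    have h1 : ∀ j, A (B (ev j)) = ev j := by
      intro j
      rw [hBe, map_sum]
      simp only [map_smul, hAe, Finset.smul_sum, smul_smul]
      rw [Finset.sum_comm]
      have h2 : ∀ i, ∑ k, ((Jac X x)⁻¹ k j * Jac X x i k) • (ev i : E n) =
          (if i = j then (1 : ℝ) else 0) • ev i := by
        intro i
        rw [← Finset.sum_smul]
        congr 1
        have h3 := congrFun (congrFun (Matrix.mul_nonsing_inv _ hunit) i) j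
        rw [Matrix.mul_apply, Matrix.one_apply] at h3
        rw [← h3]
        exact Finset.sum_congr rfl fun k _ => mul_comm _ _
      rw [Finset.sum_congr rfl fun i _ => h2 i]
      simp
    conv_lhs => rw [en_expand v]
    simp only [map_sum, map_smul, h1]
    exact (en_expand v).symm
  have hBA : ∀ v, B (A v) = v := by
    intro v
    have h1 : ∀ j, B (A (ev j)) = ev j := by
      intro j
      rw [hAe, map_sum]
      simp only [map_smul, hBe, Finset.smul_sum, smul_smul]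
      rw [Finset.sum_comm]
      have h2 : ∀ i, ∑ k, (Jac X x k j * (Jac X x)⁻¹ i k) • (ev i : E n) =
          (if i = j then (1 : ℝ) else 0) • ev i := by
        intro i
        rw [← Finset.sum_smul]
        congr 1
        have h3 := congrFun (congrFun (Matrix.nonsing_inv_mul _ hunit) i) j
        rw [Matrix.mul_apply, Matrix.one_apply] at h3
        rw [← h3]
        exact Finset.sum_congr rfl fun k _ => mul_comm _ _
      rw [Finset.sum_congr rfl fun i _ => h2 i]
      simp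
    conv_lhs => rw [en_expand v]
    simp only [map_sum, map_smul, h1]
    exact (en_expand v).symm
  refine ⟨ContinuousLinearEquiv.equivOfInverse A B hBA hAB, rfl, fun j => ?_⟩
  exact hBe j

/-- The image of the half ball is a neighbourhood of the image of an interior point. -/
theorem Geo.image_mem_nhds (h : Geo X z r r' R) {x : E n} (hx : x ∈ OB z r) {s : Set (E n)}
    (hs : s ∈ 𝓝 x) : X '' s ∈ 𝓝 (X x) := by
  obtain ⟨L, hL, -⟩ := h.equiv hx
  have h1 : HasStrictFDerivAt X (L : E n →L[ℝ] E n) x := by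
    rw [hL]
    exact (h.smAt hx).hasStrictFDerivAt (by simp)
  rw [← h1.map_nhds_eq_of_equiv]
  exact image_mem_map hs

theorem Geo.hasY (h : Geo X z r r' R) {x : E n} (hx : x ∈ OB z r) :
    ∃ L : E n ≃L[ℝ] E n, (L : E n →L[ℝ] E n) = fderiv ℝ X x ∧
      (∀ j, L.symm (ev j) = ∑ k, (Jac X x)⁻¹ k j • ev k) ∧
      HasFDerivAt (Yi X z r) (L.symm : E n →L[ℝ] E n) (X x) := by
  obtain ⟨L, hL, hL2⟩ := h.equiv hx
  refine ⟨L, hL, hL2, ?_⟩
  have hK : X '' KB z r ∈ 𝓝 (X x) :=
    mem_of_superset (h.image_mem_nhds hx (OB_mem_nhds hx)) (image_mono HB_sub_KB)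
  refine HasFDerivAt.of_local_left_inverse (f := X) (f' := L) (h.contY.continuousAt hK) ?_ ?_
  · rw [h.Y_X (OB_sub_KB hx), hL]
    exact ((h.smAt hx).differentiableAt (by simp)).hasFDerivAt
  · filter_upwards [hK] with y hy
    exact h.X_Y hy

/-- The derivative of a function of `y = X x`. -/
theorem Geo.hasF_ext0 (h : Geo X z r r' R) {F : E n → ℝ} {x : E n} (hx : x ∈ OB z r)
    (hF : DifferentiableAt ℝ F x) :
    HasFDerivAt (ext0 X z r F)
      (∑ j, Dx X j F x • (EuclideanSpace.proj (𝕜 := ℝ) j : E n →L[ℝ] ℝ)) (X x) := by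
  obtain ⟨L, hL, hL2, hY⟩ := h.hasY hx
  have hK : X '' KB z r ∈ 𝓝 (X x) :=
    mem_of_superset (h.image_mem_nhds hx (OB_mem_nhds hx)) (image_mono HB_sub_KB)
  have h1 : HasFDerivAt F (fderiv ℝ F x) (Yi X z r (X x)) := by
    rw [h.Y_X (OB_sub_KB hx)]
    exact hF.hasFDerivAt
  have h2 := h1.comp (X x) hY
  have h3 : (fderiv ℝ F x).comp (L.symm : E n →L[ℝ] E n) =
      ∑ j, Dx X j F x • (EuclideanSpace.proj (𝕜 := ℝ) j : E n →L[ℝ] ℝ) := by
    ext v
    have h4 : ∀ j, fderiv ℝ F x (L.symm (ev j)) = Dx X j F x := by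
      intro j
      rw [hL2, map_sum]
      unfold Dx
      refine Finset.sum_congr rfl fun k _ => ?_
      rw [map_smul, pd_interior hx.2, smul_eq_mul]
    conv_lhs => rw [en_expand v]
    simp only [map_sum, map_smul, ContinuousLinearMap.comp_apply, ContinuousLinearEquiv.coe_coe,
      sum_apply, smul_apply, PiLp.proj_apply, smul_eq_mul, h4]
    exact Finset.sum_congr rfl fun j _ => mul_comm _ _
  rw [h3] at h2
  refine h2.congr_of_eventuallyEq ?_
  filter_upwards [hK] with y hy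
  rw [ext0_of_mem hy, Function.comp_apply]

theorem Geo.dj_ext0 (h : Geo X z r r' R) {F : E n → ℝ} {x : E n} (hx : x ∈ OB z r)
    (hF : DifferentiableAt ℝ F x) (j : Fin n) :
    H31.dj j (ext0 X z r F) (X x) = Dx X j F x := by
  unfold H31.dj
  rw [(h.hasF_ext0 hx hF).fderiv]
  simp only [sum_apply, smul_apply, PiLp.proj_apply, ev_apply, smul_eq_mul, mul_ite,
    mul_one, mul_zero, Finset.sum_ite_eq', Finset.sum_ite_eq, Finset.mem_univ, if_true]

/-- Continuity of the extension by zero. -/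
theorem Geo.cont_ext0 (h : Geo X z r r' R) {F : E n → ℝ} (hF : ContinuousOn F (HB z r))
    (h0 : ∀ x ∈ HB z r, x 0 = 0 → F x = 0) : ContinuousOn (ext0 X z r F) (ball 0 R) := by
  have hK' : IsClosed (X '' KB z r) := h.compX.isClosed
  have hrr : r / 2 < r := by linarith [h.rpos]
  have hHB : ∀ x ∈ KB z r, X x ∈ ball 0 R → x ∈ HB z r := fun x hx hX =>
    ⟨ball_subset_ball hrr.le (h.far x hx hX), hx.2⟩
  intro y hy
  apply ContinuousAt.continuousWithinAt
  by_cases hyK : y ∈ X '' KB z r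
  swap
  · have h1 : ext0 X z r F =ᶠ[𝓝 y] fun _ => 0 := by
      filter_upwards [hK'.isOpen_compl.mem_nhds hyK] with y' hy'
      exact ext0_of_not hy'
    exact continuousAt_const.congr h1.symm
  have hcw : ContinuousWithinAt (ext0 X z r F) (X '' KB z r) y := by
    have h1 : ContinuousWithinAt (fun y => F (Yi X z r y)) (X '' KB z r ∩ ball 0 R) y := by
      have h2 := hF _ (hHB _ (h.Y_mem hyK) (by rw [h.X_Y hyK]; exact hy))
      refine h2.comp ((h.contY y hyK).mono inter_subset_left) fun y' hy' => ?_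
      exact hHB _ (h.Y_mem hy'.1) (by rw [h.X_Y hy'.1]; exact hy'.2)
    have h3 : ContinuousWithinAt (fun y => F (Yi X z r y)) (X '' KB z r) y :=
      (continuousWithinAt_inter (isOpen_ball.mem_nhds hy)).1 h1
    exact h3.congr (fun y' hy' => ext0_of_mem hy') (ext0_of_mem hyK)
  obtain ⟨x, hx, rfl⟩ := hyK
  have hxHB := hHB x hx hy
  rcases (show 0 ≤ x 0 from hx.2).eq_or_lt with hx0 | hx0
  · -- boundary point
    have hval : ext0 X z r F (X x) = 0 := by
      rw [h.ext0_X hx]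
      exact h0 x hxHB hx0.symm
    have h2 : ContinuousWithinAt (ext0 X z r F) (X '' KB z r)ᶜ (X x) := by
      refine (continuousWithinAt_const (b := (0 : ℝ))).congr (fun y' hy' => ext0_of_not hy') hval
    have h3 := hcw.union h2
    rwa [union_compl_self, continuousWithinAt_univ] at h3
  · have hxO : x ∈ OB z r := ⟨hxHB.1, hx0⟩
    exact hcw.continuousAt (mem_of_superset (h.image_mem_nhds hxO (OB_mem_nhds hxO))
      (image_mono HB_sub_KB))

end Vale.Agent.P088.R2.H509
end
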