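import Vale.Agent.P088.R2.H509.Glue2
import Vale.Agent.P088.Bdl.B10

/-!
# P088, Theorem S, boundary step: the scalar operator and its transformation under `X`
-/

set_option linter.all false

open Bundle Manifold MeasureTheory Set Filter Topology Metric
open scoped ContDiff Matrix

noncomputable section

namespace Vale.Agent.P088.R2.H509

open Vale.Agent.P088 Vale.Agent.P088.EYM

variable {n N : ℕ} [NeZero n] {X : E n → E n} {z : E n} {r r' R : ℝ}

/-- The Laplacian with respect to `y = X x`, as an operator on functions of `x`. -/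
def Lx (X : E n → E n) (F : E n → ℝ) (x : E n) : ℝ := ∑ j, Dx X j (Dx X j F) x

/-- The scalar operator `∑ ∂_j (√(det g) g^{jk} ∂_k F)`. -/
def Ls (g : E n → Matrix (Fin n) (Fin n) ℝ) (F : E n → ℝ) (x : E n) : ℝ :=
  ∑ j, pd j (fun y => ∑ k, gg g j k y * pd k F y) x

/-- `t ↦ t v`. -/
def sp (v : Fib N) : ℝ →L[ℝ] Fib N := (ContinuousLinearMap.id ℝ ℝ).smulRight v

theorem sp_apply (v : Fib N) (t : ℝ) : sp v t = (t : ℂ) • v := by simp [sp]

theorem flux_sp {L : LD n N} {D : Set (E n)} (hD : RelOpen D) (hB : ∀ x ∈ D, ∀ j, L.B j x = 0)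
    {F : E n → ℝ} (hF : ContDiffOn ℝ ∞ F D) (v : Fib N) {x : E n} (hx : x ∈ D) (j : Fin n) :
    flux L j (fun y => sp v (F y)) x = sp v (∑ k, gg L.g j k x * pd k F x) := by
  unfold flux
  rw [map_sum]
  refine Finset.sum_congr rfl fun k _ => ?_
  unfold nab
  rw [hB x hx k, hD.pd_clm (sp v) hF hx k, ← smul_eq_mul, map_smul]
  simp

theorem lop_sp {L : LD n N} {D : Set (E n)} (hD : RelOpen D)
    (hg : ∀ j k, ContDiffOn ℝ ∞ (gg L.g j k) D) (hB : ∀ x ∈ D, ∀ j, L.B j x = 0)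
    {F : E n → ℝ} (hF : ContDiffOn ℝ ∞ F D) (v : Fib N) {x : E n} (hx : x ∈ D) :
    Lop L (fun y => sp v (F y)) x = sp v (Ls L.g F x) := by
  unfold Lop Ls
  rw [map_sum]
  refine Finset.sum_congr rfl fun j _ => ?_
  have h1 : EqOn (flux L j (fun y => sp v (F y)))
      (fun y => sp v (∑ k, gg L.g j k y * pd k F y)) D := fun y hy => flux_sp hD hB hF v hy j
  have hs : ContDiffOn ℝ ∞ (fun y => ∑ k, gg L.g j k y * pd k F y) D :=
    ContDiffOn.sum fun k _ => (hg j k).mul (hD.pd_smooth hF k)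
  rw [hB x hx j, hD.pd_congr h1 hx j, hD.pd_clm (sp v) hs hx j]
  simp

/-! ### Derivatives of the extension by zero at interior points -/

theorem Geo.ev_near (h : Geo X z r r' R) {x : E n} (hx : x ∈ OB z r) :
    ∀ᶠ y in 𝓝 (X x), y ∈ X '' OB z r := h.image_mem_nhds hx (OB_open.mem_nhds hx)

theorem Geo.dj_ev (h : Geo X z r r' R) {F : E n → ℝ} (hF : ContDiffOn ℝ ∞ F (HB z r)) {x : E n}
    (hx : x ∈ OB z r) (j : Fin n) :
    H31.dj j (ext0 X z r F) =ᶠ[𝓝 (X x)] ext0 X z r (Dx X j F) := by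
  filter_upwards [h.ev_near hx] with y hy
  obtain ⟨x', hx', rfl⟩ := hy
  rw [h.ext0_X (OB_sub_KB hx'), h.dj_ext0 hx'
    ((hF.contDiffAt (OB_mem_nhds hx')).differentiableAt (by simp))]

theorem Geo.lap_ext0 (h : Geo X z r r' R) {F : E n → ℝ} (hF : ContDiffOn ℝ ∞ F (HB z r)) {x : E n}
    (hx : x ∈ OB z r) : H31.lap (ext0 X z r F) (X x) = Lx X F x := by
  unfold H31.lap Lx
  refine Finset.sum_congr rfl fun j _ => ?_
  rw [H31.dj_congr (h.dj_ev hF hx j) j]
  exact h.dj_ext0 hx (((h.Dx_sm hF j).contDiffAt (OB_mem_nhds hx)).differentiableAt (by simp)) j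

theorem Geo.Lx_sm (h : Geo X z r r' R) {F : E n → ℝ} (hF : ContDiffOn ℝ ∞ F (HB z r)) :
    ContDiffOn ℝ ∞ (Lx X F) (HB z r) :=
  ContDiffOn.sum fun j _ => h.Dx_sm (h.Dx_sm hF j) j

/-- smoothness of the inverse -/
theorem Geo.smY (h : Geo X z r r' R) {x : E n} (hx : x ∈ OB z r) :
    ContDiffAt ℝ ∞ (Yi X z r) (X x) := by
  obtain ⟨L, hL, -⟩ := h.equiv hx
  have hf : ContDiffAt ℝ ∞ X x := h.smAt hx
  have hf' : HasFDerivAt X (L : E n →L[ℝ] E n) x := by
    rw [hL]; exact (hf.differentiableAt (by simp)).hasFDerivAt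
  have h1 := hf.to_localInverse hf' (by simp)
  refine h1.congr_of_eventuallyEq ?_
  have h2 := (hf.hasStrictFDerivAt' hf' (by simp)).localInverse_unique (g := Yi X z r) (by
    filter_upwards [OB_open.mem_nhds hx] with y hy
    exact h.Y_X (OB_sub_KB hy))
  exact h2

theorem Geo.sm_ext0 (h : Geo X z r r' R) {F : E n → ℝ} (hF : ContDiffOn ℝ ∞ F (HB z r)) {x : E n}
    (hx : x ∈ OB z r) : ContDiffAt ℝ ∞ (ext0 X z r F) (X x) := by
  have h1 : ContDiffAt ℝ ∞ F (Yi X z r (X x)) := by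
    rw [h.Y_X (OB_sub_KB hx)]
    exact hF.contDiffAt (OB_mem_nhds hx)
  refine (h1.comp (X x) (h.smY hx)).congr_of_eventuallyEq ?_
  filter_upwards [h.ev_near hx] with y hy
  exact ext0_of_mem (image_mono OB_sub_KB hy)

theorem Geo.Lx_comp (h : Geo X z r r' R) {f : E n → ℝ} (hf : ContDiff ℝ ∞ f) {x : E n}
    (hx : x ∈ OB z r) : Lx X (fun x => f (X x)) x = H31.lap f (X x) := by
  have h1 : ContDiffOn ℝ ∞ (fun x => f (X x)) (HB z r) := hf.comp_contDiffOn h.smH
  rw [← h.lap_ext0 h1 hx]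
  refine H31.lap_congr ?_
  filter_upwards [h.ev_near hx] with y hy
  obtain ⟨x', hx', rfl⟩ := hy
  exact h.ext0_X (OB_sub_KB hx')

/-- two continuous functions which agree off the flat boundary agree -/
theorem eq_of_OB {F G : E n → ℝ} (hF : ContinuousOn F (HB z r)) (hG : ContinuousOn G (HB z r))
    (h : ∀ x ∈ OB z r, F x = G x) : ∀ x ∈ HB z r, F x = G x := by
  intro x hx
  by_cases hx0 : 0 < x 0
  · exact h x ⟨hx.1, hx0⟩
  have hx00 : x 0 = 0 := le_antisymm (not_lt.1 hx0) hx.2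
  -- `x + t e_0 → x`
  have hc : Continuous fun t : ℝ => x + t • ev 0 := by fun_prop
  have h1 : Tendsto (fun t : ℝ => x + t • ev 0) (𝓝[>] 0) (𝓝 x) := by
    have := hc.tendsto 0
    simp only [zero_smul, add_zero] at this
    exact this.mono_left nhdsWithin_le_nhds
  have h2 : ∀ᶠ t in 𝓝[>] (0 : ℝ), x + t • ev 0 ∈ OB z r := by
    filter_upwards [h1.eventually (isOpen_ball.mem_nhds hx.1), self_mem_nhdsWithin] with t ht ht0
    refine ⟨ht, ?_⟩
    show (0 : ℝ) < (x + t • ev 0 : E n) 0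
    simp only [PiLp.add_apply, PiLp.smul_apply, hx00, ev_apply, if_true, smul_eq_mul, mul_one,
      zero_add]
    exact ht0
  have h3 : Tendsto (fun t : ℝ => x + t • ev 0) (𝓝[>] 0) (𝓝[HB z r] x) :=
    tendsto_nhdsWithin_iff.2 ⟨h1, h2.mono fun t ht => OB_sub_HB ht⟩
  have h4 := (hF x hx).tendsto.comp h3
  have h5 := (hG x hx).tendsto.comp h3
  refine tendsto_nhds_unique h4 (h5.congr' ?_)
  filter_upwards [h2] with t ht
  exact (h _ ht).symm

end Vale.Agent.P088.R2.H509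
end
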