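import Vale.Agent.P088.R2.H509.Est2
import Vale.Agent.P088.R2.H31.Spec

/-!
# P088, Theorem S, boundary step: the step
-/

set_option linter.all false

open Bundle Manifold MeasureTheory Set Filter Topology Metric
open scoped ContDiff Matrix

noncomputable section

namespace Vale.Agent.P088.R2.H509

open Vale.Agent.P088 Vale.Agent.P088.EYM Vale.Agent.P088.EYM.O

universe u

section

variable {n : ℕ} [NeZero n] {X : E n → E n} {z : E n} {r r' R : ℝ}

theorem Geo.cont_ext1 (h : Geo X z r r' R) {F : E n → ℝ} (hF : ContinuousOn F (KB z r)) :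
    ContinuousOn (ext0 X z r F) (X '' KB z r) :=
  (hF.comp h.contY fun y hy => h.Y_mem hy).congr fun y hy => ext0_of_mem hy

theorem ball_diff_sub : ball (0 : E n) R \ (X '' KB z r)ᶜ ⊆ X '' KB z r := fun y hy => by
  have := hy.2
  rwa [mem_compl_iff, not_not] at this

theorem Geo.pd_comp (h : Geo X z r r' R) {f : E n → ℝ} (hf : ContDiff ℝ ∞ f) {x : E n}
    (hx : x ∈ HB z r) (k : Fin n) :
    pd k (fun x => f (X x)) x = ∑ i, Jac X x i k * H31.dj i f (X x) := by
  have h1 := (HB_rel z r).hasD hx h.smH (by simp)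
  have h2 : HasFDerivWithinAt (fun x => f (X x)) ((fderiv ℝ f (X x)).comp
      (fderivWithin ℝ X (Hs n) x)) (Hs n) x :=
    ((hf.differentiable (by simp)) (X x)).hasFDerivAt.comp_hasFDerivWithinAt x h1
  rw [pd_of_has hx.2 h2 k, ContinuousLinearMap.comp_apply]
  conv_lhs => rw [en_expand ((fderivWithin ℝ X (Hs n) x) (ev k))]
  rw [map_sum]
  refine Finset.sum_congr rfl fun i _ => ?_
  rw [map_smul, smul_eq_mul, ← energy_jac_apply (HB_rel z r) h.smH hx i k]
  rfl

theorem dj_cont {f : E n → ℝ} (hf : ContDiff ℝ ∞ f) (j : Fin n) : Continuous (H31.dj j f) := by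
  unfold H31.dj
  exact (hf.continuous_fderiv (by simp)).clm_apply continuous_const

/-- `f² + ∑ (∂_j f)²`. -/
def qf (f : E n → ℝ) (y : E n) : ℝ := f y ^ 2 + ∑ j, H31.dj j f y ^ 2

theorem qf_cont {f : E n → ℝ} (hf : ContDiff ℝ ∞ f) : Continuous (qf f) :=
  (hf.continuous.pow 2).add (continuous_finsetSum _ fun j _ => (dj_cont hf j).pow 2)

theorem qf_nonneg (f : E n → ℝ) (y : E n) : 0 ≤ qf f y :=
  add_nonneg (sq_nonneg _) (Finset.sum_nonneg fun _ _ => sq_nonneg _)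

end

section

variable {n N : ℕ} [NeZero n] {M : Type u} [TopologicalSpace M]
  [ChartedSpace (EuclideanHalfSpace n) M] [IsManifold (𝓡∂ n) ∞ M] [T2Space M] [CompactSpace M]
  [ConnectedSpace M] [MeasurableSpace M] [BorelSpace M] {P Q : One n N M} {Γ : Set M} {c : M → ℝ}
  {p : M} {X : E n → E n} {om : E n → ℝ} {z : E n} {r r' R : ℝ}

/-- The norm of the function on `M` in terms of the test function. -/
theorem Su.qt_bound (h : Su P Q Γ c p X om z r r' R) :
    ∃ C > 0, ∀ (f : E n → ℝ) (t : M → ℝ), TT p X om z r R f t → SmR n t →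
      ∫ y in HB z r, q1 (ch (n := n) p t) y ≤ C * ∫ y in ball 0 R \ (X '' KB z r)ᶜ, qf f y := by
  have hom : ContDiffOn ℝ ∞ (fun x => (om (X x))⁻¹) (HB z r') :=
    h.smw.inv fun x hx => (h.pw x hx).ne'
  obtain ⟨C1, hC1, h1⟩ := q1_mul h.geo.rr hom
  obtain ⟨C2, hC2, h2⟩ := h.geo.comp_bound
  refine ⟨C1 * C2, by positivity, fun f t ht hst => ?_⟩
  have hfX : ContDiffOn ℝ ∞ (fun x => f (X x)) (HB z r') := ht.sm.comp_contDiffOn h.geo.sm
  have hts : ContDiffOn ℝ ∞ (ch (n := n) p t) (HB z r') := (ch_smooth hst p).mono h.sub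
  have i1 := int_HB h.geo.rr (q1_cont hts)
  have i2 := int_HB h.geo.rr (q1_cont hfX)
  have i3 : IntegrableOn (fun x => |(Jac X x).det| * qf f (X x)) (HB z r) :=
    int_HB h.geo.rr (h.geo.det_c.mul (h.geo.comp_c (qf_cont ht.sm)))
  have e1 : EqOn (ch (n := n) p t) (fun x => (om (X x))⁻¹ * f (X x)) (HB z r) := by
    intro x hx
    show ch (n := n) p t x = _
    rw [ht.ct x hx]
    ring
  have b1 : ∫ y in HB z r, q1 (ch (n := n) p t) y ≤
      C1 * ∫ y in HB z r, q1 (fun x => f (X x)) y := by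
    rw [← integral_const_mul]
    refine setIntegral_mono_on i1 (i2.const_mul C1) (HB_meas z r) fun x hx => ?_
    have h3 : q1 (ch (n := n) p t) x = q1 (fun x => (om (X x))⁻¹ * f (X x)) x := by
      unfold q1
      rw [e1 hx]
      congr 1
      exact Finset.sum_congr rfl fun k _ => by rw [(HB_rel z r).pd_congr e1 hx k]
    rw [h3]
    exact h1 _ hfX x hx
  have b2 : ∫ y in HB z r, q1 (fun x => f (X x)) y = ∫ y in SR X z r R, q1 (fun x => f (X x)) y := by
    refine setIntegral_eq_of_subset_of_forall_diff_eq_zero (HB_meas z r) h.geo.SR_HB ?_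
    rintro x ⟨hx, hx'⟩
    have h3 : X x ∉ ball (0 : E n) R := fun h' => hx' ⟨HB_sub_KB hx, h'⟩
    have h4 : X x ∉ tsupport f := fun h' => h3 (ht.ts h')
    have h5 : ∀ i, H31.dj i f (X x) = 0 := by
      intro i
      unfold H31.dj
      rw [show fderiv ℝ f (X x) = 0 from
        image_eq_zero_of_notMem_tsupport fun h' => h4 (tsupport_fderiv_subset ℝ h')]
      rfl
    unfold q1
    have h6 : ∀ k, pd k (fun x => f (X x)) x = 0 := by
      intro k
      rw [h.geo.pd_comp ht.sm hx]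
      exact Finset.sum_eq_zero fun i _ => by rw [h5, mul_zero]
    simp only [ht.f0 h3, h6]
    simp
  have b3 : ∫ y in SR X z r R, q1 (fun x => f (X x)) y ≤
      C2 * ∫ y in SR X z r R, |(Jac X y).det| * qf f (X y) := by
    rw [← integral_const_mul]
    exact setIntegral_mono_on (i2.mono_set h.geo.SR_HB) ((i3.mono_set h.geo.SR_HB).const_mul C2)
      h.geo.SR_meas fun x hx => h2 f ht.sm x hx
  have b4 : ∫ y in SR X z r R, |(Jac X y).det| * qf f (X y) =
      ∫ y in ball 0 R \ (X '' KB z r)ᶜ, qf f y := by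
    rw [h.geo.ball_eq]
    exact (h.geo.cov (h.geo.SR_HB.trans HB_sub_KB) h.geo.SR_meas (qf f)).symm
  calc _ ≤ C1 * ∫ y in HB z r, q1 (fun x => f (X x)) y := b1
    _ = C1 * ∫ y in SR X z r R, q1 (fun x => f (X x)) y := by rw [b2]
    _ ≤ C1 * (C2 * ∫ y in SR X z r R, |(Jac X y).det| * qf f (X y)) :=
      mul_le_mul_of_nonneg_left b3 hC1.le
    _ = _ := by rw [b4]; ring

theorem Hy.bdn (h : Su P Q Γ c p X om z r r' R) : ((𝓡∂ n).boundary M).Nonempty := by
  have h1 := h.Γs z ⟨mem_ball_self (h.geo.rpos.trans h.geo.rr), h.geo.z0.ge⟩ h.geo.z0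
  obtain ⟨O, hO, hΓ⟩ := h.hy.bd
  rw [hΓ] at h1
  exact ⟨_, h1.2⟩

/-- The norm of a solution in the chart, in terms of the test function. -/
theorem Su.sol_chart (h : Su P Q Γ c p X om z r r' R) {v : Fib N} (hv : ‖v‖ = 1) (P' : One n N M)
    (hA : ∀ x X, P'.A.form x X = 0) :
    ∃ C > 0, ∀ (f : E n → ℝ) (t a : M → ℝ), TT p X om z r R f t → Sl P' v t a →
      ∫ y in HB z r, q1 (ch (n := n) p a) y ≤ C * ∫ y in ball 0 R \ (X '' KB z r)ᶜ, qf f y := by
  obtain ⟨C1, hC1, h1⟩ := chart_low P' p h.geo.rr h.sub hv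
  obtain ⟨C2, hC2, h2⟩ := sol_bound P' (Hy.bdn h) hv
  obtain ⟨C3, hC3, h3⟩ := chart_up P' hA p h.geo.rr h.sub hv
  obtain ⟨C4, hC4, h4⟩ := h.qt_bound
  refine ⟨C1 * (C2 * (C3 * C4)), by positivity, fun f t a ht hs => ?_⟩
  have e1 := h1 a hs.sa
  have e2 := h2 t a hs
  have e3 := h3 t hs.st (ht.st.trans (image_mono fun x hx => h.geo.SR_HB ⟨hx.1, ht.ts hx.2⟩))
  have e4 := h4 f t ht hs.st
  calc _ ≤ C1 * _ := e1
    _ ≤ C1 * (C2 * _) := mul_le_mul_of_nonneg_left e2 hC1.le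
    _ ≤ C1 * (C2 * (C3 * _)) :=
      mul_le_mul_of_nonneg_left (mul_le_mul_of_nonneg_left e3 hC2.le) hC1.le
    _ ≤ C1 * (C2 * (C3 * (C4 * _))) := mul_le_mul_of_nonneg_left (mul_le_mul_of_nonneg_left
      (mul_le_mul_of_nonneg_left e4 hC3.le) hC2.le) hC1.le
    _ = _ := by ring

/-- The norm of `w`. -/
theorem Su.w_bound (h : Su P Q Γ c p X om z r r' R) {v : Fib N} (hv : ‖v‖ = 1) :
    ∃ C > 0, ∀ (f : E n → ℝ) (t a b : M → ℝ), TT p X om z r R f t → Sl P v t a → Sl Q v t b →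
      Van2 z r (WW c p X om a b) →
      IntegrableOn (qf (ext0 X z r (WW c p X om a b))) (ball 0 R) ∧
      ∫ y in ball 0 R, qf (ext0 X z r (WW c p X om a b)) y ≤
        C * ∫ y in ball 0 R \ (X '' KB z r)ᶜ, qf f y := by
  obtain ⟨C1, hC1, h1⟩ := h.sol_chart hv P h.hy.A1
  obtain ⟨C2, hC2, h2⟩ := h.sol_chart hv Q h.hy.A2
  obtain ⟨C3, hC3, h3⟩ := q1_mul h.geo.rr h.smw
  obtain ⟨C4, hC4, h4⟩ := q1_mul h.geo.rr h.w2s'
  obtain ⟨C5, hC5, h5⟩ := h.geo.Dx_bound
  refine ⟨C5 * (2 * C4 * C2 + 2 * C3 * C1), by positivity, fun f t a b ht ha hb hW => ?_⟩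
  have sa' : ContDiffOn ℝ ∞ (ch (n := n) p a) (HB z r') := (ch_smooth ha.sa p).mono h.sub
  have sb' : ContDiffOn ℝ ∞ (ch (n := n) p b) (HB z r') := (ch_smooth hb.sa p).mono h.sub
  have sW' : ContDiffOn ℝ ∞ (WW c p X om a b) (HB z r') := (h.w2s'.mul sb').sub (h.smw.mul sa')
  obtain ⟨g0, g1, g2⟩ := h.geo.glue hW
  set W := WW c p X om a b with hWd
  set w := ext0 X z r W with hw
  have hSR : MeasurableSet (ball 0 R \ (X '' KB z r)ᶜ) := by
    exact measurableSet_ball.diff h.geo.compX.isClosed.measurableSet.compl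
  -- `w` vanishes on `G`
  have z1 : ∀ y ∈ ball (0 : E n) R, y ∉ ball (0 : E n) R \ (X '' KB z r)ᶜ → qf w y = 0 := by
    intro y hy hy'
    have h6 : y ∉ X '' KB z r := fun h' => hy' ⟨hy, fun h'' => h'' h'⟩
    unfold qf
    have h7 : ∀ j, H31.dj j w y = 0 := fun j => by
      rw [g1 y hy j]
      exact ext0_of_not h6
    have h8 : w y = 0 := ext0_of_not h6
    simp only [h7, h8]
    simp
  have e0 : ∀ x ∈ SR X z r R, qf w (X x) = W x ^ 2 + ∑ j, Dx X j W x ^ 2 := by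
    intro x hx
    unfold qf
    rw [show w (X x) = W x from h.geo.ext0_X hx.1]
    congr 1
    refine Finset.sum_congr rfl fun j _ => ?_
    rw [g1 (X x) hx.2 j, h.geo.ext0_X hx.1]
  have c1 : ContinuousOn (fun x => |(Jac X x).det| * (W x ^ 2 + ∑ j, Dx X j W x ^ 2)) (HB z r) :=
    (h.geo.det_c.mono h.HBr).mul ((hW.sm.continuousOn.pow 2).add
      (continuousOn_finsetSum _ fun j _ => (h.geo.Dx_sm hW.sm j).continuousOn.pow 2))
  have i0 : IntegrableOn (fun x => |(Jac X x).det| * (W x ^ 2 + ∑ j, Dx X j W x ^ 2))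
      (SR X z r R) :=
    ((c1.mono h.geo.half).integrableOn_compact KB_compact).mono_set h.geo.SR_sub
  have hSK : SR X z r R ⊆ KB z r := h.geo.SR_HB.trans HB_sub_KB
  have i1 : IntegrableOn (qf w) (ball 0 R \ (X '' KB z r)ᶜ) := by
    rw [h.geo.ball_eq, h.geo.cov_int hSK h.geo.SR_meas]
    refine i0.congr_fun (fun x hx => ?_) h.geo.SR_meas
    show _ = |(Jac X x).det| * qf w (X x)
    rw [e0 x hx]
  have e1 : ∫ y in ball 0 R, qf w y = ∫ y in ball 0 R \ (X '' KB z r)ᶜ, qf w y :=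
    setIntegral_eq_of_subset_of_forall_diff_eq_zero measurableSet_ball diff_subset
      fun y hy => z1 y hy.1 hy.2
  have e2 : ∫ y in ball 0 R \ (X '' KB z r)ᶜ, qf w y =
      ∫ x in SR X z r R, |(Jac X x).det| * (W x ^ 2 + ∑ j, Dx X j W x ^ 2) := by
    rw [h.geo.ball_eq, h.geo.cov hSK h.geo.SR_meas]
    refine setIntegral_congr_fun h.geo.SR_meas fun x hx => ?_
    show |(Jac X x).det| * qf w (X x) = _
    rw [e0 x hx]
  have i2 := int_HB h.geo.rr (q1_cont sW')
  have i3 := int_HB h.geo.rr (q1_cont sa')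
  have i4 := int_HB h.geo.rr (q1_cont sb')
  have e3 : ∫ x in SR X z r R, |(Jac X x).det| * (W x ^ 2 + ∑ j, Dx X j W x ^ 2) ≤
      C5 * ∫ x in HB z r, q1 W x := by
    calc _ ≤ ∫ x in SR X z r R, C5 * q1 W x :=
          setIntegral_mono_on i0 ((i2.mono_set h.geo.SR_HB).const_mul C5) h.geo.SR_meas
            fun x hx => h5 W x hx
      _ ≤ ∫ x in HB z r, C5 * q1 W x :=
          setIntegral_mono_set (i2.const_mul C5)
            (Eventually.of_forall fun x => mul_nonneg hC5.le (q1_nonneg _ _))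
            (HasSubset.Subset.eventuallyLE h.geo.SR_HB)
      _ = _ := integral_const_mul _ _
  have e4 : ∫ x in HB z r, q1 W x ≤ 2 * C4 * (∫ x in HB z r, q1 (ch (n := n) p b) x) +
      2 * C3 * ∫ x in HB z r, q1 (ch (n := n) p a) x := by
    rw [← integral_const_mul, ← integral_const_mul,
      ← integral_add (i4.const_mul _) (i3.const_mul _)]
    refine setIntegral_mono_on i2 ((i4.const_mul _).add (i3.const_mul _)) (HB_meas z r)
      fun x hx => ?_
    have h6 : q1 W x ≤ 2 * q1 (fun x => w2 c p X om x * ch (n := n) p b x) x +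
        2 * q1 (fun x => om (X x) * ch (n := n) p a x) x :=
      q1_sub (h.w2s.mul (sb'.mono h.HBr)) (h.w1s.mul (sa'.mono h.HBr)) hx
    have h7 := h4 _ sb' x hx
    have h8 := h3 _ sa' x hx
    show q1 W x ≤ 2 * C4 * q1 (ch (n := n) p b) x + 2 * C3 * q1 (ch (n := n) p a) x
    linarith
  refine ⟨?_, ?_⟩
  · exact i1.of_forall_diff_eq_zero measurableSet_ball fun y hy => z1 y hy.1 hy.2
  · rw [e1, e2]
    have h6 := h1 f t a ht ha
    have h7 := h2 f t b ht hb
    calc _ ≤ C5 * ∫ x in HB z r, q1 W x := e3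
      _ ≤ C5 * (2 * C4 * (∫ x in HB z r, q1 (ch (n := n) p b) x) +
        2 * C3 * ∫ x in HB z r, q1 (ch (n := n) p a) x) := mul_le_mul_of_nonneg_left e4 hC5.le
      _ ≤ C5 * (2 * C4 * (C2 * ∫ y in ball 0 R \ (X '' KB z r)ᶜ, qf f y) +
        2 * C3 * (C1 * ∫ y in ball 0 R \ (X '' KB z r)ᶜ, qf f y)) :=
        mul_le_mul_of_nonneg_left (add_le_add (mul_le_mul_of_nonneg_left h7 (by positivity))
          (mul_le_mul_of_nonneg_left h6 (by positivity))) hC5.le
      _ = _ := by ring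

end

end Vale.Agent.P088.R2.H509
end
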