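import Vale.Agent.P088.R2.H509.StepBd

/-!
# P088, Theorem S, boundary step: the step
-/

set_option linter.all false

open Bundle Manifold MeasureTheory Set Filter Topology Metric
open scoped ContDiff Matrix

noncomputable section

namespace Vale.Agent.P088.R2.H509

open Vale.Agent.P088 Vale.Agent.P088.EYM Vale.Agent.P088.EYM.O

universe u

section

variable {n N : ℕ} [NeZero n] {M : Type u} [TopologicalSpace M]
  [ChartedSpace (EuclideanHalfSpace n) M] [IsManifold (𝓡∂ n) ∞ M] [T2Space M] [CompactSpace M]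
  [ConnectedSpace M] [MeasurableSpace M] [BorelSpace M] {P Q : One n N M} {Γ : Set M} {c : M → ℝ}
  {p : M} {X : E n → E n} {om : E n → ℝ} {z : E n} {r r' R : ℝ}

/-- `q = ω₂⁻¹ Δ ω₂`. -/
def qq (c : M → ℝ) (p : M) (X : E n → E n) (om : E n → ℝ) (z : E n) (r : ℝ) : E n → ℝ :=
  ext0 X z r (fun x => Lx X (w2 c p X om) x / w2 c p X om x)

theorem Su.q_cont (h : Su P Q Γ c p X om z r r' R) :
    ContinuousOn (qq c p X om z r) (ball 0 R) := by
  refine h.geo.cont_ext0 ?_ fun x hx hx0 => ?_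
  · exact (h.geo.Lx_sm h.w2s).continuousOn.div h.w2s.continuousOn
      fun x hx => (h.w2p x (h.HBr hx)).ne'
  · rw [h.Lw2 x hx hx0, zero_div]

theorem lap_supp {f : E n → ℝ} {x : E n} (hx : x ∉ tsupport f) : H31.lap f x = 0 := by
  have h1 : f =ᶠ[𝓝 x] fun _ => 0 := notMem_tsupport_iff_eventuallyEq.1 hx
  rw [H31.lap_congr h1]
  unfold H31.lap
  refine Finset.sum_eq_zero fun i _ => ?_
  have h2 : H31.dj i (fun _ : E n => (0 : ℝ)) = fun _ => 0 := by
    funext y
    exact H31.dj_const 0 i y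
  rw [h2]
  exact H31.dj_const 0 i x

theorem Su.step (h : Su P Q Γ c p X om z r r' R) :
    H31.Step n R (X '' KB z r)ᶜ (qq c p X om z r) := by
  set v : Fib N := EuclideanSpace.single ⟨0, h.hy.hN⟩ 1 with hvd
  have hv : ‖v‖ = 1 := es_norm N _
  have hv0 : v ≠ 0 := by
    intro h0
    rw [h0, norm_zero] at hv
    exact zero_ne_one hv
  have hΓn : Γ.Nonempty := ⟨_, h.Γs z ⟨mem_ball_self (h.geo.rpos.trans h.geo.rr), h.geo.z0.ge⟩ h.geo.z0⟩
  obtain ⟨⟨hsP, hsQ, -⟩, -⟩ := cData TM.fUniq TM.fForm n N M P Q Γ h.hy.bd hΓn h.hy.data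
  obtain ⟨C1, hC1, h1⟩ := h.e_bound hv
  obtain ⟨C2, hC2, h2⟩ := h.w_bound hv
  refine ⟨C1 + C2, by positivity, ?_⟩
  intro f h₁ h₂ hf hfc hft hh₁ hc₁ ht₁ hh₂ hlap ε hε
  obtain ⟨t, hst, hct, htt, htb⟩ := h.t_ex hf hfc hft hv
  have TTt : TT p X om z r R f t := ⟨hf, hfc, hft, hct, htt⟩
  obtain ⟨a, ha⟩ := sl_ex h.hy.A1 h.hy.hN hsP v hst htb
  obtain ⟨b, hb⟩ := sl_ex h.hy.A2 h.hy.hN hsQ v hst htb
  obtain ⟨hW, hLW⟩ := h.W_main hv0 (pr_of htb ha hb)
  obtain ⟨g0, g1, g2⟩ := h.geo.glue hW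
  obtain ⟨iw, bw⟩ := h2 f t a b TTt ha hb hW
  have hh0 : ∀ x ∈ KB z r, h₁ (X x) = 0 := by
    intro x hx
    refine image_eq_zero_of_notMem_tsupport fun h' => ?_
    exact (ht₁ h').1 ⟨x, hx, rfl⟩
  have hc₂ : HasCompactSupport h₂ := by
    refine HasCompactSupport.intro (hfc.isCompact.union hc₁.isCompact) fun x hx => ?_
    have h3 : x ∉ tsupport f := fun h' => hx (Or.inl h')
    have h4 : x ∉ tsupport h₁ := fun h' => hx (Or.inr h')
    have h5 := hlap x
    rw [lap_supp h3, image_eq_zero_of_notMem_tsupport h4, zero_add] at h5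
    exact h5.symm
  have bD := h1 f h₁ h₂ t a TTt ha hh0 hlap hh₂ hc₂
  have sa' : ContDiffOn ℝ ∞ (ch (n := n) p a) (HB z r') := (ch_smooth ha.sa p).mono h.sub
  have sD' : ContDiffOn ℝ ∞ (ch (n := n) p fun x => a x - t x) (HB z r') :=
    (ch_smooth (smR_sub' ha.sa ha.st) p).mono h.sub
  have hF : ContinuousOn (fun x => om (X x) * ch (n := n) p a x) (KB z r) :=
    (h.smw.continuousOn.mul sa'.continuousOn).mono h.geo.KB_sub
  have hSK : SR X z r R ⊆ KB z r := h.geo.SR_HB.trans HB_sub_KB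
  have hh2n : 0 ≤ ∫ x, h₂ x ^ 2 := integral_nonneg fun _ => sq_nonneg _
  have hqfn : 0 ≤ ∫ x in ball 0 R \ (X '' KB z r)ᶜ, qf f x := integral_nonneg fun _ => qf_nonneg _ _
  -- the pointwise identity for `v - f`
  have ev : ∀ x ∈ SR X z r R, |(Jac X x).det| *
      (ext0 X z r (fun x => om (X x) * ch (n := n) p a x) (X x) - f (X x)) ^ 2 =
      |(Jac X x).det| * (om (X x) * ch (n := n) p (fun x => a x - t x) x) ^ 2 := by
    intro x hx
    rw [h.geo.ext0_X hx.1]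
    have h3 : f (X x) = om (X x) * ch (n := n) p t x := by
      rw [hct x (h.geo.SR_HB hx)]
      have := (h.pw x (h.HBr (h.geo.SR_HB hx))).ne'
      field_simp
    rw [h3]
    have h4 : ch (n := n) p (fun x => a x - t x) x = ch (n := n) p a x - ch (n := n) p t x := rfl
    rw [h4]
    ring
  have i1 : IntegrableOn (fun x => |(Jac X x).det| *
      (om (X x) * ch (n := n) p (fun x => a x - t x) x) ^ 2) (HB z r) :=
    int_HB h.geo.rr (h.geo.det_c.mul ((h.smw.continuousOn.mul sD'.continuousOn).pow 2))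
  refine ⟨ext0 X z r (fun x => om (X x) * ch (n := n) p a x), ext0 X z r (WW c p X om a b),
    (h.geo.cont_ext1 hF).mono ball_diff_sub, g0, fun x hx => ext0_of_not hx.1, fun y hy => ?_,
    ?_, ?_, iw, ?_⟩
  · -- the equation
    have e1 : H31.lap (ext0 X z r (WW c p X om a b)) y =
        ∑ i, ext0 X z r (Dx X i (Dx X i (WW c p X om a b))) y :=
      Finset.sum_congr rfl fun i _ => g2 y hy i i
    rw [e1]
    by_cases hyK : y ∈ X '' KB z r
    · obtain ⟨x, hx, rfl⟩ := hyK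
      have hxS : x ∈ SR X z r R := ⟨hx, hy⟩
      unfold qq
      simp only [h.geo.ext0_X hx]
      have h3 := hLW x (h.geo.SR_HB hxS)
      have h4 : ∑ i, Dx X i (Dx X i (WW c p X om a b)) x = Lx X (WW c p X om a b) x := rfl
      have h5 := (h.w2p x (h.HBr (h.geo.SR_HB hxS))).ne'
      rw [h4, h3]
      unfold WW
      field_simp
      ring
    · unfold qq
      simp only [ext0_of_not hyK, Finset.sum_const_zero, zero_mul]
  · rw [h.geo.ball_eq, h.geo.cov_int hSK h.geo.SR_meas]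
    exact (i1.mono_set h.geo.SR_HB).congr_fun (fun x hx => (ev x hx).symm) h.geo.SR_meas
  · rw [h.geo.ball_eq, h.geo.cov hSK h.geo.SR_meas, setIntegral_congr_fun h.geo.SR_meas ev]
    have h3 : ∫ x in SR X z r R, |(Jac X x).det| *
        (om (X x) * ch (n := n) p (fun x => a x - t x) x) ^ 2 ≤
        ∫ x in HB z r, |(Jac X x).det| *
          (om (X x) * ch (n := n) p (fun x => a x - t x) x) ^ 2 :=
      setIntegral_mono_set i1 (Eventually.of_forall fun x =>
        mul_nonneg (abs_nonneg _) (sq_nonneg _)) (HasSubset.Subset.eventuallyLE h.geo.SR_HB)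
    have h4 : 0 ≤ C2 * ∫ x, h₂ x ^ 2 := mul_nonneg hC2.le hh2n
    linarith
  · have h4 : 0 ≤ C1 * ∫ x in ball 0 R \ (X '' KB z r)ᶜ, qf f x := mul_nonneg hC1.le hqfn
    have h5 : 0 ≤ (C1 + C2) * ∫ x, h₂ x ^ 2 := mul_nonneg (by positivity) hh2n
    calc _ ≤ C2 * ∫ x in ball 0 R \ (X '' KB z r)ᶜ, qf f x := bw
      _ ≤ (C1 + C2) * ((∫ x in ball 0 R \ (X '' KB z r)ᶜ, qf f x) + ∫ x, h₂ x ^ 2) + ε := by
        linarith
      _ = _ := rfl

end

end Vale.Agent.P088.R2.H509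
end
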