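import Vale.Agent.P088.R2.H509.Scal

/-!
# P088, Theorem S, boundary step: the operator of a conformally flat metric
-/

set_option linter.all false

open Bundle Manifold MeasureTheory Set Filter Topology Metric
open scoped ContDiff Matrix

noncomputable section

namespace Vale.Agent.P088.R2.H509

open Vale.Agent.P088 Vale.Agent.P088.EYM

variable {n N : ℕ} [NeZero n] {X : E n → E n} {z : E n} {r r' R : ℝ}

/-- `√(det g) g^{jk}` for `g = t^{4/(n-2)} 1`. -/
theorem gg_conf (hn : 3 ≤ n) {g : E n → Matrix (Fin n) (Fin n) ℝ} {t : ℝ} (ht : 0 < t) {y : E n}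
    (hg : g y = t ^ (4 / ((n : ℝ) - 2)) • (1 : Matrix (Fin n) (Fin n) ℝ)) (j k : Fin n) :
    gg g j k y = if j = k then t ^ 2 else 0 := by
  have hn' : (0 : ℝ) < (n : ℝ) - 2 := by
    have : (3 : ℝ) ≤ n := by exact_mod_cast hn
    linarith
  set s : ℝ := t ^ (4 / ((n : ℝ) - 2)) with hs
  have hs0 : 0 < s := Real.rpow_pos_of_pos ht _
  have h1 : (g y)⁻¹ = s⁻¹ • (1 : Matrix (Fin n) (Fin n) ℝ) := by
    rw [hg]
    have h2 : (s • (1 : Matrix (Fin n) (Fin n) ℝ))⁻¹ =
        (Units.mk0 s hs0.ne' • (1 : Matrix (Fin n) (Fin n) ℝ))⁻¹ := rfl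
    rw [h2, Matrix.inv_smul' _ _ (by simp), inv_one]
    rfl
  unfold gg
  rw [h1, hg, Matrix.det_smul, Matrix.det_one, mul_one, Fintype.card_fin, Matrix.smul_apply,
    Matrix.one_apply, smul_eq_mul]
  have h3 : √(s ^ n) * s⁻¹ = t ^ 2 := by
    have e1 : √(s ^ n) = t ^ (2 * n / ((n : ℝ) - 2)) := by
      rw [Real.sqrt_eq_rpow, ← Real.rpow_natCast, hs, ← Real.rpow_mul ht.le, ← Real.rpow_mul ht.le]
      congr 1
      field_simp
      ring
    have e2 : s⁻¹ = t ^ (-(4 / ((n : ℝ) - 2))) := by rw [hs, Real.rpow_neg ht.le]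
    rw [e1, e2, ← Real.rpow_add ht, ← Real.rpow_natCast t 2]
    congr 1
    field_simp
    push_cast
    ring
  by_cases h : j = k
  · rw [if_pos h, if_pos h, mul_one, h3]
  · rw [if_neg h, if_neg h]
    ring

theorem Jac_trans {x : E n} {a : E n} {D : Set (E n)} (hD : RelOpen D)
    (hX : ContDiffOn ℝ ∞ X D) (hx : x ∈ D) : Jac (fun x => X x + a) x = Jac X x := by
  ext i j
  unfold Jac
  simp only [Matrix.of_apply, PiLp.add_apply]
  have h := hD.pd_add (coord_smooth hX i) (contDiffOn_const (c := a i)) hx j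
  rw [h, pd_const, add_zero]

/-- The operator of the metric `θ^{4/(n-2)} Xᵀ X` (interior points). -/
theorem Geo.tr_OB (h : Geo X z r r' R) (hn : 3 ≤ n) {g : E n → Matrix (Fin n) (Fin n) ℝ}
    {θ F : E n → ℝ} (hθ : ContDiffOn ℝ ∞ θ (HB z r)) (hpos : ∀ x ∈ HB z r, 0 < θ x)
    (hg : ∀ x ∈ HB z r, g x = (θ x) ^ (4 / ((n : ℝ) - 2)) • ((Jac X x).transpose * Jac X x))
    (hF : ContDiffOn ℝ ∞ F (HB z r)) {x : E n} (hx : x ∈ OB z r) :
    Ls g F x = |(Jac X x).det| * (θ x * Lx X (fun x => θ x * F x) x - θ x * F x * Lx X θ x) := by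
  -- translation into the half space
  obtain ⟨C, hC⟩ := h.compX.isBounded.exists_norm_le
  set s : ℝ := |C| + 1 with hs
  set a : E n := s • ev 0 with ha
  have hpos0 : ∀ x ∈ KB z r, 0 < (X x + a) 0 := by
    intro x hx
    have h1 := hC _ ⟨x, hx, rfl⟩
    have h2 : |X x 0| ≤ ‖X x‖ := by
      have := PiLp.norm_apply_le (X x) (0 : Fin n)
      rwa [Real.norm_eq_abs] at this
    have h3 : (X x + a) 0 = X x 0 + s := by simp [ha, ev_apply]
    rw [h3]
    have h4 := neg_abs_le (X x 0)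
    have h5 := le_abs_self C
    linarith
  set D : Set (E n) := OB z r with hD
  set X' : E n → E n := fun x => X x + a with hX'
  set Y' : E n → E n := fun y => Yi X z r (y - a) with hY'
  set D' : Set (E n) := X' '' D with hD'
  have hDo : IsOpen D := OB_open
  have hDrel : RelOpen D := ⟨D, hDo, by
    rw [inter_eq_left.2]; exact fun y hy => le_of_lt (show 0 < y 0 from hy.2)⟩
  have hD'o : IsOpen D' := by
    have e : D' = (fun y => y - a) ⁻¹' (X '' D) := by
      ext y
      constructor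
      · rintro ⟨x, hx, rfl⟩
        exact ⟨x, hx, by simp [hX']⟩
      · rintro ⟨x, hx, hxy⟩
        refine ⟨x, hx, ?_⟩
        simp only [hX']
        rw [hxy]
        simp
    rw [e]
    refine IsOpen.preimage (by fun_prop) ?_
    rw [isOpen_iff_mem_nhds]
    rintro _ ⟨x, hx, rfl⟩
    exact h.image_mem_nhds hx (OB_open.mem_nhds hx)
  have hD'pos : D' ⊆ {y | 0 < y 0} := by
    rintro _ ⟨x, hx, rfl⟩
    exact hpos0 x (OB_sub_KB hx)
  have hD'rel : RelOpen D' := ⟨D', hD'o, by
    rw [inter_eq_left.2]; exact fun y hy => le_of_lt (show 0 < y 0 from hD'pos hy)⟩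
  -- the functions of `y`
  set th : E n → ℝ := fun y => ext0 X z r θ (y - a) with hth
  set f : E n → ℝ := fun y => ext0 X z r F (y - a) with hf
  have hsub : ∀ x, X' x - a = X x := fun x => by simp [hX']
  have hthX : ∀ x ∈ D, th (X' x) = θ x := fun x hx => by
    simp only [hth, hsub]; exact h.ext0_X (OB_sub_KB hx)
  have hfX : ∀ x ∈ D, f (X' x) = F x := fun x hx => by
    simp only [hf, hsub]; exact h.ext0_X (OB_sub_KB hx)
  have hsm : ∀ G : E n → ℝ, ContDiffOn ℝ ∞ G (HB z r) →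
      ContDiffOn ℝ ∞ (fun y => ext0 X z r G (y - a)) D' := by
    rintro G hG _ ⟨x, hx, rfl⟩
    refine ContDiffAt.contDiffWithinAt ?_
    have h1 : ContDiffAt ℝ ∞ (ext0 X z r G) (X' x - a) := by rw [hsub]; exact h.sm_ext0 hG hx
    exact h1.comp (X' x) (contDiffAt_id.sub contDiffAt_const)
  have hths := hsm θ hθ
  have hfs := hsm F hF
  have hthp : ∀ y ∈ D', 0 < th y := by
    rintro _ ⟨x, hx, rfl⟩
    rw [hthX x hx]
    exact hpos x (OB_sub_HB hx)
  set L : LD n 1 := ⟨g, fun _ _ => 0, fun _ => 1⟩ with hL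
  set L' : LD n 1 := ⟨fun y => (th y) ^ (4 / ((n : ℝ) - 2)) • (1 : Matrix (Fin n) (Fin n) ℝ),
    fun _ _ => 0, fun _ => 1⟩ with hL'
  have hthr : ContDiffOn ℝ ∞ (fun y => (th y) ^ (4 / ((n : ℝ) - 2))) D' :=
    hths.rpow_const_of_ne fun y hy => (hthp y hy).ne'
  have hθr : ContDiffOn ℝ ∞ (fun y => (θ y) ^ (4 / ((n : ℝ) - 2))) D :=
    (hθ.mono OB_sub_HB).rpow_const_of_ne fun y hy => (hpos y (OB_sub_HB hy)).ne'
  have hXD : ContDiffOn ℝ ∞ X D := h.smH.mono OB_sub_HB
  have hX'D : ContDiffOn ℝ ∞ X' D := hXD.add contDiffOn_const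
  have hJs : ∀ i j, ContDiffOn ℝ ∞ (fun x => Jac X x i j) D := fun i j =>
    (h.Jac_sm i j).mono OB_sub_HB
  have hLok : L.Ok D := by
    refine ⟨fun i j => ?_, fun x hx => ?_, fun i => contDiffOn_const, contDiffOn_const,
      fun x _ => ?_, fun x _ v hv => ?_, fun x _ j => ?_⟩
    · have e : ∀ x ∈ D, L.g x i j = (θ x) ^ (4 / ((n : ℝ) - 2)) *
          ∑ k, Jac X x k i * Jac X x k j := by
        intro x hx
        simp only [hL, hg x (OB_sub_HB hx), Matrix.smul_apply, Matrix.mul_apply,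
          Matrix.transpose_apply, smul_eq_mul]
      exact (hθr.mul (ContDiffOn.sum fun k _ => (hJs k i).mul (hJs k j))).congr e
    · simp only [hL]
      rw [hg x (OB_sub_HB hx)]
      refine Matrix.PosDef.smul ?_ (Real.rpow_pos_of_pos (hpos x (OB_sub_HB hx)) _)
      have hu : IsUnit (Jac X x) := by
        rw [Matrix.isUnit_iff_isUnit_det]
        exact isUnit_iff_ne_zero.2 (h.det x (OB_sub_KB hx))
      have h1 := Matrix.PosDef.conjTranspose_mul_self (Jac X x)
        (Matrix.mulVec_injective_of_isUnit hu)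
      rwa [Matrix.conjTranspose_eq_transpose_of_trivial] at h1
    · exact ContinuousLinearMap.adjoint_id
    · show 0 < (inner ℂ v v : ℂ).re
      rw [inner_self_eq_norm_sq_to_K]
      norm_cast
      exact pow_pos (norm_pos_iff.2 hv) 2
    · show pd j (fun _ => (1 : EndF 1)) x = ContinuousLinearMap.adjoint (0 : EndF 1) * 1 + 1 * 0
      rw [pd_const, map_zero, zero_mul, mul_zero, add_zero]
  have hL'ok : L'.Ok D' := by
    refine ⟨fun i j => ?_, fun y hy => ?_, fun i => contDiffOn_const, contDiffOn_const,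
      fun x _ => ?_, fun x _ v hv => ?_, fun x _ j => ?_⟩
    · simp only [hL', Matrix.smul_apply, smul_eq_mul]
      exact hthr.mul contDiffOn_const
    · simp only [hL']
      exact Matrix.PosDef.smul Matrix.PosDef.one (Real.rpow_pos_of_pos (hthp y hy) _)
    · exact ContinuousLinearMap.adjoint_id
    · show 0 < (inner ℂ v v : ℂ).re
      rw [inner_self_eq_norm_sq_to_K]
      norm_cast
      exact pow_pos (norm_pos_iff.2 hv) 2
    · show pd j (fun _ => (1 : EndF 1)) x = ContinuousLinearMap.adjoint (0 : EndF 1) * 1 + 1 * 0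
      rw [pd_const, map_zero, zero_mul, mul_zero, add_zero]
  have hJ : ∀ x ∈ D, Jac X' x = Jac X x := fun x hx => Jac_trans hDrel hXD hx
  have hpull : IsPull L L' D D' X' Y' (fun _ => 1) := by
    refine ⟨⟨mapsTo_image _ _, ?_, ?_, ?_, hX'D, ?_⟩, contDiffOn_const, fun _ _ => isUnit_one,
      fun x hx => ?_, fun x hx j => ?_, fun x hx => ?_⟩
    · rintro _ ⟨x, hx, rfl⟩
      simp only [hY', hsub]
      rw [h.Y_X (OB_sub_KB hx)]
      exact hx
    · intro x hx
      simp only [hY', hsub]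
      exact h.Y_X (OB_sub_KB hx)
    · rintro _ ⟨x, hx, rfl⟩
      simp only [hY', hsub]
      rw [h.Y_X (OB_sub_KB hx)]
    · rintro _ ⟨x, hx, rfl⟩
      refine ContDiffAt.contDiffWithinAt ?_
      have h1 : ContDiffAt ℝ ∞ (Yi X z r) (X' x - a) := by rw [hsub]; exact h.smY hx
      exact h1.comp (X' x) (contDiffAt_id.sub contDiffAt_const)
    · rw [hJ x hx]
      simp only [hL, hL', hthX x hx, hg x (OB_sub_HB hx)]
      rw [Matrix.mul_smul, Matrix.mul_one, Matrix.smul_mul]
    · rw [pd_const]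
      simp [hL, hL']
    · show ContinuousLinearMap.adjoint (1 : EndF 1) * 1 * 1 = 1
      rw [mul_one, mul_one]
      exact ContinuousLinearMap.adjoint_id
  set v : Fib 1 := EuclideanSpace.single 0 1 with hv
  have hvinj : ∀ s t : ℝ, sp v s = sp v t → s = t := by
    intro s t hst
    rw [sp_apply, sp_apply] at hst
    have h2 := congrArg (fun z : Fib 1 => z 0) hst
    simp [hv] at h2
    exact_mod_cast h2
  have hcs : ContDiffOn ℝ ∞ (fun y => sp v (f y)) D' := (sp v).contDiff.comp_contDiffOn hfs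
  have key := Lop_pull hDrel hD'rel hLok hL'ok hpull hcs hx
  have e1 : Lop L (fun x => (1 : EndF 1) (sp v (f (X' x)))) x = sp v (Ls g F x) := by
    have e2 : Lop L (fun x => (1 : EndF 1) (sp v (f (X' x)))) x = Lop L (fun x => sp v (F x)) x := by
      refine cClosed_lop_congr hDrel (fun _ _ => rfl) (fun _ _ _ => rfl) (fun x hx => ?_) hx
      show sp v (f (X' x)) = sp v (F x)
      rw [hfX x hx]
    rw [e2, lop_sp hDrel (hDrel.gg_smooth hLok.g_smooth hLok.g_pos) (fun _ _ _ => rfl)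
      (hF.mono OB_sub_HB) v hx]
  have e3 : Lop L' (fun y => sp v (f y)) (X' x) = sp v (Ls L'.g f (X' x)) :=
    lop_sp hD'rel (hD'rel.gg_smooth hL'ok.g_smooth hL'ok.g_pos) (fun _ _ _ => rfl) hfs v
      (mem_image_of_mem _ hx)
  rw [e1] at key
  have key2 : Ls g F x = |(Jac X x).det| * Ls L'.g f (X' x) := by
    apply hvinj
    rw [key, hJ x hx, ← smul_eq_mul, map_smul]
    congr 1
  rw [key2]
  congr 1
  -- `∑ ∂_j (θ² ∂_j f)`
  have hX'x : X' x ∈ D' := mem_image_of_mem _ hx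
  have hgg : ∀ j k, ∀ y ∈ D', gg L'.g j k y = if j = k then th y ^ 2 else 0 := fun j k y hy =>
    gg_conf hn (hthp y hy) rfl j k
  have e4 : Ls L'.g f (X' x) = ∑ j, H31.dj j (fun y => th y ^ 2 * H31.dj j f y) (X' x) := by
    unfold Ls
    refine Finset.sum_congr rfl fun j _ => ?_
    have e5 : EqOn (fun y => ∑ k, gg L'.g j k y * pd k f y) (fun y => th y ^ 2 * H31.dj j f y) D' := by
      intro y hy
      simp only [hgg j _ y hy, ite_mul, zero_mul, Finset.sum_ite_eq, Finset.mem_univ, if_true]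
      rw [pd_interior (hD'pos hy)]
      rfl
    rw [hD'rel.pd_congr e5 hX'x j, pd_interior (hD'pos hX'x)]
    rfl
  have cth : ContDiffAt ℝ ∞ th (X' x) := hths.contDiffAt (hD'o.mem_nhds hX'x)
  have cf : ContDiffAt ℝ ∞ f (X' x) := hfs.contDiffAt (hD'o.mem_nhds hX'x)
  have cth2 : ContDiffAt ℝ 2 th (X' x) := cth.of_le (WithTop.coe_le_coe.2 (le_top (a := (2 : ℕ∞))))
  have cf2 : ContDiffAt ℝ 2 f (X' x) := cf.of_le (WithTop.coe_le_coe.2 (le_top (a := (2 : ℕ∞))))
  have e6 : ∀ j, H31.dj j (fun y => th y ^ 2 * H31.dj j f y) (X' x) =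
      2 * th (X' x) * H31.dj j th (X' x) * H31.dj j f (X' x) +
        th (X' x) ^ 2 * H31.dj j (H31.dj j f) (X' x) := by
    intro j
    have e7 : (fun y => th y ^ 2 * H31.dj j f y) = fun y => (th y * th y) * H31.dj j f y := by
      funext y; ring
    rw [e7, H31.dj_mul ((H31.c2_diff cth2).fun_mul (H31.c2_diff cth2)) (H31.c2_djd cf2 j),
      H31.dj_mul (H31.c2_diff cth2) (H31.c2_diff cth2)]
    ring
  have e8 : ∀ G : E n → ℝ, ContDiffOn ℝ ∞ G (HB z r) →
      H31.lap (fun y => ext0 X z r G (y - a)) (X' x) = Lx X G x := by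
    intro G hG
    rw [← h.lap_ext0 hG hx, ← hsub x]
    -- translation invariance
    have hdj : ∀ (G' : E n → ℝ) (j : Fin n) (y : E n),
        H31.dj j (fun y => G' (y - a)) y = H31.dj j G' (y - a) := by
      intro G' j y
      unfold H31.dj
      rw [fderiv_comp_sub]
    unfold H31.lap
    refine Finset.sum_congr rfl fun j _ => ?_
    have e9 : H31.dj j (fun y => ext0 X z r G (y - a)) =
        fun y => H31.dj j (ext0 X z r G) (y - a) := funext fun y => hdj _ j y
    rw [e9, hdj]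
  have e10 : Lx X (fun x => θ x * F x) x = H31.lap (fun y => th y * f y) (X' x) := by
    rw [← e8 _ (hθ.mul hF)]
    refine H31.lap_congr ?_
    filter_upwards [hD'o.mem_nhds hX'x] with y hy
    obtain ⟨x', hx', rfl⟩ := hy
    simp only [hth, hf, hsub]
    rw [h.ext0_X (OB_sub_KB hx'), h.ext0_X (OB_sub_KB hx'), h.ext0_X (OB_sub_KB hx')]
  have e11 : Lx X θ x = H31.lap th (X' x) := (e8 θ hθ).symm
  rw [e4, e10, e11, H31.lap_mul cth2 cf2, ← hthX x hx, ← hfX x hx]
  simp only [e6, Finset.sum_add_distrib]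
  have e12 : ∑ j, th (X' x) ^ 2 * H31.dj j (H31.dj j f) (X' x) = th (X' x) ^ 2 * H31.lap f (X' x) := by
    rw [← Finset.mul_sum]
    rfl
  have e13 : ∑ j, 2 * th (X' x) * H31.dj j th (X' x) * H31.dj j f (X' x) =
      2 * th (X' x) * ∑ j, H31.dj j th (X' x) * H31.dj j f (X' x) := by
    rw [Finset.mul_sum]
    exact Finset.sum_congr rfl fun j _ => by ring
  rw [e12, e13]
  ring

end Vale.Agent.P088.R2.H509
end
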